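import Vale.Agent.P250.Defs

/-! Definitions used in the proof (not in the statement). -/

namespace Vale.Agent.P250

open scoped ContDiff ComplexConjugate
open Complex

noncomputable section

abbrev Cn (n : ℕ) := Fin n → ℂ

abbrev Met (n : ℕ) := Cn n → Cn n →L[ℝ] Cn n →L[ℝ] ℝ

abbrev Chr (n : ℕ) := Cn n → Cn n →L[ℝ] Cn n →L[ℝ] Cn n

structure IsRiemOn {n : ℕ} (U : Set (Cn n)) (g : Met n) : Prop where
  smooth : ContDiffOn ℝ ∞ g U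
  symm : ∀ x ∈ U, ∀ a b, g x a b = g x b a
  pos : ∀ x ∈ U, ∀ a, a ≠ 0 → 0 < g x a a

theorem IsKahlerOn.riem {n : ℕ} {U : Set (Cn n)} {g : Met n} (h : IsKahlerOn U g) :
    IsRiemOn U g := ⟨h.smooth, h.symm, h.pos⟩

/-- second derivative of the coefficient `g(a,b)` in the directions `c`, `d` -/
def d2g {n : ℕ} (g : Met n) (x c d a b : Cn n) : ℝ := fderiv ℝ (fun y => dg g y d a b) x c

section Wirtinger

variable {E : Type} [NormedAddCommGroup E] [NormedSpace ℝ E] [NormedSpace ℂ E]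

/-- holomorphic derivative in the direction `a` -/
def dzf (a : E) (f : E → ℂ) (x : E) : ℂ := (fderiv ℝ f x a - I * fderiv ℝ f x (I • a)) / 2

/-- antiholomorphic derivative in the direction `a` -/
def dbf (a : E) (f : E → ℂ) (x : E) : ℂ := (fderiv ℝ f x a + I * fderiv ℝ f x (I • a)) / 2

def j1 (f : E → ℝ) (x a : E) : ℂ := dzf a (fun y => (f y : ℂ)) x

def j2 (f : E → ℝ) (x a b : E) : ℂ := dzf a (dbf b fun y => (f y : ℂ)) x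

def j3 (f : E → ℝ) (x a b c : E) : ℂ := dzf a (dzf b (dbf c fun y => (f y : ℂ))) x

def j4 (f : E → ℝ) (x a b c d : E) : ℂ := dzf a (dzf b (dbf c (dbf d fun y => (f y : ℂ)))) x

end Wirtinger

/-- height function of the Siegel domain; coordinates `z = x 0`, `w = x 1`, fibre `x 2` -/
def rho (x : Cn 3) : ℝ := (x 1).im - ‖x 0‖ ^ 2

/-- holomorphic derivative of `rho` -/
def rhoD (x a : Cn 3) : ℂ := -(I * a 1) / 2 - conj (x 0) * a 0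

/-- the complex hyperbolic metric of the base -/
def om (x a b : Cn 3) : ℂ :=
  rhoD x a * conj (rhoD x b) / (rho x : ℂ) ^ 2 + a 0 * conj (b 0) / (rho x : ℂ)

/-- its norm -/
def nw (x a : Cn 3) : ℝ := √(‖rhoD x a‖ ^ 2 / rho x ^ 2 + ‖a 0‖ ^ 2 / rho x)

/-- plurisubharmonic weights on the base with bounded geometry -/
structure Good (χ : Cn 3 → ℝ) (Λ : ℝ) : Prop where
  smooth : ContDiffOn ℝ ∞ χ {x | 0 < rho x}
  indep : ∀ x ξ, χ (Function.update x 2 ξ) = χ x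
  psh : ∀ x, 0 < rho x → ∀ a, 0 ≤ (j2 χ x a a).re
  b2 : ∀ x, 0 < rho x → ∀ a b, ‖j2 χ x a b‖ ≤ Λ * nw x a * nw x b
  b3 : ∀ x, 0 < rho x → ∀ a b c, ‖j3 χ x a b c‖ ≤ Λ * nw x a * nw x b * nw x c
  b4 : ∀ x, 0 < rho x → ∀ a b c d, ‖j4 χ x a b c d‖ ≤ Λ * nw x a * nw x b * nw x c * nw x d

/-- the disc bundle -/
def Dom (χ : Cn 3 → ℝ) : Set (Cn 3) := {x | 0 < rho x ∧ ‖x 2‖ ^ 2 * Real.exp (χ x) < rho x}

/-- the model subharmonic function with a deep well -/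
structure Bump (G : ℂ → ℝ) (D K : ℝ) : Prop where
  smooth : ContDiff ℝ ∞ G
  K0 : 0 ≤ K
  zero : ∀ ζ : ℂ, 9 ≤ ζ.im → G ζ = 0 ∧ j2 G ζ 1 1 = 0 ∧ j3 G ζ 1 1 1 = 0 ∧ j4 G ζ 1 1 1 1 = 0
  sub : ∀ ζ : ℂ, 0 ≤ (j2 G ζ 1 1).re
  bd : ∀ ζ : ℂ, 0 ≤ ζ.im → ‖j2 G ζ 1 1‖ ≤ K ∧ ‖j3 G ζ 1 1 1‖ ≤ K ∧ ‖j4 G ζ 1 1 1 1‖ ≤ K
  lip : ∀ ζ ζ' : ℂ, 0 ≤ ζ.im → 0 ≤ ζ'.im → |G ζ - G ζ'| ≤ K * ‖ζ - ζ'‖
  le : ∀ ζ : ℂ, 0 ≤ ζ.im → G ζ ≤ 12
  well : ∀ m : ℤ, G (2 * I + 2 * Real.pi * m) ≤ -D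

/-- lattice points -/
def lat (m : ℤ × ℤ) : ℂ := 6 * ((m.1 : ℂ) + (m.2 : ℂ) * I)

/-- the affine functions; the imaginary part is `T^(2k) rho x + |T^k x 0 - lat m|^2` -/
def ell (T : ℝ) (k : ℕ) (m : ℤ × ℤ) (x : Cn 3) : ℂ :=
  (T : ℂ) ^ (2 * k) * x 1 - 2 * I * conj (lat m) * (T : ℂ) ^ k * x 0 + I * (‖lat m‖ : ℂ) ^ 2

/-- one level of the weight -/
def lev (G : ℂ → ℝ) (T : ℝ) (k : ℕ) (x : Cn 3) : ℝ := ∑ᶠ m : ℤ × ℤ, G (ell T k m x)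

/-- the weight -/
def wt (G : ℂ → ℝ) (T N : ℝ) (x : Cn 3) : ℝ := N * ∑ᶠ k : ℕ, lev G T k x

/-- what is used of the Jacobian determinant of a biholomorphism onto a bounded domain -/
structure Jac (U : Set (Cn 3)) (J : Cn 3 → ℂ) (C : ℝ) : Prop where
  C0 : 0 < C
  ne : ∀ x ∈ U, J x ≠ 0
  line : ∀ p a : Cn 3, DifferentiableOn ℂ (fun τ : ℂ => J (p + τ • a)) {τ | p + τ • a ∈ U}
  bd : ∀ (x : Cn 3) (β : ℂ) (r₀ r₁ r₂ : ℝ), 0 < r₀ → 0 < r₁ → 0 < r₂ →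
    (∀ τ : ℂ, ‖τ‖ < r₀ → x + τ • ![1, β, 0] ∈ U) → (∀ τ : ℂ, ‖τ‖ < r₁ → x + τ • ![0, 1, 0] ∈ U) →
    (∀ τ : ℂ, ‖τ‖ < r₂ → x + τ • ![0, 0, 1] ∈ U) → ‖J x‖ ≤ C / (r₀ * r₁ * r₂)

/-- Hermitian forms as plain functions -/
structure Herm {V : Type} [AddCommGroup V] [Module ℂ V] (f : V → V → ℂ) : Prop where
  add : ∀ a a' b, f (a + a') b = f a b + f a' b
  smul : ∀ (c : ℂ) a b, f (c • a) b = c * f a b
  symm : ∀ a b, f b a = conj (f a b)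

/-- the fibre variable, smaller than one on the disc bundle -/
def tt (χ : Cn 3 → ℝ) (x : Cn 3) : ℝ := ‖x 2‖ ^ 2 * Real.exp (χ x) / rho x

/-- the Kaehler potential -/
def pot (A : ℝ) (χ : Cn 3 → ℝ) (x : Cn 3) : ℝ :=
  -(A * Real.log (rho x)) - Real.log (1 - tt χ x)

/-- the exhaustion function -/
def exh (χ : Cn 3 → ℝ) (x : Cn 3) : ℝ :=
  -Real.log (rho x) + Real.log (‖x 1 + I‖ ^ 2) - Real.log (1 - tt χ x)

/-- The algebraic data at one point of the disc bundle. -/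
structure PData (V : Type) [AddCommGroup V] [Module ℂ V] (Λ A : ℝ) where
  o : V → V → ℂ
  θ : V → V → ℂ
  nn : V → ℝ
  n : V →ₗ[ℂ] ℂ
  P : V →ₗ[ℂ] V
  s : ℝ
  κ : ℝ
  ξ : ℂ
  c3 : V → V → V → ℂ
  c4 : V → V → V → V → ℂ
  cc : V → V → V
  ho : Herm o
  hθ : Herm θ
  s0 : 0 ≤ s
  κ0 : 0 ≤ κ
  hξ : ‖ξ‖ ^ 2 = s * (1 + s) * κ
  nn0 : ∀ a, 0 ≤ nn a
  hnn : ∀ a, (o a a).re = nn a ^ 2
  lo : ∀ a, (o a a).re ≤ (θ a a).re
  hi : ∀ a, (θ a a).re ≤ Λ * (o a a).re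
  hP : ∀ a b, A * o (P a) b + s * θ (P a) b = θ a b
  hc : ∀ a b c, A * o (cc a b) c + s * θ (cc a b) c = c3 a b c
  c3_symm : ∀ a b c, c3 a b c = c3 b a c
  c3_add : ∀ a a' b c, c3 (a + a') b c = c3 a b c + c3 a' b c
  c3_smul : ∀ (t : ℂ) a b c, c3 (t • a) b c = t * c3 a b c
  c3_add' : ∀ a b c c', c3 a b (c + c') = c3 a b c + c3 a b c'
  c3_smul' : ∀ (t : ℂ) a b c, c3 a b (t • c) = conj t * c3 a b c
  b3 : ∀ a b c, ‖c3 a b c‖ ≤ Λ * nn a * nn b * nn c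
  b4 : ∀ a b c d, ‖c4 a b c d‖ ≤ Λ * nn a * nn b * nn c * nn d

namespace PData

variable {V : Type} [AddCommGroup V] [Module ℂ V] {Λ A : ℝ} (d : PData V Λ A)

def G (a b : V) : ℂ := A * d.o a b + d.s * d.θ a b

def μ (a b : V) : ℂ := d.κ * d.n a * conj (d.n b)

def ν (a : V) : ℂ := d.ξ * conj (d.n a)

def γ (a b : V) : V := (d.s : ℂ) • d.cc a b + conj (d.ν b) • d.P a + conj (d.ν a) • d.P b

/-- minus the curvature tensor -/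
def R (x y z w : V) : ℂ :=
  (A + d.s) * (d.o x z * d.o y w + d.o x w * d.o y z) + d.s * d.c4 x y z w +
    (d.ν w * d.c3 x y z + d.ν z * d.c3 x y w + conj (d.ν y) * conj (d.c3 z w x) +
      conj (d.ν x) * conj (d.c3 z w y)) +
    d.s * (1 + d.s) * (d.θ x z * d.θ y w + d.θ x w * d.θ y z) +
    (1 + 2 * d.s) * (d.μ y w * d.θ x z + d.μ x w * d.θ y z + d.μ y z * d.θ x w +
      d.μ x z * d.θ y w) + 2 * d.μ x z * d.μ y w - d.G (d.γ x y) (d.γ z w)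

/-- the metric -/
def T (a b : V) : ℝ := (d.G a b + d.μ a b).re

end PData

end

end Vale.Agent.P250
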