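import Vale.Agent.P250.Base

/-! An explicit subharmonic function with a deep well. -/

namespace Vale.Agent.P250

open scoped ContDiff ComplexConjugate
open Complex

namespace BumpAux

open Set Filter Topology

noncomputable section

/-- directional derivative -/
def DD (a : ℂ) (g : ℂ → ℝ) : ℂ → ℝ := fun y => fderiv ℝ g y a

theorem DD_at {g : ℂ → ℝ} {z : ℂ} (hg : ContDiffAt ℝ ∞ g z) (a : ℂ) :
    ContDiffAt ℝ ∞ (DD a g) z :=
  (hg.fderiv_right (m := ∞) (by simp)).clm_apply contDiffAt_const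

theorem DD_congr {g g' : ℂ → ℝ} {z : ℂ} (h : g =ᶠ[𝓝 z] g') (a : ℂ) :
    DD a g =ᶠ[𝓝 z] DD a g' :=
  (h.fderiv (𝕜 := ℝ)).mono fun _ hy => congrArg (fun L => L a) hy

/-- the Laplacian -/
def Lap (g : ℂ → ℝ) (z : ℂ) : ℝ := DD 1 (DD 1 g) z + DD I (DD I g) z

theorem Lap_congr {g g' : ℂ → ℝ} {z : ℂ} (h : g =ᶠ[𝓝 z] g') : Lap g z = Lap g' z := by
  unfold Lap
  rw [(DD_congr (DD_congr h 1) 1).eq_of_nhds, (DD_congr (DD_congr h I) I).eq_of_nhds]

theorem fderiv_ofReal {g : ℂ → ℝ} {z : ℂ} (hg : DifferentiableAt ℝ g z) (a : ℂ) :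
    fderiv ℝ (fun y => (g y : ℂ)) z a = DD a g z :=
  congrArg (fun L => L a) (ofRealCLM.hasFDerivAt.comp z hg.hasFDerivAt).fderiv

theorem j2_re {G : ℂ → ℝ} (hG : ContDiff ℝ ∞ G) (z : ℂ) : (j2 G z 1 1).re = Lap G z / 4 := by
  have h1 : dbf 1 (fun y => (G y : ℂ)) = fun y => (1 / 2 : ℂ) * (DD 1 G y : ℂ) +
      (I / 2) * (DD I G y : ℂ) := by
    funext y
    have hd : DifferentiableAt ℝ G y := hG.contDiffAt.differentiableAt (by simp)
    simp only [dbf, fderiv_ofReal hd, smul_eq_mul, mul_one]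
    ring
  have hA : DifferentiableAt ℝ (DD 1 G) z := (DD_at hG.contDiffAt 1).differentiableAt (by simp)
  have hB : DifferentiableAt ℝ (DD I G) z := (DD_at hG.contDiffAt I).differentiableAt (by simp)
  have hA' : DifferentiableAt ℝ (fun y => (DD 1 G y : ℂ)) z := ofRealCLM.differentiableAt.comp z hA
  have hB' : DifferentiableAt ℝ (fun y => (DD I G y : ℂ)) z := ofRealCLM.differentiableAt.comp z hB
  have h2 : ∀ a, fderiv ℝ (fun y => (1 / 2 : ℂ) * (DD 1 G y : ℂ) + (I / 2) * (DD I G y : ℂ)) z a =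
      (1 / 2 : ℂ) * (DD a (DD 1 G) z : ℂ) + (I / 2) * (DD a (DD I G) z : ℂ) := by
    intro a
    rw [((hA'.hasFDerivAt.const_mul (1 / 2 : ℂ)).fun_add (hB'.hasFDerivAt.const_mul (I / 2))).fderiv]
    simp only [_root_.add_apply, _root_.smul_apply, smul_eq_mul, fderiv_ofReal hA,
      fderiv_ofReal hB]
  unfold j2 dzf
  rw [h1, h2, h2]
  simp [Lap]
  ring

theorem DD_comp {φ φ' : ℝ → ℝ} {φ'' : ℝ} {w : ℂ → ℝ} {z : ℂ} (hw : ContDiff ℝ ∞ w)
    (h1 : ∀ y, HasDerivAt φ (φ' (w y)) (w y)) (h2 : HasDerivAt φ' φ'' (w z)) (a : ℂ) :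
    DD a (DD a fun y => φ (w y)) z = φ'' * DD a w z ^ 2 + φ' (w z) * DD a (DD a w) z := by
  have hd : ∀ y, DifferentiableAt ℝ w y := fun y => hw.contDiffAt.differentiableAt (by simp)
  have h3 : (DD a fun y => φ (w y)) = fun y => φ' (w y) * DD a w y := by
    funext y
    have := ((h1 y).comp_hasFDerivAt y (hd y).hasFDerivAt).fderiv
    exact congrArg (fun L => L a) this
  have hA : DifferentiableAt ℝ (DD a w) z := (DD_at hw.contDiffAt a).differentiableAt (by simp)
  have h4 := ((h2.comp_hasFDerivAt z (hd z).hasFDerivAt).fun_mul hA.hasFDerivAt).fderiv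
  rw [h3]
  refine (congrArg (fun L => L a) h4).trans ?_
  simp only [_root_.add_apply, _root_.smul_apply, smul_eq_mul, Function.comp_apply, DD]
  ring

theorem Lap_comp {φ φ' : ℝ → ℝ} {φ'' : ℝ} {w : ℂ → ℝ} {z : ℂ} (hw : ContDiff ℝ ∞ w)
    (h1 : ∀ y, HasDerivAt φ (φ' (w y)) (w y)) (h2 : HasDerivAt φ' φ'' (w z)) :
    Lap (fun y => φ (w y)) z = φ'' * (DD 1 w z ^ 2 + DD I w z ^ 2) + φ' (w z) * Lap w z := by
  unfold Lap
  rw [DD_comp hw h1 h2, DD_comp hw h1 h2]
  ring

theorem Lap_add_aff {v : ℂ → ℝ} (hv : ContDiff ℝ ∞ v) (L : ℂ →L[ℝ] ℝ) (c : ℝ) (z : ℂ) :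
    Lap (fun y => v y + (L y + c)) z = Lap v z := by
  have h : ∀ a, DD a (fun y => v y + (L y + c)) = fun y => DD a v y + L a := by
    intro a
    funext y
    have hd : DifferentiableAt ℝ v y := hv.contDiffAt.differentiableAt (by simp)
    exact congrArg (fun L => L a) (hd.hasFDerivAt.fun_add (L.hasFDerivAt.add_const c)).fderiv
  unfold Lap
  rw [h, h]
  simp only [DD, fderiv_add_const]
  rfl

/-- the squared modulus of `exp (i z + 2) - 1` -/
def NN (z : ℂ) : ℝ := Real.exp (2 - z.im) ^ 2 - 2 * (Real.exp (2 - z.im) * Real.cos z.re) + 1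

theorem hE (z : ℂ) : HasFDerivAt (fun z : ℂ => Real.exp (2 - z.im))
    (Real.exp (2 - z.im) • -imCLM) z := (imCLM.hasFDerivAt.const_sub 2).exp

theorem hC (z : ℂ) : HasFDerivAt (fun z : ℂ => Real.cos z.re) (-Real.sin z.re • reCLM) z :=
  reCLM.hasFDerivAt.cos

theorem hS (z : ℂ) : HasFDerivAt (fun z : ℂ => Real.sin z.re) (Real.cos z.re • reCLM) z :=
  reCLM.hasFDerivAt.sin

theorem NN_smooth : ContDiff ℝ ∞ NN := by
  have h1 : ContDiff ℝ ∞ fun z : ℂ => Real.exp (2 - z.im) :=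
    (contDiff_const.sub imCLM.contDiff).exp
  have h2 : ContDiff ℝ ∞ fun z : ℂ => Real.cos z.re := reCLM.contDiff.cos
  exact ((h1.pow 2).sub (contDiff_const.mul (h1.mul h2))).add contDiff_const

theorem DD_NN (a : ℂ) : DD a NN = fun z => (-2 * a.im) * Real.exp (2 - z.im) ^ 2 +
    ((2 * a.im) * (Real.exp (2 - z.im) * Real.cos z.re) +
      (2 * a.re) * (Real.exp (2 - z.im) * Real.sin z.re)) := by
  funext z
  have h := ((((hE z).pow 2).fun_sub (((hE z).fun_mul (hC z)).const_mul 2)).add_const 1).fderiv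
  refine (congrArg (fun L => L a) h).trans ?_
  simp
  ring

theorem DD_DD_NN (a z : ℂ) : DD a (DD a NN) z = 4 * a.im ^ 2 * Real.exp (2 - z.im) ^ 2 +
    2 * (a.re ^ 2 - a.im ^ 2) * (Real.exp (2 - z.im) * Real.cos z.re) -
      4 * a.re * a.im * (Real.exp (2 - z.im) * Real.sin z.re) := by
  rw [DD_NN]
  have h := ((((hE z).pow 2).const_mul (-2 * a.im)).fun_add
    ((((hE z).fun_mul (hC z)).const_mul (2 * a.im)).fun_add
      (((hE z).fun_mul (hS z)).const_mul (2 * a.re)))).fderiv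
  refine (congrArg (fun L => L a) h).trans ?_
  simp
  ring

theorem NN_ge (z : ℂ) : (Real.exp (2 - z.im) - 1) ^ 2 ≤ NN z := by
  unfold NN
  nlinarith [Real.cos_le_one z.re, Real.exp_pos (2 - z.im)]

theorem NN_le (z : ℂ) : NN z ≤ (Real.exp (2 - z.im) + 1) ^ 2 := by
  unfold NN
  nlinarith [Real.neg_one_le_cos z.re, Real.exp_pos (2 - z.im)]

theorem NN_nonneg (z : ℂ) : 0 ≤ NN z := (sq_nonneg _).trans (NN_ge z)

/-- the subharmonic function with a well -/
def uu (e : ℝ) (z : ℂ) : ℝ := Real.log (NN z + e) + ((-imCLM) z + 7)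

theorem log_smooth {e : ℝ} (he : 0 < e) : ContDiff ℝ ∞ fun z => Real.log (NN z + e) :=
  (NN_smooth.add contDiff_const).log fun z => by linarith [NN_nonneg z]

theorem uu_smooth {e : ℝ} (he : 0 < e) : ContDiff ℝ ∞ (uu e) :=
  (log_smooth he).add ((-imCLM).contDiff.add contDiff_const)

theorem Lap_uu {e : ℝ} (he : 0 < e) (z : ℂ) : 0 ≤ Lap (uu e) z := by
  have hp : ∀ y, 0 < NN y + e := fun y => by linarith [NN_nonneg y]
  have h := Lap_comp (φ := fun t => Real.log (t + e)) (φ' := fun t => (t + e)⁻¹)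
    (φ'' := -1 / (NN z + e) ^ 2) (z := z) NN_smooth
    (fun y => by simpa using ((hasDerivAt_id (NN y)).add_const e).log (hp y).ne')
    (((hasDerivAt_id (NN z)).add_const e).inv (hp z).ne')
  unfold uu
  rw [Lap_add_aff (log_smooth he), h]
  have h1 : DD 1 NN z ^ 2 + DD I NN z ^ 2 = 4 * Real.exp (2 - z.im) ^ 2 * NN z := by
    rw [DD_NN, DD_NN]
    simp only [NN, one_im, one_re, I_re, I_im]
    linear_combination (4 * Real.exp (2 - z.im) ^ 2) * Real.sin_sq_add_cos_sq z.re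
  have h2 : Lap NN z = 4 * Real.exp (2 - z.im) ^ 2 := by
    unfold Lap
    rw [DD_DD_NN, DD_DD_NN]
    simp
  rw [h1, h2]
  have h3 : -1 / (NN z + e) ^ 2 * (4 * Real.exp (2 - z.im) ^ 2 * NN z) +
      (NN z + e)⁻¹ * (4 * Real.exp (2 - z.im) ^ 2) =
        4 * Real.exp (2 - z.im) ^ 2 * e / (NN z + e) ^ 2 := by
    have := (hp z).ne'
    field_simp
    ring
  rw [h3]
  positivity

/-- a smooth convex function -/
def lam (t : ℝ) : ℝ := ∫ s in (0 : ℝ)..t, Real.smoothTransition s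

theorem lam_deriv (t : ℝ) : HasDerivAt lam (Real.smoothTransition t) t :=
  (Real.smoothTransition.continuous.integral_hasStrictDerivAt 0 t).hasDerivAt

theorem lam_smooth : ContDiff ℝ ∞ lam := by
  rw [contDiff_infty_iff_deriv]
  refine ⟨fun t => (lam_deriv t).differentiableAt, ?_⟩
  have : deriv lam = Real.smoothTransition := funext fun t => (lam_deriv t).deriv
  rw [this]
  exact Real.smoothTransition.contDiff

theorem lam_zero {t : ℝ} (ht : t ≤ 0) : lam t = 0 := by
  unfold lam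
  rw [intervalIntegral.integral_congr (g := fun _ => 0)]
  · simp
  · intro s hs
    rw [uIcc_of_ge ht] at hs
    exact Real.smoothTransition.zero_of_nonpos hs.2

theorem lam_le {t : ℝ} (ht : 0 ≤ t) : lam t ≤ t := by
  have h := intervalIntegral.integral_mono_on (μ := MeasureTheory.volume) ht
    (Real.smoothTransition.continuous.intervalIntegrable 0 t)
    (continuous_const.intervalIntegrable 0 t) (g := fun _ => 1)
    fun s _ => Real.smoothTransition.le_one s
  simpa [lam] using h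

theorem lam_big {t : ℝ} (ht : 1 ≤ t) : lam t = t + (lam 1 - 1) := by
  have h := intervalIntegral.integral_add_adjacent_intervals (μ := MeasureTheory.volume)
    (Real.smoothTransition.continuous.intervalIntegrable 0 1)
    (Real.smoothTransition.continuous.intervalIntegrable 1 t)
  have h2 : ∫ s in (1 : ℝ)..t, Real.smoothTransition s = t - 1 := by
    rw [intervalIntegral.integral_congr (g := fun _ => 1)]
    · simp
    · intro s hs
      rw [uIcc_of_le ht] at hs
      exact Real.smoothTransition.one_of_one_le hs.1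
  unfold lam
  linarith

theorem Lap_lam {u : ℂ → ℝ} (hu : ContDiff ℝ ∞ u) {z : ℂ} (h : 0 ≤ Lap u z) :
    0 ≤ Lap (fun y => lam (u y)) z := by
  have h1 : DifferentiableAt ℝ Real.smoothTransition (u z) :=
    (Real.smoothTransition.contDiffAt (n := 1)).differentiableAt (by simp)
  rw [Lap_comp hu (fun y => lam_deriv _) h1.hasDerivAt]
  have h2 : 0 ≤ deriv Real.smoothTransition (u z) := Real.smoothTransition.monotone.deriv_nonneg
  have h3 := Real.smoothTransition.nonneg (u z)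
  positivity

theorem exp_small {z : ℂ} (hz : 3 ≤ z.im) : Real.exp (2 - z.im) ≤ 1 / 2 := by
  have h1 : Real.exp (2 - z.im) ≤ Real.exp (-1) := Real.exp_le_exp.2 (by linarith)
  have h2 := Real.exp_neg_one_lt_d9
  linarith

theorem uu_ge {e : ℝ} (he : 0 < e) {z : ℂ} (h3 : 3 ≤ z.im) (h4 : z.im ≤ 4) : 1 ≤ uu e z := by
  have h1 := exp_small h3
  have h2 := NN_ge z
  have h5 := Real.exp_pos (2 - z.im)
  have h6 : 1 / 4 ≤ NN z + e := by nlinarith
  have h7 : Real.log (1 / 4) ≤ Real.log (NN z + e) := Real.log_le_log (by norm_num) h6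
  have h8 : Real.log (1 / 4) = -(2 * Real.log 2) := by
    rw [show (1 / 4 : ℝ) = (2 ^ 2)⁻¹ by norm_num, Real.log_inv, Real.log_pow]
    norm_num
  have h9 := Real.log_two_lt_d9
  simp only [uu, _root_.neg_apply, imCLM_apply]
  linarith

theorem uu_le0 {e : ℝ} (he : 0 < e) (he1 : e ≤ 1) {z : ℂ} (h : 17 / 2 ≤ z.im) : uu e z ≤ 0 := by
  have h1 := exp_small (z := z) (by linarith)
  have h2 := NN_le z
  have h5 := Real.exp_pos (2 - z.im)
  have h6 : NN z + e ≤ 2 ^ 2 := by nlinarith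
  have h7 : Real.log (NN z + e) ≤ Real.log (2 ^ 2) :=
    Real.log_le_log (by linarith [NN_nonneg z]) h6
  rw [Real.log_pow] at h7
  have h9 := Real.log_two_lt_d9
  simp only [uu, _root_.neg_apply, imCLM_apply]
  push_cast at h7
  linarith

theorem uu_le {e : ℝ} (he : 0 < e) (he1 : e ≤ 1) {z : ℂ} (h : 0 ≤ z.im) : uu e z ≤ 12 := by
  have h1 : Real.exp (2 - z.im) ≤ Real.exp 1 ^ 2 := by
    rw [← Real.exp_nat_mul]
    exact Real.exp_le_exp.2 (by push_cast; linarith)
  have h0 := Real.exp_one_lt_d9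
  have h0' := Real.exp_pos 1
  have h1' : Real.exp (2 - z.im) ≤ 8 := by nlinarith
  have h2 := NN_le z
  have h5 := Real.exp_pos (2 - z.im)
  have h6 : NN z + e ≤ 2 ^ 7 := by nlinarith
  have h7 : Real.log (NN z + e) ≤ Real.log (2 ^ 7) :=
    Real.log_le_log (by linarith [NN_nonneg z]) h6
  rw [Real.log_pow] at h7
  have h9 := Real.log_two_lt_d9
  simp only [uu, _root_.neg_apply, imCLM_apply]
  push_cast at h7
  linarith

/-- the bump -/
def GG (e : ℝ) (z : ℂ) : ℝ := if z.im < 7 / 2 then uu e z + (lam 1 - 1) else lam (uu e z)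

theorem GG_lo {e : ℝ} (he : 0 < e) {z : ℂ} (hz : z.im < 4) :
    GG e =ᶠ[𝓝 z] fun y => uu e y + (lam 1 - 1) := by
  filter_upwards [(isOpen_lt continuous_im continuous_const).mem_nhds hz] with y hy
  unfold GG
  split_ifs with h
  · rfl
  · exact lam_big (uu_ge he (by linarith) (le_of_lt hy))

theorem GG_hi {e : ℝ} (he : 0 < e) {z : ℂ} (hz : 3 < z.im) :
    GG e =ᶠ[𝓝 z] fun y => lam (uu e y) := by
  filter_upwards [(isOpen_lt continuous_const continuous_im).mem_nhds hz] with y hy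
  unfold GG
  split_ifs with h
  · exact (lam_big (uu_ge he (le_of_lt hy) (by linarith))).symm
  · rfl

theorem GG_smooth {e : ℝ} (he : 0 < e) : ContDiff ℝ ∞ (GG e) := by
  rw [contDiff_iff_contDiffAt]
  intro z
  by_cases hz : z.im < 4
  · exact ((uu_smooth he).add contDiff_const).contDiffAt.congr_of_eventuallyEq (GG_lo he hz)
  · exact (lam_smooth.comp (uu_smooth he)).contDiffAt.congr_of_eventuallyEq
      (GG_hi he (by linarith))

theorem Lap_GG {e : ℝ} (he : 0 < e) (z : ℂ) : 0 ≤ Lap (GG e) z := by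
  by_cases hz : z.im < 4
  · rw [Lap_congr (GG_lo he hz)]
    have := Lap_add_aff (uu_smooth he) 0 (lam 1 - 1) z
    simp only [_root_.zero_apply, zero_add] at this
    rw [this]
    exact Lap_uu he z
  · rw [Lap_congr (GG_hi he (by linarith))]
    exact Lap_lam (uu_smooth he) (Lap_uu he z)

/-- smooth, periodic, vanishing high up -/
structure Per {X : Type} [NormedAddCommGroup X] [NormedSpace ℝ X] (h : ℂ → X) : Prop where
  sm : ContDiff ℝ ∞ h
  per : Function.Periodic h (2 * Real.pi)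
  zero : ∀ z : ℂ, 17 / 2 < z.im → h z = 0

section

variable {X Y : Type} [NormedAddCommGroup X] [NormedSpace ℝ X] [NormedAddCommGroup Y]
  [NormedSpace ℝ Y] {h : ℂ → X}

theorem Per.fder (hh : Per h) : Per (fderiv ℝ h) where
  sm := hh.sm.fderiv_right (m := ∞) (by simp)
  per z := by
    rw [← fderiv_comp_add_right]
    exact congrArg (fun f => fderiv ℝ f z) (funext hh.per)
  zero z hz := by
    have : h =ᶠ[𝓝 z] fun _ => 0 := by
      filter_upwards [(isOpen_lt continuous_const continuous_im).mem_nhds hz] with y hy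
      exact hh.zero y hy
    rw [this.fderiv_eq]
    simp

theorem Per.map (hh : Per h) {L : X → Y} (hL : ContDiff ℝ ∞ L) (h0 : L 0 = 0) :
    Per fun z => L (h z) where
  sm := hL.comp hh.sm
  per z := congrArg L (hh.per z)
  zero z hz := by rw [hh.zero z hz, h0]

theorem Per.bdd (hh : Per h) : ∃ K, 0 ≤ K ∧ ∀ z : ℂ, 0 ≤ z.im → ‖h z‖ ≤ K := by
  have hc : IsCompact (Icc 0 (2 * Real.pi) ×ℂ Icc (0 : ℝ) 9) := isCompact_Icc.reProdIm isCompact_Icc
  obtain ⟨K, hK⟩ := hc.exists_bound_of_continuousOn hh.sm.continuous.continuousOn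
  refine ⟨max K 0, le_max_right _ _, fun z hz => ?_⟩
  by_cases h9 : z.im ≤ 9
  · have hp : 0 < 2 * Real.pi := by positivity
    rw [← hh.per.sub_int_mul_eq ⌊z.re / (2 * Real.pi)⌋]
    refine (hK _ ?_).trans (le_max_left _ _)
    have h1 := Int.sub_floor_div_mul_nonneg z.re hp
    have h2 := Int.sub_floor_div_mul_lt z.re hp
    refine ⟨?_, ?_⟩
    · simpa using ⟨by linarith, by linarith⟩
    · simpa using ⟨hz, h9⟩
  · rw [hh.zero z (by linarith)]
    simp

end

theorem Per.dz {h : ℂ → ℂ} (hh : Per h) : Per (dzf 1 h) :=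
  hh.fder.map (L := fun L : ℂ →L[ℝ] ℂ => (L 1 - I * L (I • 1)) / 2)
    (by fun_prop) (by simp)

theorem Per.db {h : ℂ → ℂ} (hh : Per h) : Per (dbf 1 h) :=
  hh.fder.map (L := fun L : ℂ →L[ℝ] ℂ => (L 1 + I * L (I • 1)) / 2)
    (by fun_prop) (by simp)

theorem GG_per {e : ℝ} (he : 0 < e) (he1 : e ≤ 1) : Per (GG e) where
  sm := GG_smooth he
  per z := by
    have h1 : (z + 2 * Real.pi).im = z.im := by simp
    have h2 : Real.cos (z + 2 * Real.pi).re = Real.cos z.re := by simp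
    simp only [GG, uu, NN, _root_.neg_apply, imCLM_apply, h1, h2]
  zero z hz := by
    unfold GG
    rw [if_neg (by linarith)]
    exact lam_zero (uu_le0 he he1 hz.le)

end

end BumpAux

open BumpAux in
theorem exists_bump (D : ℝ) : ∃ G K, Bump G D K := by
  set e := Real.exp (-(|D| + 5)) with hedef
  have he : 0 < e := Real.exp_pos _
  have he1 : e ≤ 1 := Real.exp_le_one_iff.2 (by linarith [abs_nonneg D])
  have hP := GG_per he he1
  have hc : Per fun z => (GG e z : ℂ) := hP.map (L := fun t : ℝ => (t : ℂ)) ofRealCLM.contDiff rfl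
  have h2 : Per fun z => j2 (GG e) z 1 1 := hc.db.dz
  have h3 : Per fun z => j3 (GG e) z 1 1 1 := hc.db.dz.dz
  have h4 : Per fun z => j4 (GG e) z 1 1 1 1 := hc.db.db.dz.dz
  obtain ⟨K1, hK1, b1⟩ := hP.fder.bdd
  obtain ⟨K2, hK2, b2⟩ := h2.bdd
  obtain ⟨K3, hK3, b3⟩ := h3.bdd
  obtain ⟨K4, hK4, b4⟩ := h4.bdd
  have hl : lam 1 - 1 ≤ 0 := by linarith [lam_le zero_le_one]
  refine ⟨GG e, K1 + K2 + K3 + K4, hP.sm, by positivity, fun ζ hζ => ?_, fun ζ => ?_,
    fun ζ hζ => ?_, fun ζ ζ' hζ hζ' => ?_, fun ζ hζ => ?_, fun m => ?_⟩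
  · have : 17 / 2 < ζ.im := by linarith
    exact ⟨hP.zero ζ this, h2.zero ζ this, h3.zero ζ this, h4.zero ζ this⟩
  · rw [j2_re hP.sm]
    linarith [Lap_GG he ζ]
  · exact ⟨by linarith [b2 ζ hζ], by linarith [b3 ζ hζ], by linarith [b4 ζ hζ]⟩
  · exact (convex_halfSpace_im_ge 0).norm_image_sub_le_of_norm_fderiv_le (𝕜 := ℝ)
      (fun x _ => hP.sm.contDiffAt.differentiableAt (by simp))
      (fun x hx => by linarith [b1 x hx]) hζ' hζ
  · have := uu_le he he1 hζ
    unfold GG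
    split_ifs
    · linarith
    · by_cases h0 : 0 ≤ uu e ζ
      · linarith [lam_le h0]
      · rw [lam_zero (by linarith)]
        norm_num
  · have h1 : (2 * I + 2 * Real.pi * m : ℂ).im = 2 := by simp
    have h5 : Real.cos (2 * I + 2 * Real.pi * m : ℂ).re = 1 := by
      have : (2 * I + 2 * Real.pi * m : ℂ).re = m * (2 * Real.pi) := by simp; ring
      rw [this, Real.cos_int_mul_two_pi]
    have h6 : NN (2 * I + 2 * Real.pi * m) = 0 := by
      simp only [NN, h1, h5]
      norm_num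
    unfold GG
    rw [if_pos (by rw [h1]; norm_num)]
    simp only [uu, h6, zero_add, _root_.neg_apply, imCLM_apply, h1, hedef, Real.log_exp]
    linarith [le_abs_self D]

end Vale.Agent.P250
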