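import Vale.Agent.P250.Wirt

/-! The jets of the Calabi potential, computed in the ring of germs. -/

namespace Vale.Agent.P250

open scoped ContDiff ComplexConjugate
open Complex Filter Topology

noncomputable section

variable {x : Cn 3}

theorem dz_chain {f g h : SG x} (H : ∀ a, D a f = g * D a h) (a : Cn 3) :
    dz a f = g * dz a h := by
  simp only [dz_def, H]; ring

theorem db_chain {f g h : SG x} (H : ∀ a, D a f = g * D a h) (a : Cn 3) :
    db a f = g * db a h := by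
  simp only [db_def, H]; ring

/-- coordinate functions -/
def co (x : Cn 3) (i : Fin 3) : SG x :=
  gm (fun y => y i) (Eventually.of_forall fun _ => (contDiff_apply ℝ ℂ i).contDiffAt)

theorem D_co (a : Cn 3) (i : Fin 3) : D a (co x i) = cst (a i) :=
  D_clm a (ContinuousLinearMap.proj (R := ℝ) (φ := fun _ : Fin 3 => ℂ) i) _

theorem dz_co (a : Cn 3) (i : Fin 3) : dz a (co x i) = cst (a i) := by
  rw [dz_def, D_co, D_co, ← map_mul, ← map_sub, ← map_mul]
  congr 1
  simp only [Pi.smul_apply, smul_eq_mul]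
  linear_combination (-(a i) / 2) * I_mul_I

theorem db_co (a : Cn 3) (i : Fin 3) : db a (co x i) = 0 := by
  rw [db_def, D_co, D_co, ← map_mul, ← map_add, ← map_mul, ← map_zero cst]
  congr 1
  simp only [Pi.smul_apply, smul_eq_mul]
  linear_combination (a i / 2) * I_mul_I

theorem dz_cj_co (a : Cn 3) (i : Fin 3) : dz a (cj (co x i)) = 0 := by
  rw [← cj_db, db_co, map_zero]

theorem db_cj_co (a : Cn 3) (i : Fin 3) : db a (cj (co x i)) = cst (conj (a i)) := by
  rw [← cj_dz, dz_co, cj_cst]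

theorem dz_one (a : Cn 3) : dz a (1 : SG x) = 0 := by rw [← map_one cst, dz_cst]

theorem db_one (a : Cn 3) : db a (1 : SG x) = 0 := by rw [← map_one cst, db_cst]

theorem dz_two (a : Cn 3) : dz a (2 : SG x) = 0 := by rw [← map_ofNat cst 2, dz_cst]

theorem db_two (a : Cn 3) : db a (2 : SG x) = 0 := by rw [← map_ofNat cst 2, db_cst]

/-- the germs of the fibre part of the potential -/
structure Cal (x : Cn 3) where
  φ : SG x
  L : SG x
  E : SG x
  σ : SG x
  hL : ∀ a, D a L = σ * D a (co x 2 * cj (co x 2) * E)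
  hσ : ∀ a, D a σ = σ * σ * D a (co x 2 * cj (co x 2) * E)
  hE : ∀ a, D a E = E * D a φ
  rel : σ * (co x 2 * cj (co x 2) * E) = σ - 1

namespace Cal

variable (c : Cal x)

def n (a : Cn 3) : SG x := cst (a 2) + co x 2 * dz a c.φ

def nb (a : Cn 3) : SG x := cst (conj (a 2)) + cj (co x 2) * db a c.φ

def κ : SG x := c.σ * c.σ * c.E

def lam (a b : Cn 3) : SG x :=
  (2 * (c.σ * c.E * cj (co x 2)) * c.n a + dz a c.φ) * c.n b + cst (a 2) * dz b c.φ +
    co x 2 * dz a (dz b c.φ)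

def lamb (a b : Cn 3) : SG x :=
  (2 * (c.σ * c.E * co x 2) * c.nb a + db a c.φ) * c.nb b + cst (conj (a 2)) * db b c.φ +
    cj (co x 2) * db a (db b c.φ)

theorem dz_E (a : Cn 3) : dz a c.E = c.E * dz a c.φ := dz_chain c.hE a

theorem db_E (a : Cn 3) : db a c.E = c.E * db a c.φ := db_chain c.hE a

theorem dz_σ (a : Cn 3) : dz a c.σ = c.κ * cj (co x 2) * c.n a := by
  rw [dz_chain c.hσ]
  simp only [dz_mul, dz_co, dz_cj_co, dz_E, κ, n]; ring

theorem db_σ (a : Cn 3) : db a c.σ = c.κ * co x 2 * c.nb a := by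
  rw [db_chain c.hσ]
  simp only [db_mul, db_co, db_cj_co, db_E, κ, nb]; ring

theorem dz_L (a : Cn 3) : dz a c.L = c.σ * c.E * cj (co x 2) * c.n a := by
  rw [dz_chain c.hL]
  simp only [dz_mul, dz_co, dz_cj_co, dz_E, n]; ring

theorem db_L (a : Cn 3) : db a c.L = c.σ * c.E * co x 2 * c.nb a := by
  rw [db_chain c.hL]
  simp only [db_mul, db_co, db_cj_co, db_E, nb]; ring

theorem dz_κ (a : Cn 3) :
    dz a c.κ = c.κ * (2 * (c.σ * c.E * cj (co x 2)) * c.n a + dz a c.φ) := by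
  rw [κ]
  simp only [dz_mul, dz_σ, dz_E, κ]; ring

theorem db_κ (a : Cn 3) :
    db a c.κ = c.κ * (2 * (c.σ * c.E * co x 2) * c.nb a + db a c.φ) := by
  rw [κ]
  simp only [db_mul, db_σ, db_E, κ]; ring

theorem dz_n (a b : Cn 3) : dz a (c.n b) = cst (a 2) * dz b c.φ + co x 2 * dz a (dz b c.φ) := by
  simp only [n, map_add, dz_mul, dz_cst, dz_co, zero_add]

theorem db_n (a b : Cn 3) : db b (c.n a) = co x 2 * dz a (db b c.φ) := by
  simp only [n, map_add, db_mul, db_cst, db_co, zero_add, zero_mul, db_dz]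

theorem dz_nb (a b : Cn 3) : dz a (c.nb b) = cj (co x 2) * dz a (db b c.φ) := by
  simp only [nb, map_add, dz_mul, dz_cst, dz_cj_co, zero_add, zero_mul]

theorem db_nb (a b : Cn 3) :
    db a (c.nb b) = cst (conj (a 2)) * db b c.φ + cj (co x 2) * db a (db b c.φ) := by
  simp only [nb, map_add, db_mul, db_cst, db_cj_co, zero_add]

theorem T2 (a b : Cn 3) :
    dz a (db b c.L) = (c.σ - 1) * dz a (db b c.φ) + c.κ * c.n a * c.nb b := by
  rw [db_L]
  simp only [dz_mul, dz_σ, dz_E, dz_co, dz_nb]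
  have h : cst (a 2) = c.n a - co x 2 * dz a c.φ := by rw [n]; ring
  rw [h, κ]
  linear_combination (dz a (db b c.φ) + c.σ * c.E * c.n a * c.nb b) * c.rel

theorem T3 (a b d : Cn 3) :
    dz a (dz b (db d c.L)) = (c.σ - 1) * dz a (dz b (db d c.φ)) +
      c.κ * cj (co x 2) * c.n a * dz b (db d c.φ) + c.κ * cj (co x 2) * c.n b * dz a (db d c.φ) +
      c.κ * c.nb d * c.lam a b := by
  rw [T2]
  simp only [map_add, map_sub, dz_mul, dz_σ, dz_κ, dz_n, dz_nb, dz_one, lam]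
  ring

theorem db_nu (a w : Cn 3) : db w (c.κ * cj (co x 2) * c.n a) =
    (1 + 2 * (c.σ - 1)) * (c.κ * c.n a * c.nb w) + (c.σ - 1) * c.σ * dz a (db w c.φ) := by
  simp only [db_mul, db_κ, db_n, db_cj_co]
  have h : cst (conj (w 2)) = c.nb w - cj (co x 2) * db w c.φ := by rw [nb]; ring
  rw [h, κ]
  linear_combination (2 * (c.σ * c.σ * c.E) * c.n a * c.nb w + c.σ * dz a (db w c.φ)) * c.rel

theorem db_aux (w : Cn 3) : db w (c.σ * c.E * cj (co x 2)) = c.κ * c.nb w := by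
  simp only [db_mul, db_σ, db_E, db_cj_co]
  have h : cst (conj (w 2)) = c.nb w - cj (co x 2) * db w c.φ := by rw [nb]; ring
  rw [h, κ]
  linear_combination (c.σ * c.E * c.nb w) * c.rel

theorem db_lam (a b w : Cn 3) : db w (c.lam a b) =
    (1 + 2 * (c.σ - 1)) * (dz a (db w c.φ) * c.n b + dz b (db w c.φ) * c.n a) +
      2 * c.κ * c.n a * c.n b * c.nb w + co x 2 * dz a (dz b (db w c.φ)) := by
  have h1 := c.db_aux w
  have h2 : c.σ * c.E * cj (co x 2) * co x 2 = c.σ - 1 := by linear_combination c.rel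
  rw [lam]
  generalize c.σ * c.E * cj (co x 2) = q at h1 h2 ⊢
  simp only [map_add, db_mul, h1, db_n, db_two, db_cst, db_co, db_dz]
  have h : cst (a 2) = c.n a - co x 2 * dz a c.φ := by rw [n]; ring
  rw [h]
  linear_combination (2 * (dz a (db w c.φ) * c.n b + dz b (db w c.φ) * c.n a)) * h2

theorem T4 (a b z w : Cn 3) :
    dz a (dz b (db z (db w c.L))) = (c.σ - 1) * dz a (dz b (db z (db w c.φ))) +
      (c.κ * co x 2 * c.nb w * dz a (dz b (db z c.φ)) +
        c.κ * co x 2 * c.nb z * dz a (dz b (db w c.φ)) +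
        c.κ * cj (co x 2) * c.n b * dz a (db z (db w c.φ)) +
        c.κ * cj (co x 2) * c.n a * dz b (db z (db w c.φ))) +
      (c.σ - 1) * c.σ * (dz a (db z c.φ) * dz b (db w c.φ) + dz a (db w c.φ) * dz b (db z c.φ)) +
      (1 + 2 * (c.σ - 1)) * (c.κ * c.n b * c.nb w * dz a (db z c.φ) +
        c.κ * c.n a * c.nb w * dz b (db z c.φ) + c.κ * c.n b * c.nb z * dz a (db w c.φ) +
        c.κ * c.n a * c.nb z * dz b (db w c.φ)) +
      2 * (c.κ * c.n a * c.nb z) * (c.κ * c.n b * c.nb w) + c.κ * c.lam a b * c.lamb w z := by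
  have h1 := c.db_nu a w
  have h2 := c.db_nu b w
  rw [db_comm z w c.L, ← db_dz, ← db_dz, T3]
  generalize c.κ * cj (co x 2) * c.n a = qa at h1 ⊢
  generalize c.κ * cj (co x 2) * c.n b = qb at h2 ⊢
  simp only [map_add, db_mul, h1, h2, db_κ, db_nb, db_lam, map_sub,
    db_σ, db_one, db_dz, db_comm w z, lamb]
  ring

end Cal

/-- the germs of the base potential -/
structure Hyp (x : Cn 3) where
  ψ : SG x
  Ri : SG x
  hψ : ∀ a, D a ψ = -Ri * D a (cst (-I / 2) * (co x 1 - cj (co x 1)) - co x 0 * cj (co x 0))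
  hR : ∀ a, D a Ri = Ri * D a ψ

namespace Hyp

variable (h : Hyp x)

theorem dz_ψ (a : Cn 3) :
    dz a h.ψ = -h.Ri * (cst (-I / 2) * cst (a 1) - cst (a 0) * cj (co x 0)) := by
  rw [dz_chain h.hψ]
  simp only [map_sub, dz_mul, dz_cst, dz_co, dz_cj_co]; ring

theorem db_ψ (a : Cn 3) :
    db a h.ψ = -h.Ri * (-(cst (-I / 2) * cst (conj (a 1))) - co x 0 * cst (conj (a 0))) := by
  rw [db_chain h.hψ]
  simp only [map_sub, db_mul, db_cst, db_co, db_cj_co]; ring

theorem zz (a b : Cn 3) : dz a (dz b h.ψ) = dz a h.ψ * dz b h.ψ := by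
  rw [h.dz_ψ b]
  simp only [map_sub, map_neg, dz_mul, dz_cst, dz_cj_co, dz_chain h.hR]; ring

theorem bb (a b : Cn 3) : db a (db b h.ψ) = db a h.ψ * db b h.ψ := by
  rw [h.db_ψ b]
  simp only [map_sub, map_neg, db_mul, db_cst, db_co, db_chain h.hR]; ring

theorem T2 (a b : Cn 3) :
    dz a (db b h.ψ) = dz a h.ψ * db b h.ψ + h.Ri * cst (a 0) * cst (conj (b 0)) := by
  rw [h.db_ψ b]
  simp only [map_sub, map_neg, dz_mul, dz_cst, dz_co, dz_chain h.hR]; ring

theorem T3 (a b c : Cn 3) : dz a (dz b (db c h.ψ)) =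
    dz a h.ψ * dz b (db c h.ψ) + dz b h.ψ * dz a (db c h.ψ) := by
  rw [h.T2 b c]
  simp only [map_add, dz_mul, dz_cst, zz, dz_chain h.hR]; ring

theorem T3' (a c d : Cn 3) : dz a (db c (db d h.ψ)) =
    db c h.ψ * dz a (db d h.ψ) + db d h.ψ * dz a (db c h.ψ) := by
  rw [bb, dz_mul]; ring

theorem T4 (a b c d : Cn 3) : dz a (dz b (db c (db d h.ψ))) =
    dz a (db c h.ψ) * dz b (db d h.ψ) + dz a (db d h.ψ) * dz b (db c h.ψ) +
      (dz a h.ψ * db c h.ψ * dz b (db d h.ψ) + dz a h.ψ * db d h.ψ * dz b (db c h.ψ) +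
        dz b h.ψ * db c h.ψ * dz a (db d h.ψ) + dz b h.ψ * db d h.ψ * dz a (db c h.ψ)) := by
  rw [T3']
  simp only [map_add, dz_mul, T3]; ring

end Hyp

end

end Vale.Agent.P250
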