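import Vale.Agent.P250.CalAlg

/-! The jets of the Calabi potential on the disc bundle. -/

namespace Vale.Agent.P250

open scoped ContDiff ComplexConjugate
open Complex Filter Topology

noncomputable section

def alf (x a : Cn 3) : ℂ := -(rhoD x a / rho x)

def sv (χ : Cn 3 → ℝ) (x : Cn 3) : ℝ := tt χ x / (1 - tt χ x)

def kap (χ : Cn 3 → ℝ) (x : Cn 3) : ℝ := (1 + sv χ x) ^ 2 * (Real.exp (χ x) / rho x)

def nv (χ : Cn 3 → ℝ) (x a : Cn 3) : ℂ := a 2 + x 2 * (alf x a + j1 χ x a)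

def nu (χ : Cn 3 → ℝ) (x a : Cn 3) : ℂ := kap χ x * x 2 * conj (nv χ x a)

def mu (χ : Cn 3 → ℝ) (x a b : Cn 3) : ℂ := kap χ x * nv χ x a * conj (nv χ x b)

def th (χ : Cn 3 → ℝ) (x a b : Cn 3) : ℂ := om x a b + j2 χ x a b

def om3 (x a b c : Cn 3) : ℂ := alf x a * om x b c + alf x b * om x a c

def om4 (x a b c d : Cn 3) : ℂ :=
  om x a c * om x b d + om x a d * om x b c +
    (alf x a * conj (alf x c) * om x b d + alf x a * conj (alf x d) * om x b c +
      alf x b * conj (alf x c) * om x a d + alf x b * conj (alf x d) * om x a c)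

theorem rho_smooth : ContDiff ℝ ∞ rho :=
  (imCLM.contDiff.comp (contDiff_apply ℝ ℂ 1)).sub
    ((contDiff_norm_sq ℝ).comp (contDiff_apply ℝ ℂ 0))

theorem isOpen_base : IsOpen {x : Cn 3 | 0 < rho x} :=
  isOpen_lt continuous_const rho_smooth.continuous

variable {χ : Cn 3 → ℝ} {Λ : ℝ} {x : Cn 3}

theorem tt_nonneg (hx : x ∈ Dom χ) : 0 ≤ tt χ x := div_nonneg (by positivity) hx.1.le

theorem tt_lt (hx : x ∈ Dom χ) : tt χ x < 1 := (div_lt_one hx.1).2 hx.2

theorem sv_nonneg (hx : x ∈ Dom χ) : 0 ≤ sv χ x :=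
  div_nonneg (tt_nonneg hx) (sub_pos.2 (tt_lt hx)).le

theorem one_add_sv (hx : x ∈ Dom χ) : 1 + sv χ x = (1 - tt χ x)⁻¹ := by
  have := (sub_pos.2 (tt_lt hx)).ne'
  rw [sv]; field_simp; ring

theorem kap_pos (hx : x ∈ Dom χ) : 0 < kap χ x := by
  have h1 := sv_nonneg hx
  have h2 := hx.1
  unfold kap; positivity

theorem kap_mul (hx : x ∈ Dom χ) : kap χ x * ‖x 2‖ ^ 2 = sv χ x * (1 + sv χ x) := by
  have h1 := (sub_pos.2 (tt_lt hx)).ne'
  have h2 : kap χ x * ‖x 2‖ ^ 2 = (1 + sv χ x) ^ 2 * tt χ x := by rw [kap, tt]; ring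
  rw [h2, one_add_sv hx, sv]; field_simp

theorem psi_smooth : ContDiffOn ℝ ∞ (fun y => -Real.log (rho y)) {x : Cn 3 | 0 < rho x} :=
  (rho_smooth.contDiffOn.log fun _ hy => ne_of_gt hy).neg

theorem Good.tt_smooth (h : Good χ Λ) : ContDiffOn ℝ ∞ (tt χ) {x : Cn 3 | 0 < rho x} :=
  ((((contDiff_norm_sq ℝ).comp (contDiff_apply ℝ ℂ 2)).contDiffOn).mul h.smooth.exp).div
    rho_smooth.contDiffOn fun _ hy => ne_of_gt hy

theorem Good.L_smooth (h : Good χ Λ) :
    ContDiffOn ℝ ∞ (fun y => -Real.log (1 - tt χ y)) (Dom χ) :=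
  ((contDiffOn_const.sub (h.tt_smooth.mono fun _ hy => hy.1)).log fun _ hy =>
    (sub_pos.2 (tt_lt hy)).ne').neg

theorem Good.pot_smooth (h : Good χ Λ) (A : ℝ) : ContDiffOn ℝ ∞ (pot A χ) (Dom χ) :=
  ((contDiffOn_const.mul (psi_smooth.mono fun _ hy => hy.1)).add h.L_smooth).congr fun y _ => by
    simp only [pot]; ring

theorem sm_psi (hx : 0 < rho x) : Sm x fun y => ((-Real.log (rho y) : ℝ) : ℂ) :=
  Sm.of_on isOpen_base hx psi_smooth

theorem Good.sm (h : Good χ Λ) (hx : 0 < rho x) : Sm x fun y => (χ y : ℂ) :=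
  Sm.of_on isOpen_base hx h.smooth

theorem rho_eq (y : Cn 3) : (rho y : ℂ) = -I / 2 * (y 1 - conj (y 1)) - y 0 * conj (y 0) := by
  rw [sub_conj, mul_conj, rho, normSq_eq_norm_sq]
  push_cast
  linear_combination ((y 1).im : ℂ) * I_mul_I

theorem exp_psi {y : Cn 3} (hy : 0 < rho y) :
    Complex.exp ((-Real.log (rho y) : ℝ) : ℂ) = (rho y : ℂ)⁻¹ := by
  rw [← ofReal_exp, Real.exp_neg, Real.exp_log hy, ofReal_inv]

/-- the base germs -/
def hyp (hx : 0 < rho x) : Hyp x where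
  ψ := gm _ (sm_psi hx)
  Ri := gm _ (sm_psi hx).exp
  hR a := D_exp a _ _
  hψ a := by
    have h1 : gm _ (sm_psi hx).exp *
        (cst (-I / 2) * (co x 1 - cj (co x 1)) - co x 0 * cj (co x 0)) = 1 := by
      refine Subtype.ext (Germ.coe_eq.2 ?_)
      filter_upwards [isOpen_base.mem_nhds hx] with y hy
      change Complex.exp ((-Real.log (rho y) : ℝ) : ℂ) *
        (-I / 2 * (y 1 - conj (y 1)) - y 0 * conj (y 0)) = 1
      rw [exp_psi hy, ← rho_eq, inv_mul_cancel₀ (ofReal_ne_zero.2 (ne_of_gt hy))]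
    have h2 := congrArg (D a) h1
    rw [D_mul, D_exp a _ (sm_psi hx), ← map_one cst, D_cst] at h2
    linear_combination h2 - D a (gm _ (sm_psi hx)) * h1

theorem ev_co (i : Fin 3) : ev (co x i) = x i := rfl

theorem hyp_z (hx : 0 < rho x) (a : Cn 3) : ev (dz a (hyp hx).ψ) = alf x a := by
  rw [Hyp.dz_ψ]
  simp only [map_mul, map_neg, map_sub, ev_cst, ev_cj, ev_co]
  rw [show ev (hyp hx).Ri = (rho x : ℂ)⁻¹ from exp_psi hx, alf, rhoD]
  ring

theorem hyp_b (hx : 0 < rho x) (a : Cn 3) : ev (db a (hyp hx).ψ) = conj (alf x a) := by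
  rw [← hyp_z hx, ← ev_cj, cj_dz]
  exact congrArg (fun f => ev (db a f)) (cj_real _ (sm_psi hx)).symm

theorem om_eq (x a b : Cn 3) :
    om x a b = alf x a * conj (alf x b) + (rho x : ℂ)⁻¹ * a 0 * conj (b 0) := by
  simp only [om, alf, map_neg, map_div₀, conj_ofReal]
  ring

theorem hyp_2 (hx : 0 < rho x) (a b : Cn 3) : ev (dz a (db b (hyp hx).ψ)) = om x a b := by
  rw [Hyp.T2, om_eq]
  simp only [map_mul, map_add, ev_cst, hyp_z, hyp_b]
  rw [show ev (hyp hx).Ri = (rho x : ℂ)⁻¹ from exp_psi hx]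

theorem hyp_3 (hx : 0 < rho x) (a b c : Cn 3) :
    ev (dz a (dz b (db c (hyp hx).ψ))) = om3 x a b c := by
  simp only [Hyp.T3, map_mul, map_add, hyp_z, hyp_2, om3]

theorem hyp_4 (hx : 0 < rho x) (a b c d : Cn 3) :
    ev (dz a (dz b (db c (db d (hyp hx).ψ)))) = om4 x a b c d := by
  simp only [Hyp.T4, map_mul, map_add, hyp_z, hyp_b, hyp_2, om4]

theorem exp_L {y : Cn 3} (hy : y ∈ Dom χ) :
    Complex.exp ((-Real.log (1 - tt χ y) : ℝ) : ℂ) = ((1 + sv χ y : ℝ) : ℂ) := by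
  rw [← ofReal_exp, Real.exp_neg, Real.exp_log (sub_pos.2 (tt_lt hy)), one_add_sv hy]

theorem exp_phi {y : Cn 3} (hy : 0 < rho y) :
    Complex.exp (((-Real.log (rho y) : ℝ) : ℂ) + χ y) = ((Real.exp (χ y) / rho y : ℝ) : ℂ) := by
  rw [Complex.exp_add, exp_psi hy]
  push_cast
  ring

theorem cal_rel (h : Good χ Λ) (hU : IsOpen (Dom χ)) (hx : x ∈ Dom χ) :
    gm _ (Sm.of_on hU hx h.L_smooth).exp *
      (co x 2 * cj (co x 2) * gm _ ((sm_psi hx.1).add (h.sm hx.1)).exp) =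
      gm _ (Sm.of_on hU hx h.L_smooth).exp - 1 := by
  refine Subtype.ext (Germ.coe_eq.2 ?_)
  filter_upwards [hU.mem_nhds hx] with y hy
  change Complex.exp ((-Real.log (1 - tt χ y) : ℝ) : ℂ) * (y 2 * conj (y 2) *
    Complex.exp (((-Real.log (rho y) : ℝ) : ℂ) + χ y)) =
    Complex.exp ((-Real.log (1 - tt χ y) : ℝ) : ℂ) - 1
  rw [exp_L hy, exp_phi hy.1, mul_conj, normSq_eq_norm_sq]
  have h1 : (1 + sv χ y) * (‖y 2‖ ^ 2 * (Real.exp (χ y) / rho y)) = 1 + sv χ y - 1 := by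
    have h2 := (sub_pos.2 (tt_lt hy)).ne'
    rw [← mul_div_assoc, ← tt, one_add_sv hy]
    field_simp
    ring
  exact_mod_cast h1

theorem cal_hL (h : Good χ Λ) (hU : IsOpen (Dom χ)) (hx : x ∈ Dom χ) (a : Cn 3) :
    D a (gm _ (Sm.of_on hU hx h.L_smooth)) = gm _ (Sm.of_on hU hx h.L_smooth).exp *
      D a (co x 2 * cj (co x 2) * gm _ ((sm_psi hx.1).add (h.sm hx.1)).exp) := by
  have h1 := cal_rel h hU hx
  have h2 := congrArg (D a) h1
  rw [D_mul, map_sub, D_exp a _ (Sm.of_on hU hx h.L_smooth), ← map_one cst, D_cst] at h2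
  linear_combination D a (gm _ (Sm.of_on hU hx h.L_smooth)) * h1 - h2

/-- the fibre germs -/
def cal (h : Good χ Λ) (hU : IsOpen (Dom χ)) (hx : x ∈ Dom χ) : Cal x where
  φ := (hyp hx.1).ψ + gm _ (h.sm hx.1)
  L := gm _ (Sm.of_on hU hx h.L_smooth)
  E := gm _ ((sm_psi hx.1).add (h.sm hx.1)).exp
  σ := gm _ (Sm.of_on hU hx h.L_smooth).exp
  hL := cal_hL h hU hx
  hσ a := by
    rw [D_exp a _ (Sm.of_on hU hx h.L_smooth), cal_hL h hU hx]
    exact (mul_assoc _ _ _).symm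
  hE a := D_exp a _ ((sm_psi hx.1).add (h.sm hx.1))
  rel := cal_rel h hU hx

section

variable (h : Good χ Λ) (hU : IsOpen (Dom χ)) (hx : x ∈ Dom χ)

theorem cal_σ : ev (cal h hU hx).σ = 1 + (sv χ x : ℂ) := by
  rw [show ev (cal h hU hx).σ = _ from exp_L hx]; push_cast; rfl

theorem cal_E : ev (cal h hU hx).E = ((Real.exp (χ x) / rho x : ℝ) : ℂ) := exp_phi hx.1

theorem cal_κ : ev (cal h hU hx).κ = kap χ x := by
  simp only [Cal.κ, map_mul, cal_σ, cal_E, kap]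
  push_cast
  ring

theorem cal_cj : cj (cal h hU hx).φ = (cal h hU hx).φ := by
  change cj (gm _ (sm_psi hx.1) + gm _ (h.sm hx.1)) = gm _ (sm_psi hx.1) + gm _ (h.sm hx.1)
  rw [map_add, cj_real, cj_real]

theorem cal_n (a : Cn 3) : ev ((cal h hU hx).n a) = nv χ x a := by
  change ev (cst (a 2) + co x 2 * dz a ((hyp hx.1).ψ + gm _ (h.sm hx.1))) = _
  simp only [map_add, map_mul, ev_cst, ev_co, hyp_z, ← j1_eq (h.sm hx.1), nv]

theorem cal_nb (a : Cn 3) : ev ((cal h hU hx).nb a) = conj (nv χ x a) := by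
  rw [← cal_n h hU hx, ← ev_cj]
  simp only [Cal.n, Cal.nb, map_add cj, map_mul cj, cj_cst, cj_dz, cal_cj]

theorem cal_2 (a b : Cn 3) : ev (dz a (db b (cal h hU hx).φ)) = th χ x a b := by
  change ev (dz a (db b ((hyp hx.1).ψ + gm _ (h.sm hx.1)))) = _
  simp only [map_add, hyp_2, ← j2_eq (h.sm hx.1), th]

theorem cal_3 (a b c : Cn 3) :
    ev (dz a (dz b (db c (cal h hU hx).φ))) = om3 x a b c + j3 χ x a b c := by
  change ev (dz a (dz b (db c ((hyp hx.1).ψ + gm _ (h.sm hx.1))))) = _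
  simp only [map_add, hyp_3, ← j3_eq (h.sm hx.1)]

theorem cal_3' (a c d : Cn 3) :
    ev (dz a (db c (db d (cal h hU hx).φ))) = conj (om3 x c d a + j3 χ x c d a) := by
  rw [← cal_3 h hU hx, ← ev_cj]
  simp only [cj_dz, cj_db, cal_cj, db_dz]

theorem cal_4 (a b c d : Cn 3) :
    ev (dz a (dz b (db c (db d (cal h hU hx).φ)))) = om4 x a b c d + j4 χ x a b c d := by
  change ev (dz a (dz b (db c (db d ((hyp hx.1).ψ + gm _ (h.sm hx.1)))))) = _
  simp only [map_add, hyp_4, ← j4_eq (h.sm hx.1)]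

theorem cal_lamb (a b : Cn 3) :
    ev ((cal h hU hx).lamb a b) = conj (ev ((cal h hU hx).lam b a)) := by
  have h1 : cj (cal h hU hx).σ = (cal h hU hx).σ :=
    gm_eq (hf := (Sm.of_on hU hx h.L_smooth).exp.cnj) (hg := (Sm.of_on hU hx h.L_smooth).exp)
      (Eventually.of_forall fun y => by
      simp only [← Complex.exp_conj, conj_ofReal])
  have h2 : cj (cal h hU hx).E = (cal h hU hx).E :=
    gm_eq (hf := ((sm_psi hx.1).add (h.sm hx.1)).exp.cnj)
      (hg := ((sm_psi hx.1).add (h.sm hx.1)).exp) (Eventually.of_forall fun y => by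
      simp only [← Complex.exp_conj, map_add, conj_ofReal])
  have h3 : cj (cj (co x 2)) = co x 2 :=
    Subtype.ext (Germ.coe_eq.2 (Eventually.of_forall fun y => conj_conj (y 2)))
  rw [← ev_cj]
  simp only [Cal.lam, Cal.lamb, Cal.n, Cal.nb, map_add cj, map_mul cj, cj_cst, cj_dz, cal_cj, h1,
    h2, h3, map_ofNat, db_comm b a]
  congr 1
  ring

theorem gm_pot (A : ℝ) : gm _ (Sm.of_on hU hx (h.pot_smooth A)) =
    cst (A : ℂ) * (hyp hx.1).ψ + (cal h hU hx).L := by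
  refine Subtype.ext (Germ.coe_eq.2 (Eventually.of_forall fun y => ?_))
  change ((pot A χ y : ℝ) : ℂ) = (A : ℂ) * ((-Real.log (rho y) : ℝ) : ℂ) +
    ((-Real.log (1 - tt χ y) : ℝ) : ℂ)
  rw [pot]
  push_cast
  ring

include h hU hx

theorem j2_pot (A : ℝ) (a b : Cn 3) :
    j2 (pot A χ) x a b = A * om x a b + sv χ x * th χ x a b + mu χ x a b := by
  rw [j2_eq (Sm.of_on hU hx (h.pot_smooth A)), gm_pot h hU hx]
  simp only [map_add, db_mul, dz_mul, db_cst, dz_cst, zero_mul, zero_add, Cal.T2, map_mul, map_sub,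
    map_one, ev_cst, hyp_2, cal_σ, cal_κ, cal_n, cal_nb, cal_2, mu]
  ring

theorem calabi (A : ℝ) : ∃ lam : Cn 3 → Cn 3 → ℂ,
    (∀ a b c, j3 (pot A χ) x a b c = A * om3 x a b c + sv χ x * (om3 x a b c + j3 χ x a b c) +
      conj (nu χ x a) * th χ x b c + conj (nu χ x b) * th χ x a c +
      kap χ x * conj (nv χ x c) * lam a b) ∧
    ∀ a b c d, j4 (pot A χ) x a b c d =
      A * om4 x a b c d + sv χ x * (om4 x a b c d + j4 χ x a b c d) +
      (nu χ x d * (om3 x a b c + j3 χ x a b c) + nu χ x c * (om3 x a b d + j3 χ x a b d) +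
        conj (nu χ x b) * conj (om3 x c d a + j3 χ x c d a) +
        conj (nu χ x a) * conj (om3 x c d b + j3 χ x c d b)) +
      sv χ x * (1 + sv χ x) * (th χ x a c * th χ x b d + th χ x a d * th χ x b c) +
      (1 + 2 * sv χ x) * (mu χ x b d * th χ x a c + mu χ x a d * th χ x b c +
        mu χ x b c * th χ x a d + mu χ x a c * th χ x b d) +
      2 * mu χ x a c * mu χ x b d + kap χ x * lam a b * conj (lam c d) := by
  refine ⟨fun a b => ev ((cal h hU hx).lam a b), fun a b c => ?_, fun a b c d => ?_⟩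
  · rw [j3_eq (Sm.of_on hU hx (h.pot_smooth A)), gm_pot h hU hx]
    simp only [map_add, db_mul, dz_mul, db_cst, dz_cst, zero_mul, zero_add, Cal.T3, map_mul,
      map_sub, map_one, ev_cst, hyp_3, cal_σ, cal_κ, cal_n, cal_nb, cal_2, cal_3, ev_cj, ev_co, nu,
      conj_ofReal, conj_conj]
    ring
  · rw [j4_eq (Sm.of_on hU hx (h.pot_smooth A)), gm_pot h hU hx]
    simp only [map_add, db_mul, dz_mul, db_cst, dz_cst, zero_mul, zero_add, Cal.T4, map_mul,
      map_sub, map_one, map_ofNat, ev_cst, hyp_4, cal_σ, cal_κ, cal_n, cal_nb, cal_2, cal_3,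
      cal_3', cal_4, cal_lamb, ev_cj, ev_co, nu, mu, conj_ofReal, conj_conj]
    ring

end

end

end Vale.Agent.P250
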