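import Vale.Agent.P250.Lev

/-! The weight is smooth, plurisubharmonic, with bounded jets. -/

set_option linter.unusedSectionVars false

namespace Vale.Agent.P250

open scoped ContDiff ComplexConjugate
open Complex Filter Topology

namespace Chi

section gen

variable {E : Type} [NormedAddCommGroup E] [NormedSpace ℝ E] [NormedSpace ℂ E]

theorem dzf_congr {f g : E → ℂ} {x : E} (h : f =ᶠ[𝓝 x] g) (a : E) : dzf a f =ᶠ[𝓝 x] dzf a g :=
  (h.fderiv (𝕜 := ℝ)).mono fun y hy => by simp only [dzf, hy]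

theorem dbf_congr {f g : E → ℂ} {x : E} (h : f =ᶠ[𝓝 x] g) (a : E) : dbf a f =ᶠ[𝓝 x] dbf a g :=
  (h.fderiv (𝕜 := ℝ)).mono fun y hy => by simp only [dbf, hy]

theorem sm_fder {f : E → ℂ} (h : ContDiff ℝ ∞ f) (a : E) :
    ContDiff ℝ ∞ fun y => fderiv ℝ f y a :=
  (h.fderiv_right (m := ∞) (by simp)).clm_apply contDiff_const

theorem sm_dzf {f : E → ℂ} (h : ContDiff ℝ ∞ f) (a : E) : ContDiff ℝ ∞ (dzf a f) :=
  ((sm_fder h a).sub (contDiff_const.mul (sm_fder h _))).div_const 2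

theorem sm_dbf {f : E → ℂ} (h : ContDiff ℝ ∞ f) (a : E) : ContDiff ℝ ∞ (dbf a f) :=
  ((sm_fder h a).add (contDiff_const.mul (sm_fder h _))).div_const 2

theorem clm_apply (L : ℂ →L[ℝ] ℂ) (w : ℂ) : L w = w.re * L 1 + w.im * L I := by
  have : w = w.re • (1 : ℂ) + w.im • I := by simp
  conv_lhs => rw [this, map_add, map_smul, map_smul]
  simp

variable [IsScalarTower ℝ ℂ E] {ι : Type} (J : Finset ι) (L : ι → E →L[ℂ] ℂ) (e : ι → ℂ)

theorem fder_sum {H : ℂ → ℂ} (hH : ContDiff ℝ ∞ H) (c : ι → ℂ) (y a : E) :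
    fderiv ℝ (fun y => ∑ j ∈ J, c j * H (L j y + e j)) y a =
      ∑ j ∈ J, c j * fderiv ℝ H (L j y + e j) (L j a) := by
  have h1 : ∀ j ∈ J, HasFDerivAt (fun y => c j * H (L j y + e j))
      (c j • (fderiv ℝ H (L j y + e j)).comp ((L j).restrictScalars ℝ)) y := fun j _ =>
    ((hH.differentiable (by simp) _).hasFDerivAt.comp y
      (((L j).restrictScalars ℝ).hasFDerivAt.add_const (e j))).const_mul (c j)
  rw [(HasFDerivAt.fun_sum h1).fderiv]
  simp

theorem dzf_sum {H : ℂ → ℂ} (hH : ContDiff ℝ ∞ H) (c : ι → ℂ) (a : E) :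
    dzf a (fun y => ∑ j ∈ J, c j * H (L j y + e j)) =
      fun y => ∑ j ∈ J, (c j * L j a) * dzf 1 H (L j y + e j) := by
  funext y
  rw [dzf, fder_sum J L e hH, fder_sum J L e hH, Finset.mul_sum, ← Finset.sum_sub_distrib,
    Finset.sum_div]
  refine Finset.sum_congr rfl fun j _ => ?_
  rw [dzf, map_smul, clm_apply _ (L j a), clm_apply _ (I • L j a)]
  simp only [smul_eq_mul, mul_one, mul_re, mul_im, I_re, I_im, zero_mul, one_mul, zero_sub,
    zero_add, ofReal_neg]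
  generalize fderiv ℝ H (L j y + e j) 1 = A
  generalize fderiv ℝ H (L j y + e j) I = B
  linear_combination (c j * (A - I * B) / 2) * re_add_im (L j a) +
    (c j * ((L j a).im : ℂ) * B / 2) * I_mul_I

theorem dbf_sum {H : ℂ → ℂ} (hH : ContDiff ℝ ∞ H) (c : ι → ℂ) (a : E) :
    dbf a (fun y => ∑ j ∈ J, c j * H (L j y + e j)) =
      fun y => ∑ j ∈ J, (c j * conj (L j a)) * dbf 1 H (L j y + e j) := by
  funext y
  rw [dbf, fder_sum J L e hH, fder_sum J L e hH, Finset.mul_sum, ← Finset.sum_add_distrib,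
    Finset.sum_div]
  refine Finset.sum_congr rfl fun j _ => ?_
  rw [dbf, map_smul, clm_apply _ (L j a), clm_apply _ (I • L j a)]
  simp only [smul_eq_mul, mul_one, mul_re, mul_im, I_re, I_im, zero_mul, one_mul, zero_sub,
    zero_add, ofReal_neg]
  generalize fderiv ℝ H (L j y + e j) 1 = A
  generalize fderiv ℝ H (L j y + e j) I = B
  have h : ((L j a).re : ℂ) - (L j a).im * I = conj (L j a) := by
    apply Complex.ext <;> simp
  linear_combination (c j * (A + I * B) / 2) * h + (c j * ((L j a).im : ℂ) * B / 2) * I_mul_I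

variable {G : ℂ → ℝ} (hG : ContDiff ℝ ∞ G) {χ : E → ℝ} {x : E} {N : ℝ}
  (h : χ =ᶠ[𝓝 x] fun y => N * ∑ j ∈ J, G (L j y + e j))

include h in
theorem ev_c : (fun y => (χ y : ℂ)) =ᶠ[𝓝 x]
    fun y => ∑ j ∈ J, (N : ℂ) * (fun z => (G z : ℂ)) (L j y + e j) :=
  h.mono fun y hy => by simp only [hy, ofReal_mul, ofReal_sum, Finset.mul_sum]

include hG in
theorem sm_c : ContDiff ℝ ∞ fun z => (G z : ℂ) := ofRealCLM.contDiff.comp hG

include hG h

theorem j2_sum (a b : E) :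
    j2 χ x a b = ∑ j ∈ J, N * conj (L j b) * L j a * j2 G (L j x + e j) 1 1 := by
  have h1 := sm_c hG
  rw [j2, (dzf_congr (dbf_congr (ev_c J L e h) b) a).eq_of_nhds, dbf_sum J L e h1,
    dzf_sum J L e (sm_dbf h1 1)]
  rfl

theorem j3_sum (a b c : E) :
    j3 χ x a b c = ∑ j ∈ J, N * conj (L j c) * L j b * L j a * j3 G (L j x + e j) 1 1 1 := by
  have h1 := sm_c hG
  rw [j3, (dzf_congr (dzf_congr (dbf_congr (ev_c J L e h) c) b) a).eq_of_nhds, dbf_sum J L e h1,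
    dzf_sum J L e (sm_dbf h1 1), dzf_sum J L e (sm_dzf (sm_dbf h1 1) 1)]
  rfl

theorem j4_sum (a b c d : E) : j4 χ x a b c d =
    ∑ j ∈ J, N * conj (L j d) * conj (L j c) * L j b * L j a * j4 G (L j x + e j) 1 1 1 1 := by
  have h1 := sm_c hG
  rw [j4, (dzf_congr (dzf_congr (dbf_congr (dbf_congr (ev_c J L e h) d) c) b) a).eq_of_nhds,
    dbf_sum J L e h1, dbf_sum J L e (sm_dbf h1 1), dzf_sum J L e (sm_dbf (sm_dbf h1 1) 1),
    dzf_sum J L e (sm_dzf (sm_dbf (sm_dbf h1 1) 1) 1)]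
  rfl

end gen

variable {G : ℂ → ℝ} {D K T : ℝ}

/-- linear part of `ell` -/
noncomputable def lin (T : ℝ) (j : ℕ × ℤ × ℤ) : Cn 3 →L[ℂ] ℂ :=
  (T : ℂ) ^ (2 * j.1) • ContinuousLinearMap.proj 1 -
    (2 * I * conj (lat j.2) * (T : ℂ) ^ j.1) • ContinuousLinearMap.proj 0

/-- constant part of `ell` -/
noncomputable def cst (j : ℕ × ℤ × ℤ) : ℂ := I * (‖lat j.2‖ : ℂ) ^ 2

theorem lin_apply (j : ℕ × ℤ × ℤ) (a : Cn 3) : lin T j a =
    (T : ℂ) ^ (2 * j.1) * a 1 - 2 * I * conj (lat j.2) * (T : ℂ) ^ j.1 * a 0 := rfl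

theorem ell_eq (j : ℕ × ℤ × ℤ) (y : Cn 3) : lin T j y + cst j = ell T j.1 j.2 y := rfl

theorem cont_rho : Continuous rho := by unfold rho; fun_prop

theorem lat_bd {m : ℤ × ℤ} {n : ℕ} (h : ‖lat m‖ ≤ n) :
    m ∈ Finset.Icc (-(n : ℤ)) n ×ˢ Finset.Icc (-(n : ℤ)) n := by
  have h1 := abs_le.1 ((abs_re_le_norm _).trans h)
  have h2 := abs_le.1 ((abs_im_le_norm _).trans h)
  simp only [lat, mul_re, mul_im, add_re, add_im, intCast_re, intCast_im, I_re, I_im, re_ofNat,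
    im_ofNat] at h1 h2
  have n0 : (0 : ℝ) ≤ n := Nat.cast_nonneg n
  have a1 : ((-(n : ℤ) : ℤ) : ℝ) ≤ m.1 := by push_cast; linarith [h1.1]
  have a2 : (m.1 : ℝ) ≤ ((n : ℤ) : ℝ) := by push_cast; linarith [h1.2]
  have a3 : ((-(n : ℤ) : ℤ) : ℝ) ≤ m.2 := by push_cast; linarith [h2.1]
  have a4 : (m.2 : ℝ) ≤ ((n : ℤ) : ℝ) := by push_cast; linarith [h2.2]
  simp only [Finset.mem_product, Finset.mem_Icc]
  exact ⟨⟨by exact_mod_cast a1, by exact_mod_cast a2⟩, by exact_mod_cast a3, by exact_mod_cast a4⟩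

theorem loc (hG : Bump G D K) (hT : 2 ≤ T) (N : ℝ) {x : Cn 3} (hx : 0 < rho x) :
    ∃ (M : ℕ) (F : Finset (ℤ × ℤ)), wt G T N =ᶠ[𝓝 x]
      fun y => N * ∑ j ∈ Finset.range M ×ˢ F, G (lin T j y + cst j) := by
  obtain ⟨M, hM⟩ := pow_unbounded_of_one_lt (18 / rho x) (show 1 < T by linarith)
  obtain ⟨n, hn⟩ := exists_nat_ge (3 + T ^ M * (‖x 0‖ + 1))
  refine ⟨M, Finset.Icc (-(n : ℤ)) n ×ˢ Finset.Icc (-(n : ℤ)) n, ?_⟩
  have e1 : ∀ᶠ y in 𝓝 x, rho x / 2 < rho y :=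
    cont_rho.continuousAt.eventually (lt_mem_nhds (half_lt_self hx))
  have e2 : ∀ᶠ y in 𝓝 x, ‖y 0‖ < ‖x 0‖ + 1 :=
    (show Continuous fun y : Cn 3 => ‖y 0‖ by fun_prop).continuousAt.eventually
      (gt_mem_nhds (lt_add_one _))
  filter_upwards [e1, e2] with y h1 h2
  have T1 : 1 ≤ T := by linarith
  have hy : 0 < rho y := (half_pos hx).trans h1
  have h3 : 9 ≤ T ^ (2 * M) * rho y := by
    rw [div_lt_iff₀ hx] at hM
    have a1 : T ^ M ≤ T ^ (2 * M) := pow_le_pow_right₀ T1 (by omega)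
    have a2 := mul_le_mul a1 h1.le (half_pos hx).le (by positivity)
    linarith
  rw [wt_eq hG T1 N h3, Finset.sum_product]
  congr 1
  refine Finset.sum_congr rfl fun k hk => finsum_eq_sum_of_support_subset _ fun m hm => ?_
  have h4 : (ell T k m y).im < 9 := by
    by_contra hc
    exact hm (hG.zero _ (not_lt.1 hc)).1
  have h5 := Lev.norm_lt hy h4
  refine lat_bd (le_trans ?_ hn)
  have h6 : ‖(T : ℂ) ^ k * y 0‖ ≤ T ^ M * (‖x 0‖ + 1) := by
    rw [norm_mul, norm_pow, norm_real, Real.norm_of_nonneg (by linarith)]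
    exact mul_le_mul (pow_le_pow_right₀ T1 (Finset.mem_range.1 hk).le) h2.le (norm_nonneg _)
      (by positivity)
  have h7 := norm_sub_le ((T : ℂ) ^ k * y 0) ((T : ℂ) ^ k * y 0 - lat m)
  rw [sub_sub_cancel] at h7
  linarith

theorem geom (hT : 2 ≤ T) {r : ℝ} (hr : 0 < r) (M : ℕ) :
    ∑ k ∈ Finset.range M, (if T ^ (2 * k) * r < 9 then T ^ (2 * k) * r else 0) ≤
      min 18 (T ^ (2 * M) * r) := by
  induction M with
  | zero => simp [hr.le]
  | succ M ih =>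
    have h0 : 0 < T ^ (2 * M) * r := by positivity
    have h1 : 2 * (T ^ (2 * M) * r) ≤ T ^ (2 * (M + 1)) * r := by
      rw [mul_add, pow_add, mul_one]
      have : 2 ≤ T ^ 2 := by nlinarith
      nlinarith
    rw [le_min_iff] at ih ⊢
    rw [Finset.sum_range_succ]
    split_ifs with h
    · constructor <;> linarith [ih.2]
    · constructor <;> linarith [ih.1, ih.2]

theorem sum_le (hT : 2 ≤ T) {x : Cn 3} (hx : 0 < rho x) (M : ℕ) (F : Finset (ℤ × ℤ))
    {t : ℕ × ℤ × ℤ → ℂ} {C : ℝ} (hC : 0 ≤ C) (h0 : ∀ j, 9 ≤ (ell T j.1 j.2 x).im → t j = 0)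
    (h1 : ∀ j, (ell T j.1 j.2 x).im < 9 → ‖t j‖ ≤ C * (T ^ (2 * j.1) * rho x)) :
    ‖∑ j ∈ Finset.range M ×ˢ F, t j‖ ≤ C * 18 := by
  refine le_trans ?_ (mul_le_mul_of_nonneg_left ((geom hT hx M).trans (min_le_left _ _)) hC)
  rw [Finset.sum_product, Finset.mul_sum]
  refine (norm_sum_le _ _).trans (Finset.sum_le_sum fun k _ => ?_)
  have p0 := Lev.pow_rho_nonneg T k hx
  by_cases h : ∃ m, (ell T k m x).im < 9
  · obtain ⟨m, hm⟩ := h
    have h2 : T ^ (2 * k) * rho x < 9 := by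
      rw [ell_im] at hm
      linarith [sq_nonneg ‖(T : ℂ) ^ k * x 0 - lat m‖]
    rw [if_pos h2]
    have h3 : ∀ m', m' ≠ m → t (k, m') = 0 := fun m' hne =>
      h0 _ (not_lt.1 fun hc => hne (ell_unique hx hc hm))
    by_cases hF : m ∈ F
    · rw [Finset.sum_eq_single_of_mem m hF fun m' _ hne => h3 m' hne]
      exact h1 (k, m) hm
    · rw [Finset.sum_eq_zero fun m' hm' => h3 m' fun h => hF (h ▸ hm'), norm_zero]
      positivity
  · push Not at h
    rw [Finset.sum_eq_zero fun m _ => h0 (k, m) (h m), norm_zero]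
    split_ifs <;> positivity

theorem nw0 (x a : Cn 3) : 0 ≤ nw x a := Real.sqrt_nonneg _

theorem lin_sq (hT : 2 ≤ T) {x : Cn 3} (hx : 0 < rho x) {j : ℕ × ℤ × ℤ}
    (h : (ell T j.1 j.2 x).im < 9) (a : Cn 3) :
    ‖lin T j a‖ ^ 2 ≤ 36 * (T ^ (2 * j.1) * rho x) * nw x a ^ 2 := by
  have e : lin T j a = 2 * I * ((T : ℂ) ^ j.1 * (T : ℂ) ^ j.1 * rhoD x a +
      (T : ℂ) ^ j.1 * conj ((T : ℂ) ^ j.1 * x 0 - lat j.2) * a 0) := by
    simp only [lin_apply, rhoD, map_sub, map_mul, map_pow, conj_ofReal]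
    linear_combination ((T : ℂ) ^ (2 * j.1) * a 1) * I_mul_I
  rw [ell_im] at h
  rw [nw, Real.sq_sqrt (by positivity)]
  have e2 : T ^ (2 * j.1) = T ^ j.1 * T ^ j.1 := by rw [two_mul, pow_add]
  rw [e2] at h ⊢
  have t0 : 0 < T ^ j.1 := by positivity
  have h1 : ‖lin T j a‖ ≤ 2 * (T ^ j.1 * T ^ j.1 * ‖rhoD x a‖ +
      T ^ j.1 * ‖(T : ℂ) ^ j.1 * x 0 - lat j.2‖ * ‖a 0‖) := by
    rw [e, norm_mul, norm_mul, norm_I, Complex.norm_ofNat, mul_one]
    refine mul_le_mul_of_nonneg_left ((norm_add_le _ _).trans_eq ?_) zero_le_two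
    simp only [norm_mul, norm_pow, norm_real, norm_conj,
      Real.norm_of_nonneg (show 0 ≤ T by linarith)]
  refine (pow_le_pow_left₀ (norm_nonneg _) h1 2).trans ?_
  generalize T ^ j.1 = t at *
  generalize ‖(T : ℂ) ^ j.1 * x 0 - lat j.2‖ = δ at *
  generalize ‖rhoD x a‖ = α
  generalize ‖a 0‖ = β
  generalize rho x = r at *
  have h2 : (t * t * α + t * δ * β) ^ 2 ≤
      (t * t * r) * (t * t * r + δ ^ 2) * (α ^ 2 / r ^ 2 + β ^ 2 / r) := by
    have : (t * t * r) * (t * t * r + δ ^ 2) * (α ^ 2 / r ^ 2 + β ^ 2 / r) -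
        (t * t * α + t * δ * β) ^ 2 = t ^ 2 * (t * r * β - δ * α) ^ 2 / r := by
      field_simp; ring
    have h3 : 0 ≤ t ^ 2 * (t * r * β - δ * α) ^ 2 / r := by positivity
    linarith
  have h3 : 0 ≤ (t * t * r) * (α ^ 2 / r ^ 2 + β ^ 2 / r) := by positivity
  have h4 := mul_le_mul_of_nonneg_left h.le h3
  linarith

theorem lin_mul (hT : 2 ≤ T) {x : Cn 3} (hx : 0 < rho x) {j : ℕ × ℤ × ℤ}
    (h : (ell T j.1 j.2 x).im < 9) (a b : Cn 3) :
    ‖lin T j b‖ * ‖lin T j a‖ ≤ 36 * (T ^ (2 * j.1) * rho x) * (nw x a * nw x b) := by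
  have p0 := Lev.pow_rho_nonneg T j.1 hx
  have a0 := nw0 x a
  have b0 := nw0 x b
  refine (pow_le_pow_iff_left₀ (by positivity) (by positivity) two_ne_zero).1 ?_
  have := mul_le_mul (lin_sq hT hx h b) (lin_sq hT hx h a) (by positivity) (by positivity)
  linarith

theorem lin_le (hT : 2 ≤ T) {x : Cn 3} (hx : 0 < rho x) {j : ℕ × ℤ × ℤ}
    (h : (ell T j.1 j.2 x).im < 9) (a : Cn 3) : ‖lin T j a‖ ≤ 18 * nw x a := by
  have a0 := nw0 x a
  refine (pow_le_pow_iff_left₀ (by positivity) (by positivity) two_ne_zero).1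
    ((lin_sq hT hx h a).trans ?_)
  rw [ell_im] at h
  have h2 : T ^ (2 * j.1) * rho x ≤ 9 := by
    linarith [sq_nonneg ‖(T : ℂ) ^ j.1 * x 0 - lat j.2‖]
  linarith [mul_le_mul_of_nonneg_right h2 (sq_nonneg (nw x a))]

end Chi

section
variable {G : ℂ → ℝ} {D K T : ℝ}

open Chi in
theorem good_wt (hG : Bump G D K) (hT : 2 ≤ T) {N : ℝ} (hN : 0 ≤ N) :
    ∃ Λ, Good (wt G T N) Λ := by
  have K0 := hG.K0
  refine ⟨N * K * 36 * 18 ^ 3, fun x hx => ?_, fun x ξ => ?_, fun x hx a => ?_,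
    fun x hx a b => ?_, fun x hx a b c => ?_, fun x hx a b c d => ?_⟩
  · obtain ⟨M, F, h⟩ := loc hG hT N hx
    refine (ContDiffAt.congr_of_eventuallyEq (ContDiff.contDiffAt ?_) h).contDiffWithinAt
    exact contDiff_const.mul (ContDiff.sum fun j _ => hG.smooth.comp
      (((lin T j).restrictScalars ℝ).contDiff.add contDiff_const))
  · simp [wt, lev, ell]
  · obtain ⟨M, F, h⟩ := loc hG hT N hx
    rw [j2_sum _ _ _ hG.smooth h, re_sum]
    refine Finset.sum_nonneg fun j _ => ?_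
    rw [mul_assoc (N : ℂ), ← normSq_eq_conj_mul_self, ← ofReal_mul, re_ofReal_mul]
    exact mul_nonneg (mul_nonneg hN (normSq_nonneg _)) (hG.sub _)
  · obtain ⟨M, F, h⟩ := loc hG hT N hx
    have a0 := nw0 x a
    have b0 := nw0 x b
    rw [j2_sum _ _ _ hG.smooth h]
    refine (sum_le hT hx M F (C := N * K * 36 * (nw x a * nw x b)) (by positivity)
      (fun j hj => ?_) fun j hj => ?_).trans ?_
    · rw [ell_eq, (hG.zero _ hj).2.1, mul_zero]
    · have p0 := Lev.pow_rho_nonneg T j.1 hx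
      have h1 := mul_le_mul (lin_mul hT hx hj a b) (hG.bd _ (Lev.im_nonneg T j.1 j.2 hx)).1
        (norm_nonneg _) (by positivity)
      simp only [norm_mul, norm_conj, norm_real, Real.norm_of_nonneg hN, ell_eq]
      linarith [mul_le_mul_of_nonneg_left h1 hN]
    · have : 0 ≤ N * K * 36 * (nw x a * nw x b) := by positivity
      linarith
  · obtain ⟨M, F, h⟩ := loc hG hT N hx
    have a0 := nw0 x a
    have b0 := nw0 x b
    have c0 := nw0 x c
    rw [j3_sum _ _ _ hG.smooth h]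
    refine (sum_le hT hx M F (C := N * K * 36 * 18 * (nw x a * nw x b * nw x c)) (by positivity)
      (fun j hj => ?_) fun j hj => ?_).trans ?_
    · rw [ell_eq, (hG.zero _ hj).2.2.1, mul_zero]
    · have p0 := Lev.pow_rho_nonneg T j.1 hx
      have h1 := mul_le_mul (mul_le_mul (lin_mul hT hx hj b c) (lin_le hT hx hj a) (norm_nonneg _)
        (by positivity)) (hG.bd _ (Lev.im_nonneg T j.1 j.2 hx)).2.1
        (norm_nonneg _) (by positivity)
      simp only [norm_mul, norm_conj, norm_real, Real.norm_of_nonneg hN, ell_eq]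
      linarith [mul_le_mul_of_nonneg_left h1 hN]
    · have : 0 ≤ N * K * 36 * (nw x a * nw x b * nw x c) := by positivity
      linarith
  · obtain ⟨M, F, h⟩ := loc hG hT N hx
    have a0 := nw0 x a
    have b0 := nw0 x b
    have c0 := nw0 x c
    have d0 := nw0 x d
    rw [j4_sum _ _ _ hG.smooth h]
    refine (sum_le hT hx M F (C := N * K * 36 * 18 ^ 2 * (nw x a * nw x b * nw x c * nw x d))
      (by positivity) (fun j hj => ?_) fun j hj => ?_).trans ?_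
    · rw [ell_eq, (hG.zero _ hj).2.2.2, mul_zero]
    · have p0 := Lev.pow_rho_nonneg T j.1 hx
      have h1 := mul_le_mul (mul_le_mul (mul_le_mul (lin_mul hT hx hj c d) (lin_le hT hx hj b)
        (norm_nonneg _) (by positivity)) (lin_le hT hx hj a) (norm_nonneg _)
        (by positivity)) (hG.bd _ (Lev.im_nonneg T j.1 j.2 hx)).2.2
        (norm_nonneg _) (by positivity)
      simp only [norm_mul, norm_conj, norm_real, Real.norm_of_nonneg hN, ell_eq]
      linarith [mul_le_mul_of_nonneg_left h1 hN]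
    · linarith

end

end Vale.Agent.P250
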