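import Vale.Agent.P250.Base

/-! Geodesic completeness from a proper function with bounded gradient. -/

namespace Vale.Agent.P250

open scoped ContDiff ComplexConjugate
open Complex

namespace Complete

open Set Metric Filter Topology

variable {F : Type} [NormedAddCommGroup F] [NormedSpace ℝ F] [FiniteDimensional ℝ F]

theorem cutoff {Ω K : Set F} (hΩ : IsOpen Ω) (hK : IsCompact K) (hKΩ : K ⊆ Ω) :
    ∃ (b : F → ℝ) (L : Set F), ContDiff ℝ 1 b ∧ IsCompact L ∧ L ⊆ Ω ∧ (∀ x, x ∉ L → b x = 0) ∧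
      (∀ x ∈ K, b x = 1) ∧ ∀ x, b x ∈ Icc (0 : ℝ) 1 := by
  obtain ⟨L, hL, hKL, hLΩ⟩ := exists_compact_between hK hΩ hKΩ
  obtain ⟨f, hf0, hf1, hf⟩ := exists_contMDiffMap_zero_one_of_isClosed
    (modelWithCornersSelf ℝ F) (n := 1) (s := (interior L)ᶜ) (t := K)
    isOpen_interior.isClosed_compl hK.isClosed (disjoint_compl_left_iff_subset.2 hKL)
  refine ⟨f, L, ?_, hL, hLΩ, fun x hx => hf0 fun h => hx (interior_subset h), fun x hx => hf1 hx,
    hf⟩
  exact_mod_cast contMDiff_iff_contDiff.1 f.contMDiff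

theorem ext_field {Ω K : Set F} (hΩ : IsOpen Ω) (hK : IsCompact K) (hKΩ : K ⊆ Ω) {V : F → F}
    (hV : ContDiffOn ℝ 1 V Ω) :
    ∃ (b : F → ℝ) (C M : NNReal), LipschitzWith C (fun z => b z • V z) ∧
      (∀ z, ‖b z • V z‖ ≤ M) ∧ (∀ x, x ∉ Ω → b x = 0) ∧ (∀ x ∈ K, b x = 1) ∧
      ∀ x, b x ∈ Icc (0 : ℝ) 1 := by
  obtain ⟨b, L, hb, hL, hLΩ, hb0, hb1, hb01⟩ := cutoff hΩ hK hKΩ
  have hs : HasCompactSupport fun z => b z • V z :=
    HasCompactSupport.intro hL fun x hx => by simp [hb0 x hx]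
  have hc : ContDiff ℝ 1 fun z => b z • V z := by
    rw [contDiff_iff_contDiffAt]
    intro x
    by_cases hx : x ∈ Ω
    · exact hb.contDiffAt.smul (hV.contDiffAt (hΩ.mem_nhds hx))
    · have hxL : Lᶜ ∈ 𝓝 x := hL.isClosed.isOpen_compl.mem_nhds fun h => hx (hLΩ h)
      refine (contDiffAt_const (c := (0 : F))).congr_of_eventuallyEq ?_
      filter_upwards [hxL] with y hy
      simp [hb0 y hy]
  obtain ⟨C, hC⟩ := hc.lipschitzWith_of_hasCompactSupport hs one_ne_zero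
  obtain ⟨M, hM⟩ := hs.exists_bound_of_continuous hc.continuous
  refine ⟨b, C, ⟨max M 0, le_max_right _ _⟩, hC, fun z => (hM z).trans (le_max_left _ _),
    fun x hx => hb0 x fun h => hx (hLΩ h), hb1, hb01⟩

theorem sol_Ioo {W : F → F} {C M : NNReal} (hC : LipschitzWith C W) (hM : ∀ z, ‖W z‖ ≤ M)
    (z₀ : F) {R : ℝ} (hR : 0 < R) :
    ∃ α : ℝ → F, α 0 = z₀ ∧ ∀ t ∈ Ioo (-R) R, HasDerivAt α (W (α t)) t := by
  have hP : IsPicardLindelof (fun _ => W) (tmin := -R) (tmax := R) ⟨0, by constructor <;> linarith⟩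
      z₀ (M * ⟨R, hR.le⟩) 0 M C :=
    IsPicardLindelof.of_time_independent (fun x _ => hM x) hC.lipschitzOnWith (by
      simp; rfl)
  obtain ⟨α, h0, hα⟩ := hP.exists_eq_forall_mem_Icc_hasDerivWithinAt₀
  exact ⟨α, h0, fun t ht =>
    (hα t (Ioo_subset_Icc_self ht)).hasDerivAt (Icc_mem_nhds ht.1 ht.2)⟩

theorem global_of_apriori {Ω : Set F} (hΩ : IsOpen Ω) {V : F → F} (hV : ContDiffOn ℝ 1 V Ω)
    {z₀ : F} (hz : z₀ ∈ Ω)
    (hap : ∀ R : ℝ, 0 < R → ∃ K, IsCompact K ∧ K ⊆ Ω ∧ ∀ (α : ℝ → F) (β : ℝ → ℝ), α 0 = z₀ →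
      (∀ t ∈ Ioo (-R) R, α t ∈ Ω ∧ β t ∈ Icc (0 : ℝ) 1 ∧ HasDerivAt α (β t • V (α t)) t) →
      ∀ t ∈ Ioo (-R) R, α t ∈ K) :
    ∃ α : ℝ → F, α 0 = z₀ ∧ ∀ t, α t ∈ Ω ∧ HasDerivAt α (V (α t)) t := by
  have key : ∀ R : ℝ, 0 < R → ∃ (K : Set F) (α : ℝ → F), IsCompact K ∧ K ⊆ Ω ∧ α 0 = z₀ ∧
      ∀ t ∈ Ioo (-R) R, α t ∈ K ∧ HasDerivAt α (V (α t)) t := by
    intro R hR
    obtain ⟨K, hK, hKΩ, hαK⟩ := hap R hR
    obtain ⟨b, C, M, hC, hM, hb0, hb1, hb01⟩ := ext_field hΩ hK hKΩ hV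
    obtain ⟨α, h0, hα⟩ := sol_Ioo hC hM z₀ hR
    have h0R : (0 : ℝ) ∈ Ioo (-R) R := ⟨by linarith, hR⟩
    have hin : ∀ t ∈ Ioo (-R) R, α t ∈ Ω := by
      intro t ht
      by_contra hn
      have hu : EqOn α (fun _ => α t) (Ioo (-R) R) :=
        ODE_solution_unique_of_mem_Ioo (v := fun _ z => b z • V z) (s := fun _ => univ) (K := C)
          (fun _ _ => hC.lipschitzOnWith) ht (fun s hs => ⟨hα s hs, trivial⟩)
          (fun s _ => ⟨by simpa [hb0 _ hn] using hasDerivAt_const s (α t), trivial⟩) rfl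
      have := hu h0R
      simp only [h0] at this
      exact hn (this ▸ hz)
    have hK' := hαK α (fun t => b (α t)) h0 fun t ht => ⟨hin t ht, hb01 _, hα t ht⟩
    refine ⟨K, α, hK, hKΩ, h0, fun t ht => ⟨hK' t ht, ?_⟩⟩
    have := hα t ht
    rwa [hb1 _ (hK' t ht), one_smul] at this
  choose! K α hK hKΩ h0 hα using key
  have hagree : ∀ R S : ℝ, 0 < R → R ≤ S → EqOn (α R) (α S) (Ioo (-R) R) := by
    intro R S hR hRS
    have hS : 0 < S := hR.trans_le hRS
    obtain ⟨b, C, M, hC, -, -, hb1, -⟩ := ext_field hΩ ((hK R hR).union (hK S hS))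
      (union_subset (hKΩ R hR) (hKΩ S hS)) hV
    have hsub : Ioo (-R) R ⊆ Ioo (-S) S := Ioo_subset_Ioo (by linarith) hRS
    refine ODE_solution_unique_of_mem_Ioo (v := fun _ z => b z • V z) (s := fun _ => univ) (K := C)
      (t₀ := 0) (fun _ _ => hC.lipschitzOnWith) ⟨by linarith, hR⟩ (fun s hs => ⟨?_, trivial⟩)
      (fun s hs => ⟨?_, trivial⟩) ((h0 R hR).trans (h0 S hS).symm)
    · simp only [hb1 _ (Or.inl (hα R hR s hs).1), one_smul]
      exact (hα R hR s hs).2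
    · simp only [hb1 _ (Or.inr (hα S hS s (hsub hs)).1), one_smul]
      exact (hα S hS s (hsub hs)).2
  refine ⟨fun t => α (|t| + 1) t, by simpa using h0 1 one_pos, fun t => ?_⟩
  have ht1 : 0 < |t| + 1 := by positivity
  have ht2 : 0 < |t| + 2 := by positivity
  have hmem : ∀ s : ℝ, s ∈ Ioo (-(|s| + 1)) (|s| + 1) := fun s =>
    ⟨by linarith [neg_abs_le s], by linarith [le_abs_self s]⟩
  refine ⟨hKΩ _ ht1 (hα _ ht1 t (hmem t)).1, ?_⟩
  have hev : (fun s => α (|s| + 1) s) =ᶠ[𝓝 t] α (|t| + 2) := by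
    filter_upwards [ball_mem_nhds t one_pos] with s hs
    have hs' : |s| ≤ |t| + 1 := by
      have h1 : |s - t| < 1 := by simpa [Real.dist_eq] using hs
      have := abs_sub_abs_le_abs_sub s t
      linarith
    exact hagree (|s| + 1) (|t| + 2) (by positivity) (by linarith) (hmem s)
  have hd := (hα _ ht2 t ⟨by linarith [neg_abs_le t], by linarith [le_abs_self t]⟩).2
  have he : α (|t| + 1) t = α (|t| + 2) t := hev.eq_of_nhds
  show HasDerivAt (fun s => α (|s| + 1) s) (V (α (|t| + 1) t)) t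
  rw [he]
  exact hd.congr_of_eventuallyEq hev

theorem dg_eq {n : ℕ} {g : Met n} {x : Cn n} (hg : DifferentiableAt ℝ g x) (c a b : Cn n) :
    dg g x c a b = fderiv ℝ g x c a b := by
  have h := (hg.hasFDerivAt.clm_apply (hasFDerivAt_const a x)).clm_apply (hasFDerivAt_const b x)
  unfold dg
  rw [h.fderiv]
  simp

theorem coercive {n : ℕ} {U K : Set (Cn n)} {g : Met n} (h : IsRiemOn U g) (hK : IsCompact K)
    (hKU : K ⊆ U) (e : ℝ) : ∃ M : ℝ, ∀ x ∈ K, ∀ v, g x v v ≤ e → ‖v‖ ≤ M := by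
  have hc : ContinuousOn (fun z : Cn n × Cn n => g z.1 z.2 z.2) (K ×ˢ sphere 0 1) := by
    have h1 : ContinuousOn (fun z : Cn n × Cn n => g z.1) (K ×ˢ sphere 0 1) :=
      (h.smooth.continuousOn.mono hKU).comp continuousOn_fst fun z hz => hz.1
    exact (h1.clm_apply continuousOn_snd).clm_apply continuousOn_snd
  obtain ⟨c, hc0, hc⟩ := (hK.prod (isCompact_sphere 0 1)).exists_forall_le' hc (a := 0)
    fun z hz => h.pos _ (hKU hz.1) _ (by
      intro h0
      have := hz.2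
      simp [h0] at this)
  refine ⟨1 + |e| / c, fun x hx v hv => ?_⟩
  by_cases h1 : ‖v‖ ≤ 1
  · have : 0 ≤ |e| / c := by positivity
    linarith
  · have h1 : 1 < ‖v‖ := not_le.1 h1
    have hv0 : 0 < ‖v‖ := by linarith
    have h2 := hc (x, ‖v‖⁻¹ • v) ⟨hx, by
      simp [norm_smul, hv0.ne']⟩
    simp only [map_smul, smul_apply, smul_eq_mul] at h2
    have h3 : c * ‖v‖ ^ 2 ≤ g x v v := by
      have : g x v v = ‖v‖ ^ 2 * (‖v‖⁻¹ * (‖v‖⁻¹ * g x v v)) := by field_simp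
      rw [this, mul_comm c]
      exact mul_le_mul_of_nonneg_left h2 (by positivity)
    have h4 : ‖v‖ ≤ |e| / c := by
      rw [le_div_iff₀ hc0]
      have := le_abs_self e
      nlinarith [mul_pos hc0 hv0]
    linarith

theorem dfst {A B : Type} [NormedAddCommGroup A] [NormedSpace ℝ A] [NormedAddCommGroup B]
    [NormedSpace ℝ B] {α : ℝ → A × B} {a : A × B} {t : ℝ} (h : HasDerivAt α a t) :
    HasDerivAt (fun s => (α s).1) a.1 t :=
  (ContinuousLinearMap.fst ℝ A B).hasFDerivAt.comp_hasDerivAt t h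

theorem dsnd {A B : Type} [NormedAddCommGroup A] [NormedSpace ℝ A] [NormedAddCommGroup B]
    [NormedSpace ℝ B] {α : ℝ → A × B} {a : A × B} {t : ℝ} (h : HasDerivAt α a t) :
    HasDerivAt (fun s => (α s).2) a.2 t :=
  (ContinuousLinearMap.snd ℝ A B).hasFDerivAt.comp_hasDerivAt t h

theorem dcomp {A B : Type} [NormedAddCommGroup A] [NormedSpace ℝ A] [NormedAddCommGroup B]
    [NormedSpace ℝ B] {α : ℝ → A} {a : A} {t : ℝ} {g : A → B} (hg : DifferentiableAt ℝ g (α t))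
    (h : HasDerivAt α a t) : HasDerivAt (fun s => g (α s)) (fderiv ℝ g (α t) a) t :=
  hg.hasFDerivAt.comp_hasDerivAt t h

end Complete

open Set Complete in
theorem geodComplete_of {n : ℕ} {U : Set (Cn n)} {g : Met n} {Γ : Chr n} (hU : IsOpen U)
    (h : IsRiemOn U g) (hΓ : ContDiffOn ℝ ∞ Γ U) (hL : IsLeviCivitaOn U g fun x a b => Γ x a b)
    {f : Cn n → ℝ} (hf : DifferentiableOn ℝ f U) {C : ℝ}
    (hC : ∀ x ∈ U, ∀ u, fderiv ℝ f x u ^ 2 ≤ C * g x u u)
    (hK : ∀ c, IsCompact {x | x ∈ U ∧ f x ≤ c}) : GeodComplete U fun x a b => Γ x a b := by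
  intro p hp v
  have hV : ContDiffOn ℝ 1 (fun z : Cn n × Cn n => (z.2, -Γ z.1 z.2 z.2)) (U ×ˢ univ) := by
    have h1 : ContDiffOn ℝ 1 (fun z : Cn n × Cn n => Γ z.1) (U ×ˢ univ) :=
      (hΓ.of_le (by simp)).comp contDiffOn_fst fun z hz => hz.1
    exact contDiffOn_snd.prodMk ((h1.clm_apply contDiffOn_snd).clm_apply contDiffOn_snd).neg
  obtain ⟨α, h0, hα⟩ := global_of_apriori (hU.prod isOpen_univ) hV (z₀ := (p, v)) ⟨hp, trivial⟩ (by
    intro R hR
    set B := √(C * g p v v) with hB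
    obtain ⟨M, hM⟩ := coercive h (hK (f p + B * R)) (fun x hx => hx.1) (g p v v)
    refine ⟨{x | x ∈ U ∧ f x ≤ f p + B * R} ×ˢ Metric.closedBall 0 M,
      (hK _).prod (isCompact_closedBall _ _), fun z hz => ⟨hz.1.1, trivial⟩, ?_⟩
    intro α β h0 hα
    have h0R : (0 : ℝ) ∈ Ioo (-R) R := ⟨by linarith, hR⟩
    have hx : ∀ t ∈ Ioo (-R) R, HasDerivAt (fun s => (α s).1) (β t • (α t).2) t := fun t ht => by
      simpa using dfst (hα t ht).2.2
    have hw : ∀ t ∈ Ioo (-R) R,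
        HasDerivAt (fun s => (α s).2) (-(β t • Γ (α t).1 (α t).2 (α t).2)) t := fun t ht => by
      simpa using dsnd (hα t ht).2.2
    have he : ∀ t ∈ Ioo (-R) R, HasDerivAt (fun s => g (α s).1 (α s).2 (α s).2) 0 t := by
      intro t ht
      have hxU : (α t).1 ∈ U := (hα t ht).1.1
      have hg : DifferentiableAt ℝ g (α t).1 :=
        (h.smooth.contDiffAt (hU.mem_nhds hxU)).differentiableAt (by simp)
      have h1 := dcomp (B := Cn n →L[ℝ] Cn n →L[ℝ] ℝ) (g := g) (α := fun s => (α s).1) hg (hx t ht)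
      have h2 := (h1.clm_apply (hw t ht)).clm_apply (hw t ht)
      have h3 := hL _ hxU (α t).2 (α t).2 (α t).2
      have h4 := h.symm _ hxU (α t).2 (Γ (α t).1 (α t).2 (α t).2)
      rw [dg_eq hg] at h3
      refine h2.congr_deriv ?_
      simp only [map_smul, map_neg, add_apply, smul_apply, neg_apply, smul_eq_mul]
      rw [h4]
      linear_combination (-β t) * h3
    have hcv : Convex ℝ (Ioo (-R) R) := convex_Ioo _ _
    have hen : ∀ t ∈ Ioo (-R) R, g (α t).1 (α t).2 (α t).2 = g p v v := by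
      intro t ht
      have := hcv.norm_image_sub_le_of_norm_hasDerivWithin_le (C := 0)
        (fun s hs => (he s hs).hasDerivWithinAt) (fun s _ => by simp) h0R ht
      simp only [zero_mul, norm_le_zero_iff, sub_eq_zero, h0] at this
      exact this
    have hfd : ∀ t ∈ Ioo (-R) R,
        HasDerivAt (fun s => f (α s).1) (β t * fderiv ℝ f (α t).1 (α t).2) t := by
      intro t ht
      have hxU : (α t).1 ∈ U := (hα t ht).1.1
      have h1 := dcomp (α := fun s => (α s).1) (hf.differentiableAt (hU.mem_nhds hxU)) (hx t ht)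
      rwa [map_smul, smul_eq_mul] at h1
    intro t ht
    have hxU : (α t).1 ∈ U := (hα t ht).1.1
    have hft : f (α t).1 ≤ f p + B * R := by
      have := hcv.norm_image_sub_le_of_norm_hasDerivWithin_le (C := B)
        (fun s hs => (hfd s hs).hasDerivWithinAt) (fun s hs => by
          have h1 := hC _ (hα s hs).1.1 (α s).2
          rw [hen s hs] at h1
          have h2 : |fderiv ℝ f (α s).1 (α s).2| ≤ B := Real.abs_le_sqrt h1
          have h3 := (hα s hs).2.1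
          rw [Real.norm_eq_abs, abs_mul, abs_of_nonneg h3.1]
          nlinarith [h3.1, h3.2, abs_nonneg (fderiv ℝ f (α s).1 (α s).2)]) h0R ht
      simp only [h0, sub_zero, Real.norm_eq_abs] at this
      have h1 : |t| ≤ R := abs_le.2 ⟨ht.1.le, ht.2.le⟩
      have h2 : 0 ≤ B := Real.sqrt_nonneg _
      nlinarith [le_abs_self (f (α t).1 - f p)]
    exact ⟨⟨hxU, hft⟩, by simpa using hM _ ⟨hxU, hft⟩ _ (hen t ht).le⟩)
  refine ⟨fun t => (α t).1, fun t => (α t).2, by simp [h0], by simp [h0], fun t =>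
    ⟨(hα t).1.1, ?_, ?_⟩⟩
  · exact dfst (hα t).2
  · exact dsnd (hα t).2

end Vale.Agent.P250
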