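import Vale.Agent.P250.Base

/-! Harnack inequality for `log ‖f‖` and the Jacobian of a biholomorphism onto a bounded domain. -/

namespace Vale.Agent.P250

open scoped ContDiff ComplexConjugate
open Complex

namespace Harn

open Metric Filter Topology

theorem pos_harnack {k : ℂ → ℂ} {c a : ℂ} {R : ℝ} (hk : DifferentiableOn ℂ k (ball c R))
    (hp : ∀ z ∈ ball c R, 0 < (k z).re) (ha : a ∈ ball c R) :
    (1 - ‖a - c‖ ^ 2 / R ^ 2) * ((k a).re + (k c).re) ^ 2 ≤ 4 * (k a).re * (k c).re := by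
  have hR : 0 < R := nonempty_ball.mp ⟨_, ha⟩
  have hc : c ∈ ball c R := mem_ball_self hR
  have hden : ∀ z ∈ ball c R, k z + conj (k c) ≠ 0 := by
    intro z hz h
    have := congrArg Complex.re h
    simp only [add_re, conj_re, zero_re] at this
    linarith [hp z hz, hp c hc]
  have hsq : ∀ z, ‖k z + conj (k c)‖ ^ 2 = ‖k z - k c‖ ^ 2 + 4 * (k z).re * (k c).re := by
    intro z
    rw [Complex.sq_norm, Complex.sq_norm, normSq_apply, normSq_apply]
    simp only [add_re, conj_re, add_im, conj_im, sub_re, sub_im]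
    ring
  set q : ℂ → ℂ := fun z => (k z - k c) / (k z + conj (k c)) with hq
  have hqd : DifferentiableOn ℂ q (ball c R) :=
    (hk.sub_const _).div (hk.add_const _) hden
  have hq0 : q c = 0 := by simp [hq]
  have hmaps : Set.MapsTo q (ball c R) (closedBall (q c) 1) := by
    intro z hz
    rw [hq0, mem_closedBall_zero_iff, hq]
    simp only [norm_div]
    rw [div_le_one (norm_pos_iff.mpr (hden z hz))]
    have h1 := hsq z
    have h2 := mul_pos (hp z hz) (hp c hc)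
    exact le_of_sq_le_sq (by nlinarith) (norm_nonneg _)
  have hS := Complex.dist_le_div_mul_dist_of_mapsTo_ball hqd hmaps ha
  rw [hq0, dist_zero_right, dist_eq_norm, hq] at hS
  simp only [norm_div] at hS
  have hdpos := norm_pos_iff.mpr (hden a ha)
  rw [div_le_iff₀ hdpos] at hS
  have hS2 : ‖k a - k c‖ ^ 2 ≤ ‖a - c‖ ^ 2 / R ^ 2 * ‖k a + conj (k c)‖ ^ 2 := by
    calc ‖k a - k c‖ ^ 2 ≤ (1 / R * ‖a - c‖ * ‖k a + conj (k c)‖) ^ 2 :=
          pow_le_pow_left₀ (norm_nonneg _) hS 2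
      _ = _ := by field_simp
  have hlow : ((k a).re + (k c).re) ^ 2 ≤ ‖k a + conj (k c)‖ ^ 2 := by
    have h1 : |(k a + conj (k c)).re| ≤ ‖k a + conj (k c)‖ := abs_re_le_norm _
    simp only [add_re, conj_re] at h1
    rw [← sq_abs]
    exact pow_le_pow_left₀ (abs_nonneg _) h1 2
  have hκ : 0 ≤ 1 - ‖a - c‖ ^ 2 / R ^ 2 := by
    rw [mem_ball, dist_eq_norm] at ha
    rw [sub_nonneg, div_le_one (by positivity)]
    exact pow_le_pow_left₀ (norm_nonneg _) ha.le 2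
  have h1 := hsq a
  have h2 := mul_le_mul_of_nonneg_left hlow hκ
  nlinarith

theorem aux_ineq {t x y : ℝ} (ht : 0 ≤ t) (hx : 0 < x) (hy : 0 < y)
    (h : t * (x + y) ^ 2 ≤ 4 * x * y) : t * x ≤ 4 * y := by
  have h1 : t * x * x ≤ 4 * y * x := by
    have : t * (x * x) ≤ t * (x + y) ^ 2 := mul_le_mul_of_nonneg_left (by nlinarith) ht
    nlinarith
  exact le_of_mul_le_mul_right h1 hx

variable {E : Type} [NormedAddCommGroup E] [NormedSpace ℂ E]

theorem hasDerivAt_line {F : E → E} {U : Set E} (hU : IsOpen U) (hF : DifferentiableOn ℂ F U)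
    {x e : E} {σ : ℂ} (h : x + σ • e ∈ U) :
    HasDerivAt (fun s : ℂ => F (x + s • e)) (fderiv ℂ F (x + σ • e) e) σ := by
  have h1 : HasDerivAt (fun s : ℂ => x + s • e) e σ := by
    simpa using ((hasDerivAt_id σ).smul_const e).const_add x
  exact ((hF.differentiableAt (hU.mem_nhds h)).hasFDerivAt).comp_hasDerivAt σ h1

theorem fderiv_bound {F : E → E} {U : Set E} (hU : IsOpen U) (hF : DifferentiableOn ℂ F U)
    {B : ℝ} (hB : ∀ x ∈ U, ‖F x‖ ≤ B) {x e : E} {r : ℝ} (hr : 0 < r)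
    (h : ∀ τ : ℂ, ‖τ‖ < r → x + τ • e ∈ U) : ‖fderiv ℂ F x e‖ ≤ 2 * B / r := by
  have hx : x + (0 : ℂ) • e ∈ U := h 0 (by simpa using hr)
  have hd : DifferentiableOn ℂ (fun s : ℂ => F (x + s • e)) (ball 0 r) := fun s hs =>
    (hasDerivAt_line hU hF (h s (by simpa using hs))).differentiableAt.differentiableWithinAt
  have hm : Set.MapsTo (fun s : ℂ => F (x + s • e)) (ball 0 r)
      (closedBall ((fun s : ℂ => F (x + s • e)) 0) (2 * B)) := by
    intro s hs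
    rw [mem_closedBall, dist_eq_norm]
    have h1 := hB _ (h s (by simpa using hs))
    have h2 := hB _ hx
    calc _ ≤ _ := norm_sub_le _ _
      _ ≤ _ := by linarith
  have := Complex.norm_deriv_le_div_of_mapsTo_ball hd hm hr
  rw [(hasDerivAt_line hU hF hx).deriv] at this
  simpa using this

theorem quot_bound {F : E → E} {U : Set E} (hU : IsOpen U) (hF : DifferentiableOn ℂ F U)
    {B : ℝ} (hB : ∀ x ∈ U, ‖F x‖ ≤ B) {x e : E} {r : ℝ} (hr : 0 < r)
    (h : ∀ τ : ℂ, ‖τ‖ < r → x + τ • e ∈ U) {σ : ℂ} (hσ : ‖σ‖ < r) (h0 : σ ≠ 0) :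
    ‖σ⁻¹ • (F (x + σ • e) - F x) - fderiv ℂ F x e‖ ≤ 4 * B / r ^ 2 * ‖σ‖ := by
  have hx : x + (0 : ℂ) • e ∈ U := h 0 (by simpa using hr)
  have hL := fderiv_bound hU hF hB hr h
  set L := fderiv ℂ F x e with hLdef
  set g : ℂ → E := fun s => F (x + s • e) - s • L with hg
  have hd : DifferentiableOn ℂ g (ball 0 r) := fun s hs =>
    ((hasDerivAt_line hU hF (h s (by simpa using hs))).differentiableAt.sub
      (differentiableAt_id.smul_const L)).differentiableWithinAt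
  have hg0 : g 0 = F x := by simp [hg]
  have hm : Set.MapsTo g (ball 0 r) (closedBall (g 0) (4 * B)) := by
    intro s hs
    have hs' : ‖s‖ < r := by simpa using hs
    rw [mem_closedBall, dist_eq_norm, hg0]
    have h1 := hB _ (h s hs')
    have h2 := hB _ hx
    simp only [zero_smul, add_zero] at h2
    have h3 : ‖s • L‖ ≤ 2 * B := by
      rw [norm_smul]
      calc ‖s‖ * ‖L‖ ≤ r * (2 * B / r) := mul_le_mul hs'.le hL (norm_nonneg _) hr.le
        _ = 2 * B := by field_simp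
    calc ‖g s - F x‖ ≤ ‖g s‖ + ‖F x‖ := norm_sub_le _ _
      _ ≤ ‖F (x + s • e)‖ + ‖s • L‖ + ‖F x‖ := by
          gcongr
          exact norm_sub_le _ _
      _ ≤ _ := by linarith
  have hder : HasDerivAt g 0 0 := by
    have h1 := hasDerivAt_line hU hF hx
    simp only [zero_smul, add_zero] at h1
    have h2 : HasDerivAt (fun s : ℂ => s • L) L 0 := by
      simpa using (hasDerivAt_id (0 : ℂ)).smul_const L
    have h3 := h1.sub h2
    rw [← hLdef, sub_self] at h3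
    exact h3
  have ho : (g · - g 0) =o[𝓝 0] fun w : ℂ => ‖w - 0‖ ^ 1 := by
    have := hder.isLittleO
    simpa using this.norm_right
  have := Complex.dist_le_mul_div_pow_of_mapsTo_ball_of_isLittleO (n := 1) hd hm ho
    (z := σ) (by simpa using hσ)
  rw [hg0, dist_eq_norm, dist_zero_right] at this
  have hσ0 : 0 < ‖σ‖ := norm_pos_iff.mpr h0
  have he : σ⁻¹ • (F (x + σ • e) - F x) - L = σ⁻¹ • (g σ - F x) := by
    simp only [hg, smul_sub, smul_smul, inv_mul_cancel₀ h0, one_smul]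
    abel
  rw [he, norm_smul, norm_inv]
  calc ‖σ‖⁻¹ * ‖g σ - F x‖ ≤ ‖σ‖⁻¹ * (4 * B * (‖σ‖ / r) ^ (1 + 1)) := by gcongr
    _ = _ := by rw [show (1 + 1 : ℕ) = 2 from rfl]; field_simp

theorem line_diff [CompleteSpace E] {F : E → E} {U : Set E} (hU : IsOpen U)
    (hF : DifferentiableOn ℂ F U) {B : ℝ} (hB : ∀ x ∈ U, ‖F x‖ ≤ B) (p a e : E) :
    DifferentiableOn ℂ (fun τ : ℂ => fderiv ℂ F (p + τ • a) e) {τ | p + τ • a ∈ U} := by
  intro τ₀ hτ₀
  obtain ⟨ρ, hρ, hball⟩ := Metric.isOpen_iff.mp hU _ hτ₀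
  set W : Set ℂ := {τ | p + τ • a ∈ ball (p + τ₀ • a) (ρ / 2)} with hW
  have hWo : IsOpen W := isOpen_ball.preimage (by fun_prop)
  have hW0 : τ₀ ∈ W := mem_ball_self (half_pos hρ)
  set r := ρ / 2 / (‖e‖ + 1) with hr
  have hr0 : 0 < r := by positivity
  have hin : ∀ τ ∈ W, ∀ σ : ℂ, ‖σ‖ < r → p + τ • a + σ • e ∈ U := by
    intro τ hτ σ hσ
    apply hball
    have h1 : dist (p + τ • a) (p + τ₀ • a) < ρ / 2 := hτ
    have h2 : ‖σ • e‖ ≤ ρ / 2 := by
      rw [norm_smul]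
      calc ‖σ‖ * ‖e‖ ≤ r * (‖e‖ + 1) := mul_le_mul hσ.le (by linarith) (norm_nonneg _) hr0.le
        _ = ρ / 2 := by rw [hr]; field_simp
    have h3 : dist (p + τ • a + σ • e) (p + τ • a) = ‖σ • e‖ := by simp
    have h4 := dist_triangle (p + τ • a + σ • e) (p + τ • a) (p + τ₀ • a)
    rw [mem_ball]
    linarith
  have hB0 : 0 ≤ B := (norm_nonneg _).trans (hB _ hτ₀)
  have hev : ∀ᶠ σ : ℂ in 𝓝[≠] 0, ‖σ‖ < r := by
    apply mem_nhdsWithin_of_mem_nhds
    filter_upwards [ball_mem_nhds (0 : ℂ) hr0] with σ hσ using by simpa using hσ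
  have hunif : TendstoUniformlyOn
      (fun (σ : ℂ) (τ : ℂ) => σ⁻¹ • (F (p + τ • a + σ • e) - F (p + τ • a)))
      (fun τ => fderiv ℂ F (p + τ • a) e) (𝓝[≠] 0) W := by
    rw [Metric.tendstoUniformlyOn_iff]
    intro ε hε
    have hev2 : ∀ᶠ σ : ℂ in 𝓝[≠] 0, 4 * B / r ^ 2 * ‖σ‖ < ε := by
      apply mem_nhdsWithin_of_mem_nhds
      have hc : Continuous fun σ : ℂ => 4 * B / r ^ 2 * ‖σ‖ := by fun_prop
      exact hc.continuousAt.eventually_lt continuousAt_const (by simpa using hε)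
    filter_upwards [hev, hev2, self_mem_nhdsWithin] with σ h1 h2 h3 τ hτ
    rw [dist_comm, dist_eq_norm]
    exact (quot_bound hU hF hB hr0 (hin τ hτ) h1 h3).trans_lt h2
  have hdiff : ∀ᶠ σ : ℂ in 𝓝[≠] 0, DifferentiableOn ℂ
      (fun τ : ℂ => σ⁻¹ • (F (p + τ • a + σ • e) - F (p + τ • a))) W := by
    filter_upwards [hev] with σ h1
    refine DifferentiableOn.const_smul (DifferentiableOn.sub ?_ ?_) _
    · exact hF.comp (by fun_prop) fun τ hτ => hin τ hτ σ h1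
    · exact hF.comp (by fun_prop) fun τ hτ => by
        simpa using hin τ hτ 0 (by simpa using hr0)
  have := hunif.tendstoLocallyUniformlyOn.differentiableOn hdiff hWo
  exact (this.differentiableAt (hWo.mem_nhds hW0)).differentiableWithinAt

/-- the Jacobian determinant -/
noncomputable def jac (F : Cn 3 → Cn 3) (x : Cn 3) : ℂ :=
  (Matrix.of fun i j => fderiv ℂ F x (Pi.single j 1) i).det

theorem jac_eq (F : Cn 3 → Cn 3) (x : Cn 3) :
    jac F x = LinearMap.det (fderiv ℂ F x : Cn 3 →ₗ[ℂ] Cn 3) := by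
  rw [← LinearMap.det_toMatrix' (fderiv ℂ F x : Cn 3 →ₗ[ℂ] Cn 3)]
  unfold jac
  congr 1

theorem det_bound (u v w : Cn 3) :
    ‖u 0 * v 1 * w 2 - u 0 * w 1 * v 2 - v 0 * u 1 * w 2 + v 0 * w 1 * u 2 + w 0 * u 1 * v 2 -
      w 0 * v 1 * u 2‖ ≤ 6 * (‖u‖ * ‖v‖ * ‖w‖) := by
  have h : ∀ i j k, ‖u i * v j * w k‖ ≤ ‖u‖ * ‖v‖ * ‖w‖ := by
    intro i j k
    rw [norm_mul, norm_mul]
    gcongr <;> exact norm_le_pi_norm _ _
  have e : u 0 * v 1 * w 2 - u 0 * w 1 * v 2 - v 0 * u 1 * w 2 + v 0 * w 1 * u 2 + w 0 * u 1 * v 2 -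
      w 0 * v 1 * u 2 = u 0 * v 1 * w 2 - u 0 * v 2 * w 1 - u 1 * v 0 * w 2 + u 2 * v 0 * w 1 +
      u 1 * v 2 * w 0 - u 2 * v 1 * w 0 := by ring
  rw [e]
  have h1 := norm_sub_le (u 0 * v 1 * w 2 - u 0 * v 2 * w 1 - u 1 * v 0 * w 2 + u 2 * v 0 * w 1 +
      u 1 * v 2 * w 0) (u 2 * v 1 * w 0)
  have h2 := norm_add_le (u 0 * v 1 * w 2 - u 0 * v 2 * w 1 - u 1 * v 0 * w 2 + u 2 * v 0 * w 1)
      (u 1 * v 2 * w 0)
  have h3 := norm_add_le (u 0 * v 1 * w 2 - u 0 * v 2 * w 1 - u 1 * v 0 * w 2) (u 2 * v 0 * w 1)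
  have h4 := norm_sub_le (u 0 * v 1 * w 2 - u 0 * v 2 * w 1) (u 1 * v 0 * w 2)
  have h5 := norm_sub_le (u 0 * v 1 * w 2) (u 0 * v 2 * w 1)
  linarith [h 0 1 2, h 0 2 1, h 1 0 2, h 2 0 1, h 1 2 0, h 2 1 0]

end Harn

theorem harnack {f : ℂ → ℂ} {c a : ℂ} {R M : ℝ} (hf : DifferentiableOn ℂ f (Metric.ball c R))
    (h0 : ∀ z ∈ Metric.ball c R, f z ≠ 0) (hM : ∀ z ∈ Metric.ball c R, Real.log ‖f z‖ ≤ M)
    (ha : a ∈ Metric.ball c R) :
    (1 - ‖a - c‖ ^ 2 / R ^ 2) * (M - Real.log ‖f a‖) ≤ 4 * (M - Real.log ‖f c‖) ∧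
      (1 - ‖a - c‖ ^ 2 / R ^ 2) * (M - Real.log ‖f c‖) ≤ 4 * (M - Real.log ‖f a‖) := by
  have hR : 0 < R := Metric.nonempty_ball.mp ⟨_, ha⟩
  have hc : c ∈ Metric.ball c R := Metric.mem_ball_self hR
  have hh : InnerProductSpace.HarmonicOnNhd (fun z => Real.log ‖f z‖) (Metric.ball c R) :=
    fun z hz => (hf.analyticOnNhd Metric.isOpen_ball z hz).harmonicAt_log_norm (h0 z hz)
  obtain ⟨h, h1, h2⟩ := hh.exists_analyticOnNhd_ball_re_eq
  have hκ : 0 ≤ 1 - ‖a - c‖ ^ 2 / R ^ 2 := by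
    rw [Metric.mem_ball, dist_eq_norm] at ha
    rw [sub_nonneg, div_le_one (by positivity)]
    exact pow_le_pow_left₀ (norm_nonneg _) ha.le 2
  have key : ∀ ε : ℝ, 0 < ε →
      (1 - ‖a - c‖ ^ 2 / R ^ 2) * (M + ε - Real.log ‖f a‖) ≤ 4 * (M + ε - Real.log ‖f c‖) ∧
      (1 - ‖a - c‖ ^ 2 / R ^ 2) * (M + ε - Real.log ‖f c‖) ≤ 4 * (M + ε - Real.log ‖f a‖) := by
    intro ε hε
    have hre : ∀ z ∈ Metric.ball c R, (((M + ε : ℝ) : ℂ) - h z).re = M + ε - Real.log ‖f z‖ := by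
      intro z hz
      have := h2 hz
      simp only at this
      rw [sub_re, ofReal_re, this]
    have hp : ∀ z ∈ Metric.ball c R, 0 < (((M + ε : ℝ) : ℂ) - h z).re := by
      intro z hz
      rw [hre z hz]
      linarith [hM z hz]
    have := Harn.pos_harnack (k := fun z => ((M + ε : ℝ) : ℂ) - h z)
      (h1.differentiableOn.const_sub _) hp ha
    have pa := hp a ha
    have pc := hp c hc
    simp only [hre a ha, hre c hc] at this pa pc
    refine ⟨Harn.aux_ineq hκ pa pc this, Harn.aux_ineq hκ pc pa ?_⟩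
    rw [add_comm (M + ε - Real.log ‖f c‖)]
    linarith
  constructor
  · refine le_of_forall_pos_le_add fun ε hε => ?_
    have := (key (ε / 4) (by positivity)).1
    have h3 : 0 ≤ (1 - ‖a - c‖ ^ 2 / R ^ 2) * (ε / 4) := by positivity
    nlinarith
  · refine le_of_forall_pos_le_add fun ε hε => ?_
    have := (key (ε / 4) (by positivity)).2
    have h3 : 0 ≤ (1 - ‖a - c‖ ^ 2 / R ^ 2) * (ε / 4) := by positivity
    nlinarith

theorem exists_jac {U : Set (Cn 3)} (hU : IsOpen U) (h : BiholBounded U) : ∃ J C, Jac U J C := by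
  obtain ⟨D, F, G, hD, -, hb, hF, hG, hFD, -, hGF, -⟩ := h
  obtain ⟨B, hB0, hB⟩ := hb.exists_pos_norm_le
  have hFB : ∀ x ∈ U, ‖F x‖ ≤ B := fun x hx => hB _ (hFD hx)
  refine ⟨Harn.jac F, 6 * (2 * B) ^ 3, by positivity, fun x hx => ?_, fun p a => ?_, ?_⟩
  · have h1 := (hF.differentiableAt (hU.mem_nhds hx)).hasFDerivAt
    have h2 := (hG.differentiableAt (hD.mem_nhds (hFD hx))).hasFDerivAt
    have h3 := h2.comp x h1
    have h4 : HasFDerivAt (G ∘ F) (ContinuousLinearMap.id ℂ (Cn 3)) x := by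
      refine (hasFDerivAt_id x).congr_of_eventuallyEq ?_
      filter_upwards [hU.mem_nhds hx] with y hy using hGF y hy
    have h5 := h3.unique h4
    have h6 : (fderiv ℂ G (F x) : Cn 3 →ₗ[ℂ] Cn 3) ∘ₗ (fderiv ℂ F x : Cn 3 →ₗ[ℂ] Cn 3) =
        LinearMap.id := by
      have := congrArg (fun L : Cn 3 →L[ℂ] Cn 3 => (L : Cn 3 →ₗ[ℂ] Cn 3)) h5
      simpa using this
    have h7 := congrArg LinearMap.det h6
    rw [LinearMap.det_comp, LinearMap.det_id] at h7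
    rw [Harn.jac_eq]
    exact right_ne_zero_of_mul_eq_one h7
  · have hl : ∀ i j : Fin 3, DifferentiableOn ℂ
        (fun τ : ℂ => fderiv ℂ F (p + τ • a) (Pi.single j 1) i) {τ | p + τ • a ∈ U} :=
      fun i j => differentiableOn_pi.mp (Harn.line_diff hU hF hFB p a (Pi.single j 1)) i
    simp only [Harn.jac, Matrix.det_fin_three, Matrix.of_apply]
    refine DifferentiableOn.sub (DifferentiableOn.add (DifferentiableOn.add
      (DifferentiableOn.sub (DifferentiableOn.sub ?_ ?_) ?_) ?_) ?_) ?_ <;>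
      exact ((hl _ _).mul (hl _ _)).mul (hl _ _)
  · intro x β r₀ r₁ r₂ h₀ h₁ h₂ k₀ k₁ k₂
    have b₀ := Harn.fderiv_bound hU hF hFB h₀ k₀
    have b₁ := Harn.fderiv_bound hU hF hFB h₁ k₁
    have b₂ := Harn.fderiv_bound hU hF hFB h₂ k₂
    have e₁ : (Pi.single 1 1 : Cn 3) = ![0, 1, 0] := by
      ext i; fin_cases i <;> simp
    have e₂ : (Pi.single 2 1 : Cn 3) = ![0, 0, 1] := by
      ext i; fin_cases i <;> simp
    have e₀ : (Pi.single 0 1 : Cn 3) = ![1, β, 0] - β • ![0, 1, 0] := by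
      ext i; fin_cases i <;> simp
    have hd := Harn.det_bound (fderiv ℂ F x ![1, β, 0]) (fderiv ℂ F x ![0, 1, 0])
      (fderiv ℂ F x ![0, 0, 1])
    have e : Harn.jac F x =
        fderiv ℂ F x ![1, β, 0] 0 * fderiv ℂ F x ![0, 1, 0] 1 * fderiv ℂ F x ![0, 0, 1] 2 -
        fderiv ℂ F x ![1, β, 0] 0 * fderiv ℂ F x ![0, 0, 1] 1 * fderiv ℂ F x ![0, 1, 0] 2 -
        fderiv ℂ F x ![0, 1, 0] 0 * fderiv ℂ F x ![1, β, 0] 1 * fderiv ℂ F x ![0, 0, 1] 2 +
        fderiv ℂ F x ![0, 1, 0] 0 * fderiv ℂ F x ![0, 0, 1] 1 * fderiv ℂ F x ![1, β, 0] 2 +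
        fderiv ℂ F x ![0, 0, 1] 0 * fderiv ℂ F x ![1, β, 0] 1 * fderiv ℂ F x ![0, 1, 0] 2 -
        fderiv ℂ F x ![0, 0, 1] 0 * fderiv ℂ F x ![0, 1, 0] 1 * fderiv ℂ F x ![1, β, 0] 2 := by
      simp only [Harn.jac, Matrix.det_fin_three, Matrix.of_apply, e₀, e₁, e₂, map_sub, map_smul,
        Pi.sub_apply, Pi.smul_apply, smul_eq_mul]
      ring
    rw [e]
    refine hd.trans ?_
    calc 6 * (‖fderiv ℂ F x ![1, β, 0]‖ * ‖fderiv ℂ F x ![0, 1, 0]‖ * ‖fderiv ℂ F x ![0, 0, 1]‖)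
        ≤ 6 * (2 * B / r₀ * (2 * B / r₁) * (2 * B / r₂)) := by gcongr
      _ = _ := by field_simp

end Vale.Agent.P250
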