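import Vale.Agent.P250.Base

/-! The Levi-Civita connection in coordinates and the curvature formula. -/

namespace Vale.Agent.P250

open scoped ContDiff ComplexConjugate Topology
open Complex

set_option maxSynthPendingDepth 3

namespace Riem

variable {n : ℕ} {U : Set (Cn n)} {g : Met n} {Γ : Chr n} {x : Cn n}

theorem inj (h : IsRiemOn U g) (hx : x ∈ U) : Function.Injective (g x) := by
  refine (injective_iff_map_eq_zero (g x)).2 fun a ha => ?_
  by_contra h0
  have h1 := h.pos x hx a h0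
  rw [ha] at h1
  exact lt_irrefl _ h1

theorem surj (h : IsRiemOn U g) (hx : x ∈ U) : Function.Surjective (g x) := by
  have h1 : Module.finrank ℝ (Cn n) = Module.finrank ℝ (Cn n →L[ℝ] ℝ) := by
    rw [← (LinearMap.toContinuousLinearMap (𝕜 := ℝ) (E := Cn n) (F' := ℝ)).finrank_eq]
    exact Subspace.dual_finrank_eq.symm
  exact (LinearMap.injective_iff_surjective_of_finrank_eq_finrank (f := (g x).toLinearMap) h1).1
    (inj h hx)

theorem isInv (h : IsRiemOn U g) (hx : x ∈ U) : (g x).IsInvertible :=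
  ⟨(LinearEquiv.ofBijective (g x).toLinearMap ⟨inj h hx, surj h hx⟩).toContinuousLinearEquiv,
    by ext; rfl⟩

theorem cda (hU : IsOpen U) (h : IsRiemOn U g) (hx : x ∈ U) : ContDiffAt ℝ ∞ g x :=
  h.smooth.contDiffAt (hU.mem_nhds hx)

theorem hasD (hU : IsOpen U) (h : IsRiemOn U g) (hx : x ∈ U) :
    HasFDerivAt g (fderiv ℝ g x) x := ((cda hU h hx).differentiableAt (by simp)).hasFDerivAt

theorem cda' (hU : IsOpen U) (h : IsRiemOn U g) (hx : x ∈ U) : ContDiffAt ℝ ∞ (fderiv ℝ g) x :=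
  (cda hU h hx).fderiv_right (m := ∞) (by simp)

theorem dg_eq (hU : IsOpen U) (h : IsRiemOn U g) (hx : x ∈ U) (c a b : Cn n) :
    dg g x c a b = fderiv ℝ g x c a b := by
  have h1 := ((hasD hU h hx).clm_apply (hasFDerivAt_const a x)).clm_apply (hasFDerivAt_const b x)
  rw [dg, h1.fderiv]
  simp

theorem dg_ev (hU : IsOpen U) (h : IsRiemOn U g) (hx : x ∈ U) (c a b : Cn n) :
    (fun y => dg g y c a b) =ᶠ[𝓝 x] fun y => fderiv ℝ g y c a b := by
  filter_upwards [hU.mem_nhds hx] with y hy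
  exact dg_eq hU h hy c a b

theorem dg_cda (hU : IsOpen U) (h : IsRiemOn U g) (hx : x ∈ U) (c a b : Cn n) :
    ContDiffAt ℝ ∞ (fun y => dg g y c a b) x :=
  ((((cda' hU h hx).clm_apply contDiffAt_const).clm_apply contDiffAt_const).clm_apply
    contDiffAt_const).congr_of_eventuallyEq (dg_ev hU h hx c a b)

theorem d2g_eq (hU : IsOpen U) (h : IsRiemOn U g) (hx : x ∈ U) (c d a b : Cn n) :
    d2g g x c d a b = fderiv ℝ (fderiv ℝ g) x c d a b := by
  have h1 := (((((cda' hU h hx).differentiableAt (by simp)).hasFDerivAt.clm_apply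
    (hasFDerivAt_const d x)).clm_apply (hasFDerivAt_const a x)).clm_apply
    (hasFDerivAt_const b x))
  rw [d2g, (dg_ev hU h hx d a b).fderiv_eq, h1.fderiv]
  simp

theorem dg_symm (hU : IsOpen U) (h : IsRiemOn U g) (hx : x ∈ U) (c a b : Cn n) :
    dg g x c a b = dg g x c b a := by
  have h1 : (fun y => g y a b) =ᶠ[𝓝 x] fun y => g y b a := by
    filter_upwards [hU.mem_nhds hx] with y hy
    exact h.symm y hy a b
  rw [dg, dg, h1.fderiv_eq]

theorem d2g_symm (hU : IsOpen U) (h : IsRiemOn U g) (hx : x ∈ U) (c d a b : Cn n) :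
    d2g g x c d a b = d2g g x c d b a := by
  have h1 : (fun y => dg g y d a b) =ᶠ[𝓝 x] fun y => dg g y d b a := by
    filter_upwards [hU.mem_nhds hx] with y hy
    exact dg_symm hU h hy d a b
  rw [d2g, d2g, h1.fderiv_eq]

theorem d2g_swap (hU : IsOpen U) (h : IsRiemOn U g) (hx : x ∈ U) (c d a b : Cn n) :
    d2g g x c d a b = d2g g x d c a b := by
  have h1 : IsSymmSndFDerivAt ℝ g x := (cda hU h hx).isSymmSndFDerivAt (by
    rw [minSmoothness_of_isRCLikeNormedField]
    exact ENat.LEInfty.out)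
  rw [d2g_eq hU h hx, d2g_eq hU h hx, h1 c d]

theorem chr_symm (hU : IsOpen U) (h : IsRiemOn U g)
    (hL : IsLeviCivitaOn U g fun x a b => Γ x a b) (hx : x ∈ U) (a b : Cn n) :
    Γ x a b = Γ x b a := by
  refine inj h hx (ContinuousLinearMap.ext fun c => ?_)
  have h1 := hL x hx a b c
  have h2 := hL x hx b a c
  have h3 := dg_symm hU h hx c a b
  linarith

theorem compat (hU : IsOpen U) (h : IsRiemOn U g)
    (hL : IsLeviCivitaOn U g fun x a b => Γ x a b) (hx : x ∈ U) (d w c : Cn n) :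
    dg g x d w c = g x (Γ x d w) c + g x (Γ x d c) w := by
  have h1 := hL x hx d w c
  have h2 := hL x hx d c w
  have h3 := dg_symm hU h hx d w c
  linarith

theorem dchr (hU : IsOpen U) (h : IsRiemOn U g) (hΓ : ContDiffOn ℝ ∞ Γ U)
    (hL : IsLeviCivitaOn U g fun x a b => Γ x a b) (hx : x ∈ U) (d a b c : Cn n) :
    2 * (dg g x d (Γ x a b) c + g x (fderiv ℝ (fun y => Γ y a b) x d) c) =
      d2g g x d a b c + d2g g x d b a c - d2g g x d c a b := by
  have h1 : DifferentiableAt ℝ (fun y => Γ y a b) x :=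
    (((hΓ.contDiffAt (hU.mem_nhds hx)).clm_apply contDiffAt_const).clm_apply
      contDiffAt_const).differentiableAt (by simp)
  have h2 := (((hasD hU h hx).clm_apply h1.hasFDerivAt).clm_apply
    (hasFDerivAt_const c x)).const_mul (2 : ℝ)
  have h3 : ∀ c a b, HasFDerivAt (fun y => dg g y c a b) (fderiv ℝ (fun y => dg g y c a b) x) x :=
    fun c a b => ((dg_cda hU h hx c a b).differentiableAt (by simp)).hasFDerivAt
  have h4 := ((h3 a b c).add (h3 b a c)).sub (h3 c a b)
  have h5 : (fun y => 2 * g y (Γ y a b) c) =ᶠ[𝓝 x]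
      ((fun y => dg g y a b c) + fun y => dg g y b a c) - fun y => dg g y c a b := by
    filter_upwards [hU.mem_nhds hx] with y hy
    exact hL y hy a b c
  have h6 := congrArg (fun L : Cn n →L[ℝ] ℝ => L d) (h2.unique (h4.congr_of_eventuallyEq h5))
  rw [dg_eq hU h hx]
  simp only [d2g]
  simp at h6
  linarith

/-- The Koszul combination of a trilinear form. -/
noncomputable def kos (T : Cn n →L[ℝ] Cn n →L[ℝ] Cn n →L[ℝ] ℝ) :
    Cn n →L[ℝ] Cn n →L[ℝ] Cn n →L[ℝ] ℝ :=
  (1 / 2 : ℝ) • (T + T.flip -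
    (ContinuousLinearMap.flipₗᵢ ℝ (Cn n) (Cn n) ℝ).toLinearIsometry.toContinuousLinearMap.comp
      T.flip)

theorem kos_apply (T : Cn n →L[ℝ] Cn n →L[ℝ] Cn n →L[ℝ] ℝ) (a b c : Cn n) :
    kos T a b c = 1 / 2 * (T a b c + T b a c - T c a b) := rfl

end Riem

open Riem

theorem exists_solve {n : ℕ} {U : Set (Cn n)} {g : Met n} (h : IsRiemOn U g) {x : Cn n}
    (hx : x ∈ U) (l : Cn n →ₗ[ℝ] ℝ) : ∃ y, ∀ c, g x y c = l c := by
  obtain ⟨y, hy⟩ := surj h hx (LinearMap.toContinuousLinearMap l)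
  exact ⟨y, fun c => by rw [hy]; rfl⟩

theorem exists_lc {n : ℕ} {U : Set (Cn n)} {g : Met n} (hU : IsOpen U) (h : IsRiemOn U g) :
    ∃ Γ : Chr n, ContDiffOn ℝ ∞ Γ U ∧ IsLeviCivitaOn U g fun x a b => Γ x a b := by
  refine ⟨fun x => (ContinuousLinearMap.compL ℝ (Cn n) (Cn n →L[ℝ] ℝ) (Cn n)
    (g x).inverse).comp (kos (fderiv ℝ g x)), ?_, fun x hx a b c => ?_⟩
  · refine contDiffOn_clm_apply.2 fun a => contDiffOn_clm_apply.2 fun b => ?_
    have h1 : ContDiffOn ℝ ∞ (fun x => (g x).inverse) U := fun x hx =>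
      ((isInv h hx).contDiffAt_map_inverse.comp x (cda hU h hx)).contDiffWithinAt
    have h2 : ∀ a b c, ContDiffOn ℝ ∞ (fun x => fderiv ℝ g x a b c) U := fun a b c x hx =>
      ((((cda' hU h hx).clm_apply contDiffAt_const).clm_apply contDiffAt_const).clm_apply
        contDiffAt_const).contDiffWithinAt
    have h3 : ContDiffOn ℝ ∞ (fun x => kos (fderiv ℝ g x) a b) U :=
      contDiffOn_clm_apply.2 fun c =>
        contDiffOn_const.mul (((h2 a b c).add (h2 b a c)).sub (h2 c a b))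
    exact h1.clm_apply h3
  · change 2 * g x ((g x).inverse (kos (fderiv ℝ g x) a b)) c = _
    rw [(isInv h hx).self_apply_inverse, kos_apply, dg_eq hU h hx, dg_eq hU h hx, dg_eq hU h hx]
    ring

theorem riem_formula {n : ℕ} {U : Set (Cn n)} {g : Met n} {Γ : Chr n} (hU : IsOpen U)
    (h : IsRiemOn U g) (hΓ : ContDiffOn ℝ ∞ Γ U) (hL : IsLeviCivitaOn U g fun x a b => Γ x a b)
    {x : Cn n} (hx : x ∈ U) (u v : Cn n) :
    g x (riem (fun x a b => Γ x a b) x u v v) u =
      d2g g x u v u v - d2g g x u u v v / 2 - d2g g x v v u u / 2 +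
        g x (Γ x u v) (Γ x u v) - g x (Γ x u u) (Γ x v v) := by
  have h1 := dchr hU h hΓ hL hx u v v u
  have h2 := dchr hU h hΓ hL hx v u v u
  rw [compat hU h hL hx] at h1 h2
  rw [chr_symm hU h hL hx v u] at h2
  have h3 := d2g_symm hU h hx u v v u
  have h4 := d2g_symm hU h hx v u v u
  simp only [riem, map_add, map_sub, add_apply, sub_apply]
  linarith

theorem sec_shear {n : ℕ} {U : Set (Cn n)} {g : Met n} {Γ : Chr n} (hU : IsOpen U)
    (h : IsRiemOn U g) (hΓ : ContDiffOn ℝ ∞ Γ U) (hL : IsLeviCivitaOn U g fun x a b => Γ x a b)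
    {x : Cn n} (hx : x ∈ U) (u v : Cn n) (c : ℝ) :
    sec g (fun x a b => Γ x a b) x u (v + c • u) = sec g (fun x a b => Γ x a b) x u v := by
  have h1 := d2g_symm hU h hx u u v u
  have h2 := d2g_swap hU h hx v u u u
  have h3 := chr_symm hU h hL hx v u
  have h4 := h.symm x hx v u
  have h5 := h.symm x hx (Γ x u v) (Γ x u u)
  rw [sec, sec, riem_formula hU h hΓ hL hx, riem_formula hU h hΓ hL hx]
  simp only [d2g_eq hU h hx] at h1 h2 ⊢
  simp only [map_add, map_smul, add_apply, smul_apply,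
    smul_eq_mul, h1, h2, h3, h4, h5]
  congr 1 <;> ring

end Vale.Agent.P250
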