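import Vale.Agent.P250.Wirt
import Vale.Agent.P250.Riem

/-! The Kaehler metric of a potential and its curvature. -/

namespace Vale.Agent.P250

open scoped ContDiff ComplexConjugate
open Complex Filter Topology

noncomputable section

variable {n : ℕ}

/-- multiplication by `i` -/
def Jm (n : ℕ) : Cn n →L[ℝ] Cn n := (I • ContinuousLinearMap.id ℂ (Cn n)).restrictScalars ℝ

theorem Jm_apply (a : Cn n) : Jm n a = I • a := rfl

/-- the metric of the potential `Φ` -/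
def met (Φ : Cn n → ℝ) : Met n := fun x =>
  (1 / 4 : ℝ) • (fderiv ℝ (fderiv ℝ Φ) x + (fderiv ℝ (fderiv ℝ Φ) x).bilinearComp (Jm n) (Jm n))

theorem met_apply (Φ : Cn n → ℝ) (x a b : Cn n) : met Φ x a b =
    (fderiv ℝ (fderiv ℝ Φ) x a b + fderiv ℝ (fderiv ℝ Φ) x (I • a) (I • b)) / 4 := by
  simp only [met, _root_.smul_apply, _root_.add_apply, ContinuousLinearMap.bilinearComp_apply,
    Jm_apply, smul_eq_mul]
  ring

variable {U : Set (Cn n)} {Φ : Cn n → ℝ}

theorem met_smooth (hU : IsOpen U) (hΦ : ContDiffOn ℝ ∞ Φ U) : ContDiffOn ℝ ∞ (met Φ) U := by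
  have h2 : ContDiffOn ℝ ∞ (fderiv ℝ (fderiv ℝ Φ)) U :=
    (hΦ.fderiv_of_isOpen hU (m := ∞) (by simp)).fderiv_of_isOpen hU (m := ∞) (by simp)
  refine contDiffOn_clm_apply.2 fun a => contDiffOn_clm_apply.2 fun b => ?_
  simp only [met_apply]
  exact (((h2.clm_apply contDiffOn_const).clm_apply contDiffOn_const).add
    ((h2.clm_apply contDiffOn_const).clm_apply contDiffOn_const)).div_const 4

theorem sm_met (hU : IsOpen U) (hΦ : ContDiffOn ℝ ∞ Φ U) {x : Cn n} (hx : x ∈ U) (a b : Cn n) :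
    Sm x fun y => (met Φ y a b : ℂ) :=
  Sm.of_on hU hx (((met_smooth hU hΦ).clm_apply contDiffOn_const).clm_apply contDiffOn_const)

theorem gm_met (hU : IsOpen U) (hΦ : ContDiffOn ℝ ∞ Φ U) {x : Cn n} (hx : x ∈ U) (a b : Cn n) :
    gm _ (sm_met hU hΦ hx a b) =
      cst (1 / 2) * (dz a (db b (gm _ (Sm.of_on hU hx hΦ))) +
        dz b (db a (gm _ (Sm.of_on hU hx hΦ)))) := by
  have hh := Sm.of_on hU hx hΦ
  have key : ∀ a b : Cn n, D a (D b (gm _ hh)) = gm _ ((hh.rfder b).rfder a) := fun a b => by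
    rw [D_real b _ hh (hh.rfder b), D_real a _ (hh.rfder b)]
  have h1 : gm _ (sm_met hU hΦ hx a b) =
      cst (1 / 4) * (D a (D b (gm _ hh)) + D (I • a) (D (I • b) (gm _ hh))) := by
    rw [key, key, gm_add, cst_eq, gm_mul]
    refine gm_eq ?_
    filter_upwards [hU.mem_nhds hx] with y hy
    have h2 : DifferentiableAt ℝ (fderiv ℝ Φ) y :=
      ((hΦ.fderiv_of_isOpen hU (m := ∞) (by simp)).contDiffAt (hU.mem_nhds hy)).differentiableAt
        (by simp)
    rw [met_apply, fderiv_clm_apply h2 (differentiableAt_const _),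
      fderiv_clm_apply h2 (differentiableAt_const _)]
    simp
    ring
  have h4 : (cst (1 / 4) : SG x) = cst (1 / 2) * cst (1 / 2) := by
    rw [← map_mul]; norm_num
  rw [h1, h4]
  simp only [D_eq, dz_smul_left, db_smul_left, map_add, dz_mul, db_mul, dz_cst, db_cst, db_dz,
    conj_I, map_neg, zero_mul, zero_add, neg_mul, mul_neg]
  linear_combination (cst (1 / 2) * cst (1 / 2) * (dz a (dz b (gm _ hh)) + db a (db b (gm _ hh)) -
      dz a (db b (gm _ hh)) - dz b (db a (gm _ hh)))) * cI_sq (x := x) +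
    (cst (1 / 2) * (dz a (db b (gm _ hh)) + dz b (db a (gm _ hh)))) * half_two (x := x)

theorem met_eq (hU : IsOpen U) (hΦ : ContDiffOn ℝ ∞ Φ U) {x : Cn n} (hx : x ∈ U) (a b : Cn n) :
    met Φ x a b = (j2 Φ x a b).re := by
  have hh := Sm.of_on hU hx hΦ
  have h1 := congrArg ev (gm_met hU hΦ hx a b)
  rw [ev_gm, map_mul, map_add, ev_cst, ← j2_eq hh, ← j2_eq hh, (j2_herm hh).symm a b,
    add_conj] at h1
  push_cast at h1
  have h2 : ((met Φ x a b : ℝ) : ℂ) = ((j2 Φ x a b).re : ℂ) := by rw [h1]; ring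
  exact_mod_cast h2

theorem dg_met (hU : IsOpen U) (hΦ : ContDiffOn ℝ ∞ Φ U) {x : Cn n} (hx : x ∈ U)
    (c a b : Cn n) : (dg (met Φ) x c a b : ℂ) = ev (D c (gm _ (sm_met hU hΦ hx a b))) := by
  rw [D_real c _ _ ((sm_met hU hΦ hx a b).rfder c)]; rfl

theorem d2g_met (hU : IsOpen U) (hΦ : ContDiffOn ℝ ∞ Φ U) {x : Cn n} (hx : x ∈ U)
    (c d a b : Cn n) :
    (d2g (met Φ) x c d a b : ℂ) = ev (D c (D d (gm _ (sm_met hU hΦ hx a b)))) := by
  rw [D_real d _ _ ((sm_met hU hΦ hx a b).rfder d),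
    D_real c _ _ (((sm_met hU hΦ hx a b).rfder d).rfder c)]; rfl

theorem isKahler_met (hU : IsOpen U) (hΦ : ContDiffOn ℝ ∞ Φ U)
    (hpos : ∀ x ∈ U, ∀ a, a ≠ 0 → 0 < (j2 Φ x a a).re) : IsKahlerOn U (met Φ) where
  smooth := met_smooth hU hΦ
  symm x hx a b := by
    rw [met_eq hU hΦ hx, met_eq hU hΦ hx, (j2_herm (Sm.of_on hU hx hΦ)).symm a b, conj_re]
  pos x hx a ha := by rw [met_eq hU hΦ hx]; exact hpos x hx a ha
  herm x hx a b := by
    have h := j2_herm (Sm.of_on hU hx hΦ)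
    rw [met_eq hU hΦ hx, met_eq hU hΦ hx, h.smul, h.symm (I • b) a, h.smul, h.symm a b]
    simp
  closed x hx a b c := by
    have h : ((dg (met Φ) x a (I • b) c + dg (met Φ) x b (I • c) a +
        dg (met Φ) x c (I • a) b : ℝ) : ℂ) = 0 := by
      push_cast
      simp only [dg_met hU hΦ hx, gm_met hU hΦ hx, D_eq, dz_smul_left, db_smul_left, map_add,
        dz_mul, db_mul, dz_cst, db_cst, db_dz, conj_I, map_neg, zero_mul, zero_add, neg_mul,
        mul_neg, map_mul, ev_cst, dz_comm b a, dz_comm c a, dz_comm c b, db_comm b a,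
        db_comm c a, db_comm c b]
      ring
    exact_mod_cast h

theorem lc_eq (hU : IsOpen U) (hΦ : ContDiffOn ℝ ∞ Φ U) {Γ : Cn n → Cn n → Cn n → Cn n}
    (hL : IsLeviCivitaOn U (met Φ) Γ) {x : Cn n} (hx : x ∈ U) (a b c : Cn n) :
    j2 Φ x (Γ x a b) c = j3 Φ x a b c := by
  have hh := Sm.of_on hU hx hΦ
  have key : ∀ c, (j2 Φ x (Γ x a b) c).re = (j3 Φ x a b c).re := fun c => by
    have h1 := hL x hx a b c
    rw [met_eq hU hΦ hx] at h1
    have h2 : ((dg (met Φ) x a b c + dg (met Φ) x b a c - dg (met Φ) x c a b : ℝ) : ℂ) =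
        j3 Φ x a b c + conj (j3 Φ x a b c) := by
      push_cast
      simp only [j3_eq hh, ← ev_cj, cj_dz, cj_db, cj_real, dg_met hU hΦ hx, gm_met hU hΦ hx, D_eq,
        map_add, dz_mul, db_mul, dz_cst, db_cst, db_dz, zero_mul, zero_add, map_mul, ev_cst,
        dz_comm b a, dz_comm c a, dz_comm c b, db_comm b a, db_comm c a, db_comm c b]
      ring
    rw [add_conj, ← h1] at h2
    have h3 : 2 * (j2 Φ x (Γ x a b) c).re = 2 * (j3 Φ x a b c).re := by exact_mod_cast h2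
    linarith
  have h1 := key (I • c)
  rw [(j2_herm hh).symm, (j2_herm hh).smul, (j2_herm hh).symm (Γ x a b) c, j3_smul' hh] at h1
  apply Complex.ext (key c)
  simpa using h1

theorem curv_eq (hU : IsOpen U) (hΦ : ContDiffOn ℝ ∞ Φ U) (hR : IsRiemOn U (met Φ)) {Γ : Chr n}
    (hΓ : ContDiffOn ℝ ∞ Γ U) (hL : IsLeviCivitaOn U (met Φ) fun x a b => Γ x a b)
    {x : Cn n} (hx : x ∈ U) (u v : Cn n) :
    met Φ x (riem (fun x a b => Γ x a b) x u v v) u =
      -((j4 Φ x u v u v - j2 Φ x (Γ x u v) (Γ x u v)).re -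
        (j4 Φ x u u v v - j2 Φ x (Γ x u u) (Γ x v v)).re) := by
  have hh := Sm.of_on hU hx hΦ
  rw [riem_formula hU hR hΓ hL hx, met_eq hU hΦ hx, met_eq hU hΦ hx]
  have h2 : ((4 * d2g (met Φ) x u v u v - 2 * d2g (met Φ) x u u v v -
      2 * d2g (met Φ) x v v u u : ℝ) : ℂ) =
      2 * (j4 Φ x u u v v + conj (j4 Φ x u u v v)) -
        2 * (j4 Φ x u v u v + conj (j4 Φ x u v u v)) := by
    push_cast
    simp only [j4_eq hh, ← ev_cj, cj_dz, cj_db, cj_real, d2g_met hU hΦ hx, gm_met hU hΦ hx, D_eq,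
      map_add, dz_mul, db_mul, dz_cst, db_cst, db_dz, zero_mul, zero_add, map_mul, ev_cst,
      dz_comm v u, db_comm v u]
    ring
  rw [add_conj, add_conj] at h2
  have h3 : 4 * d2g (met Φ) x u v u v - 2 * d2g (met Φ) x u u v v -
      2 * d2g (met Φ) x v v u u =
      2 * (2 * (j4 Φ x u u v v).re) - 2 * (2 * (j4 Φ x u v u v).re) := by exact_mod_cast h2
  simp only [sub_re]
  linarith

end

end Vale.Agent.P250
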