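import Vale.Agent.P250.Base

/-! Lattice bookkeeping for the weight. -/

namespace Vale.Agent.P250

open scoped ContDiff ComplexConjugate
open Complex

section
variable {G : ℂ → ℝ} {D K T : ℝ}

theorem ell_im (T : ℝ) (k : ℕ) (m : ℤ × ℤ) (x : Cn 3) :
    (ell T k m x).im = T ^ (2 * k) * rho x + ‖(T : ℂ) ^ k * x 0 - lat m‖ ^ 2 := by
  have h1 : (T : ℂ) ^ (2 * k) = ((T ^ k * T ^ k : ℝ) : ℂ) := by
    push_cast; rw [two_mul, pow_add]
  have h2 : (T : ℂ) ^ k = ((T ^ k : ℝ) : ℂ) := by push_cast; rfl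
  have h3 : T ^ (2 * k) = T ^ k * T ^ k := by rw [two_mul, pow_add]
  have h4 : ((‖lat m‖ : ℝ) : ℂ) ^ 2 = ((normSq (lat m) : ℝ) : ℂ) := by
    rw [← Complex.sq_norm]; push_cast; rfl
  unfold ell rho
  rw [h1, h2, h3, h4, Complex.sq_norm, Complex.sq_norm]
  generalize T ^ k = t
  simp only [normSq_apply, add_im, sub_im, mul_im, mul_re, ofReal_re, ofReal_im, I_re, I_im,
    conj_re, conj_im, sub_re, re_ofNat, im_ofNat]
  ring

namespace Lev

theorem lat_sep {m m' : ℤ × ℤ} (h : m ≠ m') : 6 ≤ ‖lat m - lat m'‖ := by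
  have h1 : ‖lat m - lat m'‖ ^ 2 = 36 * (((m.1 - m'.1) ^ 2 + (m.2 - m'.2) ^ 2 : ℤ) : ℝ) := by
    rw [Complex.sq_norm]
    simp only [lat, normSq_apply, sub_re, sub_im, mul_re, mul_im, add_re, add_im, intCast_re,
      intCast_im, I_re, I_im, re_ofNat, im_ofNat]
    push_cast
    ring
  have h2 : (1 : ℤ) ≤ (m.1 - m'.1) ^ 2 + (m.2 - m'.2) ^ 2 := by
    by_contra hc
    have h3 : m.1 - m'.1 = 0 := by nlinarith [sq_nonneg (m.1 - m'.1), sq_nonneg (m.2 - m'.2)]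
    have h4 : m.2 - m'.2 = 0 := by nlinarith [sq_nonneg (m.1 - m'.1), sq_nonneg (m.2 - m'.2)]
    exact h (Prod.ext (by omega) (by omega))
  have h3 : (1 : ℝ) ≤ (((m.1 - m'.1) ^ 2 + (m.2 - m'.2) ^ 2 : ℤ) : ℝ) := by exact_mod_cast h2
  exact le_of_sq_le_sq (by nlinarith) (norm_nonneg _)

theorem pow_rho_nonneg (T : ℝ) (k : ℕ) {x : Cn 3} (hx : 0 < rho x) : 0 ≤ T ^ (2 * k) * rho x :=
  mul_nonneg (by rw [pow_mul]; positivity) hx.le

theorem im_nonneg (T : ℝ) (k : ℕ) (m : ℤ × ℤ) {x : Cn 3} (hx : 0 < rho x) :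
    0 ≤ (ell T k m x).im := by
  rw [ell_im]
  exact add_nonneg (pow_rho_nonneg T k hx) (sq_nonneg _)

theorem norm_lt {k : ℕ} {m : ℤ × ℤ} {x : Cn 3} (hx : 0 < rho x) (h : (ell T k m x).im < 9) :
    ‖(T : ℂ) ^ k * x 0 - lat m‖ < 3 := by
  rw [ell_im] at h
  have := pow_rho_nonneg T k hx
  exact lt_of_pow_lt_pow_left₀ 2 (by norm_num) (by linarith)

theorem ell_sub (T : ℝ) (k : ℕ) (m : ℤ × ℤ) (x y : Cn 3) :
    ell T k m y - ell T k m x =
      (T : ℂ) ^ (2 * k) * (y 1 - x 1 - 2 * I * conj (x 0) * (y 0 - x 0)) +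
        2 * I * ((T : ℂ) ^ k * (y 0 - x 0)) * conj ((T : ℂ) ^ k * x 0 - lat m) := by
  simp only [ell, map_sub, map_mul, map_pow, conj_ofReal]
  ring

end Lev

theorem ell_unique {k : ℕ} {m m' : ℤ × ℤ} {x : Cn 3} (hx : 0 < rho x)
    (h : (ell T k m x).im < 9) (h' : (ell T k m' x).im < 9) : m = m' := by
  by_contra hne
  have h1 := Lev.lat_sep hne
  have h2 := Lev.norm_lt hx h
  have h3 := Lev.norm_lt hx h'
  have h4 : lat m - lat m' = ((T : ℂ) ^ k * x 0 - lat m') - ((T : ℂ) ^ k * x 0 - lat m) := by ring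
  have h5 := norm_sub_le ((T : ℂ) ^ k * x 0 - lat m') ((T : ℂ) ^ k * x 0 - lat m)
  rw [← h4] at h5
  linarith

theorem exists_lat (z : ℂ) : ∃ m, ‖z - lat m‖ ^ 2 ≤ 18 := by
  refine ⟨(round (z.re / 6), round (z.im / 6)), ?_⟩
  have h1 := abs_le.mp (abs_sub_round (z.re / 6))
  have h2 := abs_le.mp (abs_sub_round (z.im / 6))
  rw [Complex.sq_norm]
  simp only [lat, normSq_apply, sub_re, sub_im, mul_re, mul_im, add_re, add_im, intCast_re,
    intCast_im, I_re, I_im, re_ofNat, im_ofNat]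
  nlinarith [h1.1, h1.2, h2.1, h2.2]

theorem lev_eq_single (hG : Bump G D K) {k : ℕ} {m : ℤ × ℤ} {x : Cn 3}
    (h : ‖(T : ℂ) ^ k * x 0 - lat m‖ ≤ 3) (hx : 0 < rho x) :
    lev G T k x = G (ell T k m x) := by
  refine finsum_eq_single _ m fun m' hne => (hG.zero _ ?_).1
  have h1 := Lev.lat_sep hne
  have h4 : lat m' - lat m = ((T : ℂ) ^ k * x 0 - lat m) - ((T : ℂ) ^ k * x 0 - lat m') := by ring
  have h5 := norm_sub_le ((T : ℂ) ^ k * x 0 - lat m) ((T : ℂ) ^ k * x 0 - lat m')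
  rw [← h4] at h5
  have h6 : 3 ≤ ‖(T : ℂ) ^ k * x 0 - lat m'‖ := by linarith
  have h7 := Lev.pow_rho_nonneg T k hx
  rw [ell_im]
  nlinarith

theorem lev_eq_zero (hG : Bump G D K) {k : ℕ} {x : Cn 3} (h : ∀ m, 9 ≤ (ell T k m x).im) :
    lev G T k x = 0 :=
  finsum_eq_zero_of_forall_eq_zero fun m => (hG.zero _ (h m)).1

theorem lev_le (hG : Bump G D K) (k : ℕ) {x : Cn 3} (hx : 0 < rho x) : lev G T k x ≤ 12 := by
  by_cases h : ∃ m, (ell T k m x).im < 9
  · obtain ⟨m, hm⟩ := h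
    rw [lev_eq_single hG (Lev.norm_lt hx hm).le hx]
    exact hG.le _ (Lev.im_nonneg T k m hx)
  · push Not at h
    rw [lev_eq_zero hG h]
    norm_num

theorem Lev.exists_single (hG : Bump G D K) (T : ℝ) (k : ℕ) {x : Cn 3} (hx : 0 < rho x) :
    ∃ m, lev G T k x = G (ell T k m x) ∧ ∀ m', m' ≠ m → G (ell T k m' x) = 0 := by
  by_cases h : ∃ m, (ell T k m x).im < 9
  · obtain ⟨m, hm⟩ := h
    refine ⟨m, lev_eq_single hG (Lev.norm_lt hx hm).le hx, fun m' hne => (hG.zero _ ?_).1⟩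
    by_contra hc
    exact hne (ell_unique hx (not_le.mp hc) hm)
  · push Not at h
    exact ⟨0, by rw [lev_eq_zero hG h, (hG.zero _ (h 0)).1], fun m' _ => (hG.zero _ (h m')).1⟩

theorem lev_lip (hG : Bump G D K) (hT : 0 < T) {k : ℕ} {x y : Cn 3} (hx : 0 < rho x)
    (hy : 0 < rho y) {ε : ℝ} (hε : ε ≤ 1) (h0 : T ^ k * ‖y 0 - x 0‖ ≤ ε)
    (h1 : T ^ (2 * k) * ‖y 1 - x 1 - 2 * I * conj (x 0) * (y 0 - x 0)‖ ≤ ε) :
    |lev G T k y - lev G T k x| ≤ 18 * K * ε := by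
  have hK := hG.K0
  have hε0 : 0 ≤ ε := le_trans (by positivity) h0
  have hn0 : ‖(T : ℂ) ^ k * (y 0 - x 0)‖ ≤ ε := by
    rw [norm_mul, norm_pow, norm_real, Real.norm_of_nonneg hT.le]; exact h0
  have hd : ∀ m, |G (ell T k m y) - G (ell T k m x)| ≤ 9 * K * ε := by
    intro m
    by_cases h4 : ‖(T : ℂ) ^ k * x 0 - lat m‖ ≤ 4
    · refine (hG.lip _ _ (Lev.im_nonneg T k m hy) (Lev.im_nonneg T k m hx)).trans ?_
      have h5 : ‖ell T k m y - ell T k m x‖ ≤ 9 * ε := by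
        rw [Lev.ell_sub]
        refine (norm_add_le _ _).trans ?_
        have a1 : ‖(T : ℂ) ^ (2 * k) * (y 1 - x 1 - 2 * I * conj (x 0) * (y 0 - x 0))‖ ≤ ε := by
          rw [norm_mul, norm_pow, norm_real, Real.norm_of_nonneg hT.le]; exact h1
        have a2 : ‖2 * I * ((T : ℂ) ^ k * (y 0 - x 0)) * conj ((T : ℂ) ^ k * x 0 - lat m)‖ ≤
            2 * ε * 4 := by
          rw [norm_mul, norm_mul, norm_mul, norm_I, norm_conj, Complex.norm_ofNat, mul_one]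
          gcongr
        linarith
      calc K * ‖ell T k m y - ell T k m x‖ ≤ K * (9 * ε) := by gcongr
        _ = _ := by ring
    · have h5 : 9 ≤ (ell T k m x).im := by
        by_contra hc
        linarith [Lev.norm_lt hx (not_le.mp hc)]
      have h6 : 9 ≤ (ell T k m y).im := by
        by_contra hc
        have h7 := Lev.norm_lt hy (not_le.mp hc)
        have h8 : (T : ℂ) ^ k * x 0 - lat m =
            ((T : ℂ) ^ k * y 0 - lat m) - (T : ℂ) ^ k * (y 0 - x 0) := by ring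
        have h9 := norm_sub_le ((T : ℂ) ^ k * y 0 - lat m) ((T : ℂ) ^ k * (y 0 - x 0))
        rw [← h8] at h9
        linarith
      rw [(hG.zero _ h5).1, (hG.zero _ h6).1, sub_zero, abs_zero]
      positivity
  obtain ⟨m, e1, z1⟩ := Lev.exists_single hG T k hx
  obtain ⟨m', e2, z2⟩ := Lev.exists_single hG T k hy
  have hKε : 0 ≤ K * ε := by positivity
  rw [e1, e2]
  by_cases hm : m = m'
  · subst hm
    exact (hd m).trans (by linarith)
  · have a1 := hd m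
    have a2 := hd m'
    rw [z2 m hm] at a1
    rw [z1 m' (Ne.symm hm)] at a2
    have a3 := abs_le.mp a1
    have a4 := abs_le.mp a2
    rw [abs_le]
    constructor <;> linarith [a3.1, a3.2, a4.1, a4.2]

theorem wt_eq (hG : Bump G D K) (hT : 1 ≤ T) (N : ℝ) {m : ℕ} {x : Cn 3}
    (h : 9 ≤ T ^ (2 * m) * rho x) :
    wt G T N x = N * ∑ k ∈ Finset.range m, lev G T k x := by
  have hx : 0 < rho x := by
    by_contra hc
    have : T ^ (2 * m) * rho x ≤ 0 := mul_nonpos_of_nonneg_of_nonpos (by positivity) (not_lt.mp hc)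
    linarith
  unfold wt
  congr 1
  refine finsum_eq_sum_of_support_subset _ fun k hk => ?_
  by_contra hc
  apply hk
  have hmk : m ≤ k := by simpa using hc
  refine lev_eq_zero hG fun j => ?_
  have h1 : T ^ (2 * m) * rho x ≤ T ^ (2 * k) * rho x :=
    mul_le_mul_of_nonneg_right (pow_le_pow_right₀ hT (by omega)) hx.le
  rw [ell_im]
  nlinarith [sq_nonneg ‖(T : ℂ) ^ k * x 0 - lat j‖]

theorem Lev.geom (hT : 2 ≤ T) (m : ℕ) : T * ∑ k ∈ Finset.range m, T ^ k ≤ 2 * T ^ m := by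
  induction m with
  | zero => simp
  | succ m ih =>
    rw [Finset.sum_range_succ, mul_add, pow_succ]
    have : 0 ≤ T ^ m := by positivity
    nlinarith

theorem low_lip (hG : Bump G D K) (hT : 3600 * K + 100 ≤ T) {m : ℕ} {x y : Cn 3} (hx : 0 < rho x)
    (hy : 0 < rho y) (h0 : T ^ m * ‖y 0 - x 0‖ ≤ 100)
    (h1 : T ^ (2 * m) * ‖y 1 - x 1 - 2 * I * conj (x 0) * (y 0 - x 0)‖ ≤ 100) :
    ∑ k ∈ Finset.range m, lev G T k y ≤ ∑ k ∈ Finset.range m, lev G T k x + 1 := by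
  have hK := hG.K0
  have hT1 : 100 ≤ T := by linarith
  have hT0 : 0 < T := by linarith
  have hTm : 0 < T ^ m := by positivity
  have hk : ∀ k ∈ Finset.range m,
      lev G T k y ≤ lev G T k x + 1800 * K / T ^ m * T ^ k := by
    intro k hk
    have hkm : k + 1 ≤ m := Finset.mem_range.mp hk
    have hTk : 0 < T ^ k := by positivity
    have a1 : T ^ k * T ≤ T ^ m := by
      rw [← pow_succ]; exact pow_le_pow_right₀ (by linarith) hkm
    have hε : 100 * T ^ k / T ^ m ≤ 1 := by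
      rw [div_le_one hTm]; nlinarith
    have a2 : T ^ k * ‖y 0 - x 0‖ ≤ 100 * T ^ k / T ^ m := by
      rw [le_div_iff₀ hTm]; nlinarith
    have a3 : T ^ (2 * k) * ‖y 1 - x 1 - 2 * I * conj (x 0) * (y 0 - x 0)‖ ≤
        100 * T ^ k / T ^ m := by
      rw [le_div_iff₀ hTm]
      set w := ‖y 1 - x 1 - 2 * I * conj (x 0) * (y 0 - x 0)‖
      have hw : 0 ≤ w := norm_nonneg _
      rw [two_mul, pow_add] at h1 ⊢
      have a4 : T ^ k ≤ T ^ m := by nlinarith
      calc T ^ k * T ^ k * w * T ^ m = T ^ k * (T ^ k * T ^ m * w) := by ring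
        _ ≤ T ^ k * (T ^ m * T ^ m * w) := by gcongr
        _ ≤ T ^ k * 100 := by gcongr
        _ = _ := by ring
    have := (abs_le.mp (lev_lip hG hT0 hx hy hε a2 a3)).2
    have e : 18 * K * (100 * T ^ k / T ^ m) = 1800 * K / T ^ m * T ^ k := by ring
    linarith
  refine (Finset.sum_le_sum hk).trans ?_
  rw [Finset.sum_add_distrib, ← Finset.mul_sum]
  have hg := Lev.geom (T := T) (by linarith) m
  have hs : 0 ≤ ∑ k ∈ Finset.range m, T ^ k := by positivity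
  have : 1800 * K / T ^ m * ∑ k ∈ Finset.range m, T ^ k ≤ 1 := by
    rw [div_mul_eq_mul_div, div_le_one hTm]
    nlinarith
  linarith

end

end Vale.Agent.P250
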