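import Vale.Agent.P250.Lev
import Vale.Agent.P250.Harn

/-! The disc bundle carries no Jacobian: a maximum principle and two Harnack steps. -/

namespace Vale.Agent.P250

open scoped ContDiff ComplexConjugate
open Complex

namespace NoEmb

/-- points of the zero section -/
def pt (z w : ℂ) : Cn 3 := ![z, w, 0]

theorem rho_pt (z w : ℂ) : rho (pt z w) = w.im - ‖z‖ ^ 2 := rfl

theorem mem_dom (χ : Cn 3 → ℝ) {z w : ℂ} (h : 0 < rho (pt z w)) : pt z w ∈ Dom χ :=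
  ⟨h, by simpa [pt] using h⟩

theorem rho_line (c w τ : ℂ) :
    rho (pt (c + τ) (w + 2 * I * conj c * τ)) = rho (pt c w) - ‖τ‖ ^ 2 := by
  simp only [rho_pt, Complex.sq_norm, Complex.normSq_apply]
  simp
  ring

theorem rho_vert (c w τ : ℂ) : rho (pt c (w + τ)) = rho (pt c w) + τ.im := by
  simp only [rho_pt, add_im]
  ring

theorem line_eq (c w τ : ℂ) :
    pt c w + τ • ![1, 2 * I * conj c, 0] = pt (c + τ) (w + 2 * I * conj c * τ) := by
  funext i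
  fin_cases i <;> simp [pt, mul_comm]

theorem vert_eq (c w τ : ℂ) : pt c w + τ • ![0, 1, 0] = pt c (w + τ) := by
  funext i
  fin_cases i <;> simp [pt]

variable {G : ℂ → ℝ} {D K T N C : ℝ} {J : Cn 3 → ℂ}

theorem hol1 {χ : Cn 3 → ℝ} (hJ : Jac (Dom χ) J C) (c w : ℂ) :
    DifferentiableOn ℂ (fun τ => J (pt (c + τ) (w + 2 * I * conj c * τ)))
      {τ | ‖τ‖ ^ 2 < rho (pt c w)} := by
  have h := hJ.line (pt c w) ![1, 2 * I * conj c, 0]
  simp only [line_eq] at h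
  exact h.mono fun τ hτ => mem_dom χ (by rw [rho_line]; exact sub_pos.2 hτ)

theorem hol2 {χ : Cn 3 → ℝ} (hJ : Jac (Dom χ) J C) (c w : ℂ) :
    DifferentiableOn ℂ (fun τ => J (pt c (w + τ))) {τ | 0 < rho (pt c (w + τ))} := by
  have h := hJ.line (pt c w) ![0, 1, 0]
  simp only [vert_eq] at h
  exact h.mono fun τ hτ => mem_dom χ hτ

theorem log_le (hJ : Jac (Dom (wt G T N)) J C) {z w : ℂ} (h : 0 < rho (pt z w)) :
    Real.log ‖J (pt z w)‖ ≤ Real.log C - 2 * Real.log (rho (pt z w)) + wt G T N (pt z w) / 2 := by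
  have hs := Real.sqrt_pos.2 h
  have he := Real.exp_pos (-(wt G T N (pt z w) / 2))
  have hb := hJ.bd (pt z w) (2 * I * conj z) _ _ _ hs h (mul_pos hs he) ?_ ?_ ?_
  · have h1 := Real.log_le_log (norm_pos_iff.2 (hJ.ne _ (mem_dom _ h))) hb
    rw [Real.log_div hJ.C0.ne' (by positivity), Real.log_mul (by positivity) (by positivity),
      Real.log_mul hs.ne' h.ne', Real.log_mul hs.ne' he.ne', Real.log_exp,
      Real.log_sqrt h.le] at h1
    linarith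
  · intro τ hτ
    rw [line_eq]
    refine mem_dom _ ?_
    rw [rho_line]
    exact sub_pos.2 (Real.lt_sqrt (norm_nonneg _) |>.1 hτ)
  · intro τ hτ
    rw [vert_eq]
    refine mem_dom _ ?_
    rw [rho_vert]
    linarith [(abs_le.1 (abs_im_le_norm τ)).1]
  · intro τ hτ
    have h0 : (pt z w + τ • ![0, 0, 1] : Cn 3) 0 = pt z w 0 := by simp
    have h1 : (pt z w + τ • ![0, 0, 1] : Cn 3) 1 = pt z w 1 := by simp
    have h2 : (pt z w + τ • ![0, 0, 1] : Cn 3) 2 = τ := by simp [pt]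
    have h3 : rho (pt z w + τ • ![0, 0, 1]) = rho (pt z w) := by simp only [rho, h0, h1]
    have h4 : wt G T N (pt z w + τ • ![0, 0, 1]) = wt G T N (pt z w) := by
      simp only [wt, lev, ell, h0, h1]
    refine ⟨h3 ▸ h, ?_⟩
    rw [h2, h3, h4]
    have h5 := pow_lt_pow_left₀ hτ (norm_nonneg _) two_ne_zero
    rw [mul_pow, Real.sq_sqrt h.le, ← Real.exp_nat_mul] at h5
    have h6 := mul_lt_mul_of_pos_right h5 (Real.exp_pos (wt G T N (pt z w)))
    rw [mul_assoc, ← Real.exp_add] at h6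
    have h7 : ((2 : ℕ) : ℝ) * -(wt G T N (pt z w) / 2) + wt G T N (pt z w) = 0 := by
      push_cast
      ring
    rwa [h7, Real.exp_zero, mul_one] at h6

theorem maxmod {χ : Cn 3 → ℝ} (hJ : Jac (Dom χ) J C) (c w a : ℂ) {r : ℝ} (hr : 0 < r)
    (ha : r ≤ rho (pt c w) - ‖a‖ ^ 2) : ∃ τ : ℂ, rho (pt c w) - ‖τ‖ ^ 2 = r ∧
      ‖J (pt (c + a) (w + 2 * I * conj c * a))‖ ≤ ‖J (pt (c + τ) (w + 2 * I * conj c * τ))‖ := by
  have h0 : 0 ≤ rho (pt c w) - r := by linarith [sq_nonneg ‖a‖]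
  have hd : DifferentiableOn ℂ (fun τ => J (pt (c + τ) (w + 2 * I * conj c * τ)))
      (closure (Metric.closedBall 0 √(rho (pt c w) - r))) := by
    refine (hol1 hJ c w).mono fun τ hτ => ?_
    rw [Metric.isClosed_closedBall.closure_eq, mem_closedBall_zero_iff,
      Real.le_sqrt (norm_nonneg _) h0] at hτ
    show ‖τ‖ ^ 2 < rho (pt c w)
    linarith
  obtain ⟨τ, hτ, hm⟩ := exists_mem_frontier_isMaxOn_norm Metric.isBounded_closedBall
    ⟨0, Metric.mem_closedBall_self (Real.sqrt_nonneg _)⟩ hd.diffContOnCl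
  rw [frontier_closedBall', mem_sphere_zero_iff_norm] at hτ
  refine ⟨τ, by rw [hτ, Real.sq_sqrt h0]; ring, hm (subset_closure ?_)⟩
  rw [mem_closedBall_zero_iff]
  exact Real.le_sqrt_of_sq_le (by linarith)

theorem sq_le {s a b : ℝ} (hb : 0 ≤ b) (h : s ^ 2 * a ^ 2 ≤ b ^ 2) : s * a ≤ b :=
  (abs_le_of_sq_le_sq' (by rwa [mul_pow]) hb).2

theorem disp {s : ℝ} (hs : 0 ≤ s) {c z z' w t : ℂ} {a b e : ℝ} (ha : s * ‖z - c‖ ≤ a)
    (hb : s * ‖z' - c‖ ≤ b) (he : s ^ 2 * ‖t‖ ≤ e) :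
    s * ‖z' - z‖ ≤ a + b ∧ s ^ 2 * ‖w + 2 * I * conj c * (z' - z) + t - w -
      2 * I * conj z * (z' - z)‖ ≤ 2 * a * (a + b) + e := by
  have h1 : s * ‖z' - z‖ ≤ a + b := by
    have := norm_sub_le_norm_sub_add_norm_sub z' c z
    rw [norm_sub_rev c z] at this
    nlinarith
  refine ⟨h1, ?_⟩
  have h2 : w + 2 * I * conj c * (z' - z) + t - w - 2 * I * conj z * (z' - z) =
      -(2 * I * conj (z - c) * (z' - z)) + t := by
    rw [map_sub]
    ring
  have h3 := norm_add_le (-(2 * I * conj (z - c) * (z' - z))) t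
  simp only [norm_neg, norm_mul, Complex.norm_ofNat, norm_I, norm_conj, mul_one] at h3
  have h4 : s * ‖z - c‖ * (s * ‖z' - z‖) ≤ a * (a + b) :=
    mul_le_mul ha h1 (by positivity) (le_trans (by positivity) ha)
  rw [h2]
  nlinarith [mul_le_mul_of_nonneg_left h3 (sq_nonneg s)]

theorem centre (hG : Bump G D K) (hT : 0 < T) {k : ℕ} {z w : ℂ} (h0 : 0 < rho (pt z w))
    (h1 : T ^ (2 * k) * rho (pt z w) < 9) : ∃ c : ℂ,
      T ^ (2 * k) * (rho (pt z w) + ‖z - c‖ ^ 2) < 9 ∧ ∀ z' : ℂ,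
        0 < rho (pt z' (w + 2 * I * conj c * (z' - z))) →
          lev G T k (pt z' (w + 2 * I * conj c * (z' - z))) ≤ lev G T k (pt z w) + 12 := by
  by_cases h : ∀ m, 9 ≤ (ell T k m (pt z w)).im
  · refine ⟨z, by simpa using h1, fun z' h' => ?_⟩
    rw [lev_eq_zero hG h, zero_add]
    exact lev_le hG k h'
  · push Not at h
    obtain ⟨m, hm⟩ := h
    have hT' : (T : ℂ) ^ k ≠ 0 := pow_ne_zero _ (ofReal_ne_zero.2 hT.ne')
    have h3 : ∀ x, 0 < rho x → (ell T k m x).im < 9 → lev G T k x = G (ell T k m x) := by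
      intro x hx hx'
      rw [ell_im] at hx'
      refine lev_eq_single hG (abs_le_of_sq_le_sq' ?_ (by norm_num)).2 hx
      have := mul_pos (pow_pos hT (2 * k)) hx
      linarith
    refine ⟨lat m / (T : ℂ) ^ k, ?_, fun z' h' => ?_⟩
    · rw [ell_im] at hm
      have : (T : ℂ) ^ k * pt z w 0 - lat m = (T : ℂ) ^ k * (z - lat m / (T : ℂ) ^ k) := by
        rw [mul_sub, mul_div_cancel₀ _ hT']
        rfl
      rw [this, norm_mul, norm_pow, norm_real, Real.norm_of_nonneg hT.le] at hm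
      rw [mul_add, pow_mul']
      rwa [mul_pow, pow_mul'] at hm
    · have he : ell T k m (pt z' (w + 2 * I * conj (lat m / (T : ℂ) ^ k) * (z' - z))) =
          ell T k m (pt z w) := by
        simp only [ell, pt, Matrix.cons_val_zero, Matrix.cons_val_one, map_div₀, map_pow,
          conj_ofReal, pow_mul']
        field_simp
        ring
      rw [h3 _ h0 hm, h3 _ h' (he ▸ hm), he]
      linarith

theorem step1 (hG : Bump G D K) (hT : 3600 * K + 100 ≤ T) (hN : 0 ≤ N)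
    (hJ : Jac (Dom (wt G T N)) J C) {k : ℕ} {z w : ℂ} (h0 : 0 < rho (pt z w))
    (h1 : T ^ (2 * k) * rho (pt z w) < 9) (h2 : 9 ≤ T ^ (2 * (k + 1)) * rho (pt z w)) :
    ∃ z' w', T ^ (2 * (k + 1)) * rho (pt z' w') = 9 ∧ ‖J (pt z w)‖ ≤ ‖J (pt z' w')‖ ∧
      wt G T N (pt z' w') ≤ wt G T N (pt z w) + 13 * N := by
  have hT1 : 1 ≤ T := by linarith [hG.K0]
  have hT0 : 0 < T := by linarith
  have hP := pow_pos hT0 (2 * (k + 1))
  obtain ⟨c, hc, hl⟩ := centre hG hT0 h0 h1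
  have hq := rho_line c (w + 2 * I * conj c * (c - z)) (z - c)
  have e1 : c + (z - c) = z := by ring
  have e2 : w + 2 * I * conj c * (c - z) + 2 * I * conj c * (z - c) = w := by ring
  rw [e1, e2] at hq
  obtain ⟨τ, hτ, hm⟩ := maxmod hJ c (w + 2 * I * conj c * (c - z)) (z - c)
    (r := 9 / T ^ (2 * (k + 1))) (by positivity) (by rw [← hq, div_le_iff₀' hP]; exact h2)
  have e3 : w + 2 * I * conj c * (c - z) + 2 * I * conj c * τ =
      w + 2 * I * conj c * (c + τ - z) := by ring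
  rw [← rho_line, e3] at hτ
  rw [e1, e2, e3] at hm
  have h' : 0 < rho (pt (c + τ) (w + 2 * I * conj c * (c + τ - z))) := by
    rw [hτ]
    positivity
  have h9 : T ^ (2 * (k + 1)) * rho (pt (c + τ) (w + 2 * I * conj c * (c + τ - z))) = 9 := by
    rw [hτ]
    field_simp
  refine ⟨_, _, h9, hm, ?_⟩
  have hk := pow_pos hT0 k
  rw [pow_mul'] at hc
  have a1 : T ^ k * ‖z - c‖ ≤ 3 := sq_le (by norm_num) (by nlinarith [mul_pos (pow_pos hk 2) h0])
  have a2 : T ^ k * ‖c + τ - c‖ ≤ 3 := by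
    refine sq_le (by norm_num) ?_
    rw [← e3, rho_line] at h'
    rw [add_sub_cancel_left]
    have : ‖τ‖ ^ 2 ≤ rho (pt z w) + ‖z - c‖ ^ 2 := by linarith
    linarith [mul_le_mul_of_nonneg_left this (sq_nonneg (T ^ k))]
  obtain ⟨d1, d2⟩ := disp (w := w) (t := 0) (e := 0) hk.le a1 a2 (by simp)
  have h4 := low_lip hG hT (m := k) h0 h' (d1.trans (by norm_num))
    (by rw [pow_mul']; rw [add_zero] at d2; exact d2.trans (by norm_num))
  rw [wt_eq hG hT1 N h9.ge, wt_eq hG hT1 N h2, Finset.sum_range_succ, Finset.sum_range_succ]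
  nlinarith [hl _ h']

theorem bound (hG : Bump G D K) (hT : 3600 * K + 100 ≤ T) (hN : 0 ≤ N) {I₀ : ℝ}
    (hI : ∀ z w, 0 < rho (pt z w) → rho (pt z w) < 9 → I₀ ≤
      -2 * Real.log (rho (pt z w)) + wt G T N (pt z w) / 2 - Real.log ‖J (pt z w)‖)
    {m : ℕ} (hm : 1 ≤ m) {z w z' w' : ℂ} (h : (T ^ m) ^ 2 * rho (pt z w) = 9)
    (h1 : 1 ≤ (T ^ m) ^ 2 * rho (pt z' w')) (h2 : (T ^ m) ^ 2 * rho (pt z' w') ≤ 53)
    (h3 : T ^ m * ‖z' - z‖ ≤ 100)
    (h4 : (T ^ m) ^ 2 * ‖w' - w - 2 * I * conj z * (z' - z)‖ ≤ 100) :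
    Real.log ‖J (pt z' w')‖ ≤ -2 * Real.log (rho (pt z w)) + wt G T N (pt z w) / 2 - I₀ + 16 +
      N / 2 + N * lev G T m (pt z' w') / 2 := by
  have hT1 : 100 ≤ T := by linarith [hG.K0]
  have hs : T ≤ T ^ m := le_self_pow₀ (by linarith) (by omega)
  have hP : 0 < (T ^ m) ^ 2 := by positivity
  have p0 : 0 < rho (pt z w) := pos_of_mul_pos_left (by linarith) hP.le
  have p1 : 0 < rho (pt z' w') := pos_of_mul_pos_left (by linarith) hP.le
  have p2 : rho (pt z' w') < 9 := by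
    by_contra hc
    have : 100 * 100 ≤ (T ^ m) ^ 2 := by nlinarith
    nlinarith
  have b1 := hI z' w' p1 p2
  have b2 := low_lip hG hT (m := m) p0 p1 h3 (by rw [pow_mul']; exact h4)
  have b3 : Real.log (rho (pt z w)) ≤ Real.log (rho (pt z' w')) + 8 := by
    have : rho (pt z w) ≤ rho (pt z' w') * 9 := le_of_mul_le_mul_left (by nlinarith) hP
    have h5 := Real.log_le_log p0 this
    rw [Real.log_mul p1.ne' (by norm_num)] at h5
    linarith [Real.log_le_sub_one_of_pos (show (0 : ℝ) < 9 by norm_num)]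
  have b4 : 9 ≤ T ^ (2 * (m + 1)) * rho (pt z' w') := by
    rw [pow_mul', pow_succ T, mul_pow]
    nlinarith
  rw [wt_eq hG (by linarith) N b4, Finset.sum_range_succ] at b1
  rw [wt_eq hG (by linarith) N (m := m) (by rw [pow_mul']; exact h.ge)]
  nlinarith

theorem harn1 {χ : Cn 3 → ℝ} (hJ : Jac (Dom χ) J C) {s M : ℝ} (hs : 0 < s) {c w a : ℂ}
    (ha : s ^ 2 * ‖a‖ ^ 2 ≤ 18) (hq : s ^ 2 * rho (pt c w) = 9 + s ^ 2 * ‖a‖ ^ 2)
    (hM : ∀ τ : ℂ, s ^ 2 * ‖τ‖ ^ 2 < s ^ 2 * rho (pt c w) - 1 →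
      Real.log ‖J (pt (c + τ) (w + 2 * I * conj c * τ))‖ ≤ M) :
    M - Real.log ‖J (pt c w)‖ ≤
      13 * (M - Real.log ‖J (pt (c + a) (w + 2 * I * conj c * a))‖) := by
  have h0 : 0 ≤ s ^ 2 * ‖a‖ ^ 2 := by positivity
  have hP : 0 < s ^ 2 := by positivity
  obtain ⟨R, hR, hR'⟩ : ∃ R : ℝ, 0 < R ∧ s ^ 2 * R ^ 2 = s ^ 2 * rho (pt c w) - 1 := by
    refine ⟨√(s ^ 2 * rho (pt c w) - 1) / s, div_pos (Real.sqrt_pos.2 (by linarith)) hs, ?_⟩
    rw [div_pow, Real.sq_sqrt (by linarith)]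
    field_simp
  have hb : ∀ τ ∈ Metric.ball (0 : ℂ) R, s ^ 2 * ‖τ‖ ^ 2 < s ^ 2 * rho (pt c w) - 1 := by
    intro τ hτ
    rw [← hR']
    exact mul_lt_mul_of_pos_left
      (pow_lt_pow_left₀ (mem_ball_zero_iff.1 hτ) (norm_nonneg _) two_ne_zero) hP
  have hb' : ∀ τ ∈ Metric.ball (0 : ℂ) R, ‖τ‖ ^ 2 < rho (pt c w) := fun τ hτ =>
    lt_of_mul_lt_mul_left (by linarith [hb τ hτ]) hP.le
  have h := (harnack (M := M) (a := a) ((hol1 hJ c w).mono hb')
    (fun τ hτ => hJ.ne _ (mem_dom χ (by rw [rho_line]; exact sub_pos.2 (hb' τ hτ))))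
    (fun τ hτ => hM τ (hb τ hτ)) (mem_ball_zero_iff.2 (abs_lt_of_sq_lt_sq'
      (lt_of_mul_lt_mul_left (by linarith) hP.le) hR.le).2)).2
  have h1 := hM 0 (hb 0 (Metric.mem_ball_self hR))
  simp only [add_zero, mul_zero, sub_zero] at h h1
  have h2 : ‖a‖ ^ 2 / R ^ 2 ≤ 9 / 13 := by
    rw [div_le_iff₀ (by positivity)]
    exact le_of_mul_le_mul_left (by linarith) hP
  nlinarith

theorem harn2 {χ : Cn 3 → ℝ} (hJ : Jac (Dom χ) J C) {s M t : ℝ} (hs : 0 < s) {c w a : ℂ}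
    (hq : s ^ 2 * rho (pt c w) = t) (h9 : 9 ≤ t) (h27 : t ≤ 27)
    (ha : (s ^ 2 * ‖a‖) ^ 2 ≤ 10 + (t - 2) ^ 2)
    (hM : ∀ τ : ℂ, s ^ 2 * ‖τ‖ < t - 1 → Real.log ‖J (pt c (w + τ))‖ ≤ M) :
    M - Real.log ‖J (pt c (w + a))‖ ≤ 68 * (M - Real.log ‖J (pt c w)‖) := by
  have hP : 0 < s ^ 2 := by positivity
  have hR : 0 < (t - 1) / s ^ 2 := div_pos (by linarith) hP
  have hb : ∀ τ, τ ∈ Metric.ball (0 : ℂ) ((t - 1) / s ^ 2) ↔ s ^ 2 * ‖τ‖ < t - 1 := by
    intro τ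
    rw [mem_ball_zero_iff, lt_div_iff₀' hP]
  have hb' : ∀ τ ∈ Metric.ball (0 : ℂ) ((t - 1) / s ^ 2), 0 < rho (pt c (w + τ)) := by
    intro τ hτ
    rw [rho_vert]
    refine (mul_pos_iff_of_pos_left hP).1 ?_
    nlinarith [(hb τ).1 hτ, mul_le_mul_of_nonneg_left (abs_le.1 (abs_im_le_norm τ)).1 hP.le]
  have ha' : s ^ 2 * ‖a‖ < t - 1 := (abs_lt_of_sq_lt_sq' (by nlinarith) (by linarith)).2
  have h := (harnack (M := M) (a := a) ((hol2 hJ c w).mono hb')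
    (fun τ hτ => hJ.ne _ (mem_dom χ (hb' τ hτ))) (fun τ hτ => hM τ ((hb τ).1 hτ))
    ((hb a).2 ha')).1
  have h1 := hM a ha'
  simp only [add_zero, sub_zero] at h
  have h2 : ‖a‖ ^ 2 / ((t - 1) / s ^ 2) ^ 2 ≤ 16 / 17 := by
    rw [div_pow, div_div_eq_mul_div, div_le_iff₀ (pow_pos (by linarith) 2)]
    nlinarith
  nlinarith

theorem exists_well {T : ℝ} (hT : 0 < T) (m : ℕ) (g : ℤ × ℤ) (c w : ℂ) {t : ℝ}
    (h : (ell T m g (pt c w)).im = t) : ∃ (a : ℂ) (n : ℤ),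
      ell T m g (pt c (w + a)) = 2 * I + 2 * Real.pi * n ∧
      ((T ^ m) ^ 2 * ‖a‖) ^ 2 ≤ 10 + (t - 2) ^ 2 := by
  have hT' : (T : ℂ) ≠ 0 := ofReal_ne_zero.2 hT.ne'
  obtain ⟨n, hn⟩ : ∃ n : ℤ, |(ell T m g (pt c w)).re / (2 * Real.pi) - n| ≤ 1 / 2 :=
    ⟨_, abs_sub_round _⟩
  refine ⟨(2 * I + 2 * Real.pi * n - ell T m g (pt c w)) / ((T : ℂ) ^ m) ^ 2, n, ?_, ?_⟩
  · have : ∀ a, ell T m g (pt c (w + a)) = ell T m g (pt c w) + ((T : ℂ) ^ m) ^ 2 * a := by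
      intro a
      simp only [ell, pt, Matrix.cons_val_zero, Matrix.cons_val_one, pow_mul']
      ring
    rw [this]
    field_simp
    ring
  · rw [norm_div, norm_pow, norm_pow, norm_real, Real.norm_of_nonneg hT.le,
      mul_div_cancel₀ _ (by positivity), Complex.sq_norm, normSq_apply]
    have hp := Real.pi_pos
    have h1 : (ell T m g (pt c w)).re - 2 * Real.pi * n =
        2 * Real.pi * ((ell T m g (pt c w)).re / (2 * Real.pi) - n) := by field_simp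
    have h2 := sq_le_sq' (abs_le.1 hn).1 (abs_le.1 hn).2
    have h3 : ((ell T m g (pt c w)).re - 2 * Real.pi * n) ^ 2 ≤ 10 := by
      rw [h1, mul_pow]
      nlinarith [Real.pi_lt_d2, mul_le_mul_of_nonneg_left h2 (sq_nonneg (2 * Real.pi))]
    simp only [sub_re, sub_im, add_re, add_im, mul_re, mul_im, re_ofNat, im_ofNat, I_re, I_im,
      ofReal_re, ofReal_im, intCast_re, intCast_im, h]
    nlinarith

theorem step2 (hG : Bump G 80000 K) (hT : 3600 * K + 100 ≤ T) (hN : 0 ≤ N)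
    (hJ : Jac (Dom (wt G T N)) J C) {I₀ : ℝ}
    (hI : ∀ z w, 0 < rho (pt z w) → rho (pt z w) < 9 → I₀ ≤
      -2 * Real.log (rho (pt z w)) + wt G T N (pt z w) / 2 - Real.log ‖J (pt z w)‖)
    {m : ℕ} (hm : 1 ≤ m) {z w : ℂ} (h : (T ^ m) ^ 2 * rho (pt z w) = 9) :
    40000 * N ≤ 884 * (-2 * Real.log (rho (pt z w)) + wt G T N (pt z w) / 2 -
      Real.log ‖J (pt z w)‖ - I₀ + 16 + 13 * N / 2) := by
  have hT0 : 0 < T := by linarith [hG.K0]
  have hs := pow_pos hT0 m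
  have hP := pow_pos hs 2
  have hT' : (T : ℂ) ^ m ≠ 0 := pow_ne_zero _ (ofReal_ne_zero.2 hT0.ne')
  obtain ⟨g, hg⟩ := exists_lat ((T : ℂ) ^ m * z)
  obtain ⟨c, hc⟩ : ∃ c, (T : ℂ) ^ m * c = lat g := ⟨lat g / (T : ℂ) ^ m, mul_div_cancel₀ _ hT'⟩
  rw [← hc, ← mul_sub, norm_mul, norm_pow, norm_real, Real.norm_of_nonneg hT0.le, mul_pow] at hg
  obtain ⟨M, hM⟩ : ∃ M, M = -2 * Real.log (rho (pt z w)) + wt G T N (pt z w) / 2 - I₀ + 16 +
    13 * N / 2 := ⟨_, rfl⟩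
  have hq := rho_line c (w + 2 * I * conj c * (c - z)) (z - c)
  have e1 : c + (z - c) = z := by ring
  have e2 : w + 2 * I * conj c * (c - z) + 2 * I * conj c * (z - c) = w := by ring
  rw [e1, e2] at hq
  obtain ⟨t, ht⟩ : ∃ t, (T ^ m) ^ 2 * rho (pt c (w + 2 * I * conj c * (c - z))) = t := ⟨_, rfl⟩
  have hq' : t = 9 + (T ^ m) ^ 2 * ‖z - c‖ ^ 2 := by
    rw [← ht, ← h, hq]
    ring
  have h9 : 9 ≤ t := by
    rw [hq']
    exact le_add_of_nonneg_right (by positivity)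
  have h27 : t ≤ 27 := by linarith
  have a1 : T ^ m * ‖z - c‖ ≤ 9 / 2 := sq_le (by norm_num) (by linarith)
  have hle : ∀ y, 1 ≤ (T ^ m) ^ 2 * rho y → N * lev G T m y ≤ N * 12 := fun y hy =>
    mul_le_mul_of_nonneg_left (lev_le hG m (pos_of_mul_pos_left (by linarith) hP.le)) hN
  have H1 := harn1 hJ (M := M) hs hg (ht.trans hq') fun τ hτ => by
    have r1 := rho_line c (w + 2 * I * conj c * (c - z)) τ
    have e3 : w + 2 * I * conj c * (c - z) + 2 * I * conj c * τ =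
        w + 2 * I * conj c * (c + τ - z) := by ring
    rw [e3] at r1 ⊢
    have r0 : 0 ≤ (T ^ m) ^ 2 * ‖τ‖ ^ 2 := by positivity
    have r2 : 1 ≤ (T ^ m) ^ 2 * rho (pt (c + τ) (w + 2 * I * conj c * (c + τ - z))) := by
      rw [r1]
      linarith
    have a2 : T ^ m * ‖c + τ - c‖ ≤ 6 := by
      rw [add_sub_cancel_left]
      exact sq_le (by norm_num) (by linarith)
    obtain ⟨d1, d2⟩ := disp (w := w) (t := 0) (e := 0) hs.le a1 a2 (by simp)
    rw [add_zero] at d2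
    have := bound hG hT hN hI hm h r2 (by rw [r1]; linarith) (d1.trans (by norm_num))
      (d2.trans (by norm_num))
    linarith [hle _ r2]
  have hB : ∀ τ : ℂ, (T ^ m) ^ 2 * ‖τ‖ < t - 1 →
      1 ≤ (T ^ m) ^ 2 * rho (pt c (w + 2 * I * conj c * (c - z) + τ)) ∧
      Real.log ‖J (pt c (w + 2 * I * conj c * (c - z) + τ))‖ ≤
        M - 6 * N + N * lev G T m (pt c (w + 2 * I * conj c * (c - z) + τ)) / 2 := by
    intro τ hτ
    have i1 := mul_le_mul_of_nonneg_left (abs_le.1 (abs_im_le_norm τ)).1 hP.le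
    have i2 := mul_le_mul_of_nonneg_left (abs_le.1 (abs_im_le_norm τ)).2 hP.le
    have r2 : 1 ≤ (T ^ m) ^ 2 * rho (pt c (w + 2 * I * conj c * (c - z) + τ)) := by
      rw [rho_vert]
      linarith
    obtain ⟨d1, d2⟩ := disp (w := w) (z' := c) (b := 0) (e := 26) (t := τ) hs.le a1 (by simp)
      (by linarith)
    have := bound hG hT hN hI hm h r2 (by rw [rho_vert]; linarith) (d1.trans (by norm_num))
      (d2.trans (by norm_num))
    exact ⟨r2, by linarith⟩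
  obtain ⟨a, n, ha, ha'⟩ := exists_well hT0 m g c (w + 2 * I * conj c * (c - z)) (t := t) (by
    rw [ell_im, pow_mul', ht]
    simp [pt, hc])
  have H2 := harn2 hJ (M := M) hs ht h9 h27 ha' fun τ hτ => by
    linarith [(hB τ hτ).2, hle _ (hB τ hτ).1]
  obtain ⟨b1, b2⟩ := hB a (abs_lt_of_sq_lt_sq' (by nlinarith) (by linarith)).2
  rw [lev_eq_single hG (m := g) (by simp [pt, hc]) (pos_of_mul_pos_left (by linarith) hP.le),
    ha] at b2
  rw [e1, e2] at H1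
  linarith [mul_le_mul_of_nonneg_left (hG.well n) hN]

end NoEmb

open NoEmb in
theorem no_jac {G : ℂ → ℝ} {K T : ℝ} (hG : Bump G 80000 K) (hT : 3600 * K + 100 ≤ T) {N : ℝ}
    (hN : 6 + 4 * Real.log T ≤ N) (J : Cn 3 → ℂ) (C : ℝ) : ¬ Jac (Dom (wt G T N)) J C := by
  intro hJ
  have hT1 : 100 ≤ T := by linarith [hG.K0]
  have hL : 0 ≤ Real.log T := Real.log_nonneg (by linarith)
  let S : Set ℝ := {u | ∃ z w, 0 < rho (pt z w) ∧ rho (pt z w) < 9 ∧
    u = -2 * Real.log (rho (pt z w)) + wt G T N (pt z w) / 2 - Real.log ‖J (pt z w)‖}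
  have hS : BddBelow S := ⟨-Real.log C, by
    rintro u ⟨z, w, h, -, rfl⟩
    linarith [log_le hJ h]⟩
  obtain ⟨u, ⟨z, w, h0, h1, rfl⟩, hu⟩ := exists_lt_of_csInf_lt (s := S)
    ⟨_, 0, I, by simp [rho_pt], by simp [rho_pt], rfl⟩ (lt_add_one _)
  obtain ⟨k, hk, hk'⟩ := Nat.exists_not_and_succ_of_not_zero_of_exists
    (p := fun k => 9 ≤ T ^ (2 * k) * rho (pt z w)) (by simpa using h1) (by
      obtain ⟨n, hn⟩ := pow_unbounded_of_one_lt (9 / rho (pt z w))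
        (show 1 < T ^ 2 by nlinarith)
      exact ⟨n, by rw [pow_mul]; exact ((div_lt_iff₀ h0).1 hn).le⟩)
  rw [not_le] at hk
  obtain ⟨z', w', h9, hm, hw⟩ := step1 hG hT (by linarith) hJ h0 hk hk'
  have h2 := step2 hG hT (by linarith) hJ (I₀ := sInf S)
    (fun z w h h' => csInf_le hS ⟨z, w, h, h', rfl⟩) (m := k + 1) (by omega)
    (by rw [← pow_mul']; exact h9)
  have h3 := Real.log_le_log (norm_pos_iff.2 (hJ.ne _ (mem_dom _ h0))) hm
  have hP : 0 < T ^ (2 * k) := by positivity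
  have e : T ^ (2 * (k + 1)) = T ^ (2 * k) * T ^ 2 := by ring
  have p : 0 < rho (pt z' w') :=
    (mul_pos_iff_of_pos_left (by positivity)).1 (lt_of_lt_of_eq (by norm_num) h9.symm)
  have h4 : rho (pt z w) ≤ rho (pt z' w') * T ^ 2 :=
    le_of_mul_le_mul_left (by rw [e] at h9; linarith) hP
  have h5 := Real.log_le_log h0 h4
  rw [Real.log_mul p.ne' (by positivity), Real.log_pow] at h5
  push_cast at h5
  linarith

end Vale.Agent.P250
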