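import Vale.Agent.P250.Base

/-! Topology of the disc bundle. -/

namespace Vale.Agent.P250

open scoped ContDiff ComplexConjugate
open Complex

namespace Topo

theorem continuous_rho : Continuous rho := by
  unfold rho
  fun_prop

theorem rho_update (x : Cn 3) (ξ : ℂ) : rho (Function.update x 2 ξ) = rho x := by
  simp [rho]

/-- the model convex set -/
def Cvx : Set (Cn 3) := {y | 0 < rho y ∧ ‖y 2‖ < 1}

theorem convex_cvx : Convex ℝ Cvx := by
  intro x hx y hy a b ha hb hab
  obtain ⟨hx1, hx2⟩ := hx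
  obtain ⟨hy1, hy2⟩ := hy
  constructor
  · have h1 : ‖(a • x + b • y) 0‖ ≤ a * ‖x 0‖ + b * ‖y 0‖ := by
      simp only [Pi.add_apply, Pi.smul_apply]
      refine (norm_add_le _ _).trans ?_
      rw [norm_smul, norm_smul, Real.norm_of_nonneg ha, Real.norm_of_nonneg hb]
    have h2 : ‖(a • x + b • y) 0‖ ^ 2 ≤ a * ‖x 0‖ ^ 2 + b * ‖y 0‖ ^ 2 := by
      refine (pow_le_pow_left₀ (norm_nonneg _) h1 2).trans ?_
      have h3 : b = 1 - a := by linarith
      subst h3
      nlinarith [mul_nonneg (mul_nonneg ha hb) (sq_nonneg (‖x 0‖ - ‖y 0‖))]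
    have h3 : ((a • x + b • y) 1).im = a * (x 1).im + b * (y 1).im := by simp
    have h4 : 0 < a * rho x + b * rho y := by
      rcases ha.eq_or_lt with rfl | ha'
      · have : b = 1 := by linarith
        simpa [this] using hy1
      · exact add_pos_of_pos_of_nonneg (mul_pos ha' hx1) (mul_nonneg hb hy1.le)
    unfold rho at h4 ⊢
    rw [h3]
    nlinarith
  · have := convex_ball (0 : ℂ) 1 (mem_ball_zero_iff.mpr hx2) (mem_ball_zero_iff.mpr hy2) ha hb hab
    simpa using this

theorem nonempty_cvx : Cvx.Nonempty := ⟨![0, I, 0], by simp [rho], by simp⟩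

/-- the rescaling factor -/
noncomputable def sc (χ : Cn 3 → ℝ) (x : Cn 3) : ℝ := √(Real.exp (χ x) / rho x)

variable {χ : Cn 3 → ℝ} {Λ : ℝ}

theorem sc_pos {x : Cn 3} (hx : 0 < rho x) : 0 < sc χ x :=
  Real.sqrt_pos.mpr (div_pos (Real.exp_pos _) hx)

theorem sc_update (h : Good χ Λ) (x : Cn 3) (ξ : ℂ) : sc χ (Function.update x 2 ξ) = sc χ x := by
  simp only [sc, rho_update, h.indep]

theorem continuousOn_sc (h : Good χ Λ) : ContinuousOn (sc χ) {x | 0 < rho x} :=
  (h.smooth.continuousOn.rexp.div continuous_rho.continuousOn fun _ hx => ne_of_gt hx).sqrt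

theorem lt_iff {x : Cn 3} (hx : 0 < rho x) (t : ℝ) (ht : 0 ≤ t) :
    t ^ 2 * Real.exp (χ x) < rho x ↔ t * sc χ x < 1 := by
  have h1 : (t * sc χ x) ^ 2 = t ^ 2 * Real.exp (χ x) / rho x := by
    rw [mul_pow, sc, Real.sq_sqrt (div_pos (Real.exp_pos _) hx).le]
    ring
  rw [← sq_lt_one_iff₀ (mul_nonneg ht (sc_pos hx).le), h1, div_lt_one hx]

/-- the disc bundle is homeomorphic to a convex set -/
noncomputable def homeo (h : Good χ Λ) : Dom χ ≃ₜ Cvx where
  toFun x := ⟨Function.update x.1 2 (x.1 2 * sc χ x.1), by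
    refine ⟨by rw [rho_update]; exact x.2.1, ?_⟩
    rw [Function.update_self, norm_mul, norm_real, Real.norm_of_nonneg (sc_pos x.2.1).le]
    exact (lt_iff x.2.1 _ (norm_nonneg _)).mp x.2.2⟩
  invFun y := ⟨Function.update y.1 2 (y.1 2 / sc χ y.1), by
    have hy : 0 < rho (Function.update y.1 2 (y.1 2 / sc χ y.1)) := by
      rw [rho_update]; exact y.2.1
    refine ⟨hy, (lt_iff hy _ (norm_nonneg _)).mpr ?_⟩
    rw [Function.update_self, norm_div, norm_real, Real.norm_of_nonneg (sc_pos y.2.1).le,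
      sc_update h, div_mul_cancel₀ _ (sc_pos y.2.1).ne']
    exact y.2.2⟩
  left_inv x := by
    apply Subtype.ext
    have : (sc χ x.1 : ℂ) ≠ 0 := ofReal_ne_zero.mpr (sc_pos x.2.1).ne'
    simp only [sc_update h, Function.update_self, Function.update_idem, mul_div_cancel_right₀ _ this,
      Function.update_eq_self]
  right_inv y := by
    apply Subtype.ext
    have : (sc χ y.1 : ℂ) ≠ 0 := ofReal_ne_zero.mpr (sc_pos y.2.1).ne'
    simp only [sc_update h, Function.update_self, Function.update_idem, div_mul_cancel₀ _ this,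
      Function.update_eq_self]
  continuous_toFun := by
    refine Continuous.subtype_mk ?_ _
    have h1 : Continuous fun x : Dom χ => sc χ x.1 :=
      (continuousOn_sc h).comp_continuous continuous_subtype_val fun x => x.2.1
    exact continuous_subtype_val.update 2
      (((continuous_apply 2).comp continuous_subtype_val).mul (continuous_ofReal.comp h1))
  continuous_invFun := by
    refine Continuous.subtype_mk ?_ _
    have h1 : Continuous fun x : Cvx => sc χ x.1 :=
      (continuousOn_sc h).comp_continuous continuous_subtype_val fun x => x.2.1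
    exact continuous_subtype_val.update 2
      (((continuous_apply 2).comp continuous_subtype_val).div (continuous_ofReal.comp h1)
        fun y => ofReal_ne_zero.mpr (sc_pos y.2.1).ne')

theorem rho_le (x : Cn 3) : rho x + ‖x 0‖ ^ 2 + 1 ≤ ‖x 1 + I‖ := by
  have h1 : (x 1 + I).im ≤ ‖x 1 + I‖ := im_le_norm _
  simp only [add_im, I_im] at h1
  unfold rho
  linarith

theorem bounds {x : Cn 3} {c : ℝ} (hx : x ∈ Dom χ) (hc : exh χ x ≤ c) :
    ‖x 1 + I‖ ≤ Real.exp c ∧ Real.exp (-c) ≤ rho x ∧ tt χ x ≤ 1 - Real.exp (-c) := by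
  have h0 := hx.1
  have h1 := rho_le x
  have h2 : tt χ x < 1 := (div_lt_one h0).mpr hx.2
  have h3 : 0 ≤ tt χ x := div_nonneg (by positivity) h0.le
  have h4 : 0 ≤ ‖x 0‖ ^ 2 := sq_nonneg _
  have a1 : 0 ≤ Real.log ‖x 1 + I‖ := Real.log_nonneg (by linarith)
  have a2 : Real.log (rho x) ≤ Real.log ‖x 1 + I‖ := Real.log_le_log h0 (by linarith)
  have a3 : Real.log (1 - tt χ x) ≤ 0 := Real.log_nonpos (by linarith) (by linarith)
  unfold exh at hc
  rw [Real.log_pow] at hc
  push_cast at hc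
  refine ⟨?_, ?_, ?_⟩
  · rw [← Real.log_le_iff_le_exp (by linarith)]
    linarith
  · rw [← Real.le_log_iff_exp_le h0]
    linarith
  · have : Real.exp (-c) ≤ 1 - tt χ x := by
      rw [← Real.le_log_iff_exp_le (by linarith)]
      linarith
    linarith

theorem isBounded_of {S : Set (Cn 3)} {A B : ℝ} (h1 : ∀ x ∈ S, 0 ≤ rho x)
    (h2 : ∀ x ∈ S, ‖x 1 + I‖ ≤ A) (h3 : ∀ x ∈ S, ‖x 2‖ ≤ B) : Bornology.IsBounded S := by
  rw [isBounded_iff_forall_norm_le]
  refine ⟨|A| + 1 + |B|, fun x hx => ?_⟩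
  have hA := le_abs_self A
  have hB := le_abs_self B
  have hA0 := abs_nonneg A
  have hB0 := abs_nonneg B
  rw [pi_norm_le_iff_of_nonneg (by positivity)]
  intro i
  have a1 := h1 x hx
  have a2 := h2 x hx
  have a3 := h3 x hx
  have a4 := rho_le x
  fin_cases i
  · change ‖x 0‖ ≤ _
    nlinarith [sq_nonneg (‖x 0‖ - 1), norm_nonneg (x 0)]
  · change ‖x 1‖ ≤ _
    have := norm_sub_le (x 1 + I) I
    rw [add_sub_cancel_right, norm_I] at this
    linarith
  · change ‖x 2‖ ≤ _
    linarith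

end Topo

open Topo

theorem Good.isOpen {χ : Cn 3 → ℝ} {Λ : ℝ} (h : Good χ Λ) : IsOpen (Dom χ) := by
  have h1 : ContinuousOn (fun x : Cn 3 => ‖x 2‖ ^ 2 * Real.exp (χ x) - rho x) {x | 0 < rho x} :=
    ((by fun_prop : Continuous fun x : Cn 3 => ‖x 2‖ ^ 2).continuousOn.mul
      h.smooth.continuousOn.rexp).sub continuous_rho.continuousOn
  have h2 := h1.isOpen_inter_preimage (isOpen_lt continuous_const continuous_rho)
    (isOpen_Iio (a := (0 : ℝ)))
  convert h2 using 1
  ext x
  simp [Dom]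

theorem Good.simplyConnected {χ : Cn 3 → ℝ} {Λ : ℝ} (h : Good χ Λ) :
    IsConnected (Dom χ) ∧ SimplyConnectedSpace (Dom χ) := by
  have := convex_cvx.contractibleSpace nonempty_cvx
  have := (homeo h).contractibleSpace
  exact ⟨isConnected_iff_connectedSpace.mpr inferInstance, inferInstance⟩

theorem Good.isCompact {χ : Cn 3 → ℝ} {Λ : ℝ} (h : Good χ Λ) (c : ℝ) :
    IsCompact {x | x ∈ Dom χ ∧ exh χ x ≤ c} := by
  have hc := Real.exp_pos (-c)
  refine Metric.isCompact_of_isClosed_isBounded ?_ ?_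
  · have k2 : IsClosed {x : Cn 3 | Real.exp (-c) ≤ rho x} :=
      isClosed_le continuous_const continuous_rho
    have htt : ContinuousOn (tt χ) {x : Cn 3 | Real.exp (-c) ≤ rho x} :=
      (((by fun_prop : Continuous fun x : Cn 3 => ‖x 2‖ ^ 2).continuousOn.mul
        h.smooth.continuousOn.rexp).div continuous_rho.continuousOn
          fun _ hx => ne_of_gt hx).mono fun x hx => hc.trans_le hx
    have k3 := htt.preimage_isClosed_of_isClosed k2 (isClosed_Iic (a := 1 - Real.exp (-c)))
    have hex : ContinuousOn (exh χ)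
        ({x : Cn 3 | Real.exp (-c) ≤ rho x} ∩ tt χ ⁻¹' Set.Iic (1 - Real.exp (-c))) := by
      refine ContinuousOn.sub (ContinuousOn.add (ContinuousOn.neg ?_) ?_) ?_
      · exact continuous_rho.continuousOn.log fun x hx => (hc.trans_le hx.1).ne'
      · refine (by fun_prop : Continuous fun x : Cn 3 => ‖x 1 + I‖ ^ 2).continuousOn.log
          fun x hx => ?_
        have h1 := rho_le x
        have h2 : 0 < rho x := hc.trans_le hx.1
        have h3 : 0 < ‖x 1 + I‖ := by linarith [sq_nonneg ‖x 0‖]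
        positivity
      · refine (continuousOn_const.sub (htt.mono Set.inter_subset_left)).log fun x hx => ?_
        have h1 : tt χ x ≤ 1 - Real.exp (-c) := hx.2
        have h2 : 0 < 1 - tt χ x := by linarith
        exact h2.ne'
    have k4 := hex.preimage_isClosed_of_isClosed k3 (isClosed_Iic (a := c))
    have e : {x | x ∈ Dom χ ∧ exh χ x ≤ c} = {x : Cn 3 | Real.exp (-c) ≤ rho x} ∩
        tt χ ⁻¹' Set.Iic (1 - Real.exp (-c)) ∩ exh χ ⁻¹' Set.Iic c := by
      ext x
      constructor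
      · rintro ⟨h1, h2⟩
        exact ⟨⟨(bounds h1 h2).2.1, (bounds h1 h2).2.2⟩, h2⟩
      · rintro ⟨⟨h1, h2⟩, h3⟩
        have h4 : 0 < rho x := hc.trans_le h1
        have h5 : tt χ x ≤ 1 - Real.exp (-c) := h2
        exact ⟨⟨h4, (div_lt_one h4).mp (by change tt χ x < 1; linarith)⟩, h3⟩
    rw [e]
    exact k4
  · have k1 : IsCompact {x : Cn 3 | ‖x 1 + I‖ ≤ Real.exp c ∧ Real.exp (-c) ≤ rho x ∧ ‖x 2‖ ≤ 0} := by
      refine Metric.isCompact_of_isClosed_isBounded ?_
        (isBounded_of (fun x hx => hc.le.trans hx.2.1) (fun x hx => hx.1) fun x hx => hx.2.2)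
      exact (isClosed_le (by fun_prop : Continuous fun x : Cn 3 => ‖x 1 + I‖)
        continuous_const).inter ((isClosed_le continuous_const continuous_rho).inter
          (isClosed_le (by fun_prop : Continuous fun x : Cn 3 => ‖x 2‖) continuous_const))
    obtain ⟨B, hB⟩ := k1.exists_bound_of_continuousOn
      (h.smooth.continuousOn.mono fun x hx => hc.trans_le hx.2.1)
    refine isBounded_of (A := Real.exp c) (B := Real.exp c * Real.exp B + 1)
      (fun x hx => hx.1.1.le) (fun x hx => (bounds hx.1 hx.2).1) fun x hx => ?_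
    obtain ⟨b1, b2, -⟩ := bounds hx.1 hx.2
    have h1 := hB (Function.update x 2 0) ⟨by simpa using b1, by rwa [rho_update], by simp⟩
    rw [h.indep, Real.norm_eq_abs] at h1
    have h2 : 1 ≤ Real.exp (χ x) * Real.exp B := by
      rw [← Real.exp_add]
      exact Real.one_le_exp (by linarith [(abs_le.mp h1).1])
    have h3 := hx.1.2
    have h4 := rho_le x
    have h5 : ‖x 2‖ ^ 2 ≤ Real.exp c * Real.exp B := by
      have h6 := Real.exp_pos B
      calc ‖x 2‖ ^ 2 ≤ ‖x 2‖ ^ 2 * (Real.exp (χ x) * Real.exp B) :=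
            le_mul_of_one_le_right (sq_nonneg _) h2
        _ = ‖x 2‖ ^ 2 * Real.exp (χ x) * Real.exp B := by ring
        _ ≤ Real.exp c * Real.exp B := by
            gcongr
            linarith [sq_nonneg ‖x 0‖]
    nlinarith [sq_nonneg (‖x 2‖ - 1)]

end Vale.Agent.P250
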