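import Vale.Agent.P250.Red
import Vale.Agent.P250.Complete
import Vale.Agent.P250.Topo
import Vale.Agent.P250.Harn
import Vale.Agent.P250.Bump
import Vale.Agent.P250.Chi
import Vale.Agent.P250.NoEmb

/-! Pinching, completeness, and the counterexample. -/

namespace Vale.Agent.P250

open scoped ContDiff ComplexConjugate
open Complex Filter Topology

noncomputable section

theorem den_pos {n : ℕ} {U : Set (Cn n)} {g : Met n} (hR : IsRiemOn U g) {x : Cn n} (hx : x ∈ U)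
    {u v : Cn n} (hi : LinearIndependent ℝ ![u, v]) (c : ℝ) :
    0 < g x u u * g x (v + c • u) (v + c • u) - g x u (v + c • u) ^ 2 := by
  rw [LinearIndependent.pair_iff] at hi
  have hu : u ≠ 0 := fun hu => one_ne_zero (hi 1 0 (by simp [hu])).1
  have h1 := hR.pos x hx u hu
  generalize hw : v + c • u = w
  have h2 : g x u u • w - g x u w • u ≠ 0 := fun h0 =>
    h1.ne' (hi (g x u u * c - g x u w) (g x u u) (by
      rw [← h0]
      nth_rewrite 2 [← hw]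
      module)).2
  have h3 := hR.pos x hx _ h2
  simp only [map_sub, map_smul, ContinuousLinearMap.sub_apply, ContinuousLinearMap.smul_apply,
    smul_eq_mul, hR.symm x hx w u] at h3
  refine (mul_pos_iff_of_pos_left h1).1 ?_
  linarith

variable {χ : Cn 3 → ℝ} {Λ : ℝ} {x : Cn 3}

theorem exists_shear (hx : 0 < rho x) (u v : Cn 3) : ∃ c : ℝ, (om x u (v + c • u)).re = 0 := by
  have ho := om_herm x
  by_cases h0 : nw x u = 0
  · refine ⟨0, ?_⟩
    rw [eq_of_nw hx h0, ho.smul, ho.symm, om_e3]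
    simp
  · refine ⟨-(om x u v).re / nw x u ^ 2, ?_⟩
    rw [Pinch.add_right ho, ← algebraMap_smul ℂ _ u, Pinch.smul_right ho, coe_algebraMap,
      conj_ofReal, add_re, re_ofReal_mul, nw_sq hx]
    field_simp
    ring

theorem pinched_pot (h : Good χ Λ) (hΛ : 1 ≤ Λ) : ∃ A : ℝ, 1 ≤ A ∧ ∀ Γ : Chr 3,
    ContDiffOn ℝ ∞ Γ (Dom χ) → IsLeviCivitaOn (Dom χ) (met (pot A χ)) (fun x a b => Γ x a b) →
      Pinched (Dom χ) (met (pot A χ)) fun x a b => Γ x a b := by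
  obtain ⟨A, a, b, hA, ha, hab, H⟩ := pinch (Λ := 17 * Λ) (by linarith)
  have hU := h.isOpen
  have hR := (kahler_pot h hU hA).riem
  refine ⟨A, hA, fun Γ hΓ hL => ⟨a, b, ha, hab, fun x hx u v hi => ?_⟩⟩
  obtain ⟨c, hc⟩ := exists_shear hx.1 u v
  obtain ⟨d, ho, hT, hR'⟩ := exists_curv h hΛ hU hA hL hx
  have h1 := den_pos hR hx hi c
  have h2 := H _ d u (v + c • u) (by rw [ho]; exact hc)
  rw [← sec_shear hU hR hΓ hL hx u v c, sec, curv_eq hU (h.pot_smooth A) hR hΓ hL hx, hR', hR',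
    le_div_iff₀ h1, div_le_iff₀ h1]
  simp only [hT]
  constructor <;> linarith [h2.1, h2.2]

theorem im_le (hx : 0 < rho x) : (x 1).im ≤ ‖x 1 + I‖ ∧ x 1 + I ≠ 0 := by
  have h1 : (x 1).im + 1 ≤ ‖x 1 + I‖ := by simpa using im_le_norm (x 1 + I)
  have h2 : 0 < (x 1).im := hx.trans_le (sub_le_self _ (sq_nonneg _))
  exact ⟨by linarith, norm_pos_iff.1 (by linarith)⟩

theorem w_smooth :
    ContDiffOn ℝ ∞ (fun y : Cn 3 => Real.log (‖y 1 + I‖ ^ 2)) {x : Cn 3 | 0 < rho x} :=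
  ((contDiff_norm_sq ℝ).comp ((contDiff_apply ℝ ℂ 1).add contDiff_const)).contDiffOn.log
    fun _ hy => pow_ne_zero 2 (norm_ne_zero_iff.2 (im_le hy).2)

theorem a1_le (hx : 0 < rho x) (a : Cn 3) : ‖a 1‖ ≤ 4 * nw x a * ‖x 1 + I‖ := by
  have hr : (rho x : ℂ) ≠ 0 := ofReal_ne_zero.2 hx.ne'
  have h1 : a 1 = -2 * I * (rho x * alf x a - conj (x 0) * a 0) := by
    rw [alf, rhoD]
    field_simp
    linear_combination (a 1) * I_mul_I
  have h2 : ‖a 1‖ ≤ 2 * (rho x * ‖alf x a‖ + ‖x 0‖ * ‖a 0‖) := by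
    rw [h1, norm_mul]
    refine mul_le_mul (by simp) ((norm_sub_le _ _).trans ?_) (norm_nonneg _) zero_le_two
    simp [abs_of_pos hx]
  have h3 := alf_le hx a
  have h4 := (im_le hx).1
  have h5 := nw_nonneg x a
  have h6 : ‖a 0‖ ^ 2 ≤ nw x a ^ 2 * rho x := by
    rw [← div_le_iff₀ hx, nw_sq' hx]
    exact le_add_of_nonneg_left (sq_nonneg _)
  have h7 : rho x + ‖x 0‖ ^ 2 = (x 1).im := by rw [rho]; ring
  have h8 : ‖x 0‖ * ‖a 0‖ ≤ nw x a * (x 1).im := by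
    refine (abs_le_of_sq_le_sq' ?_ (by rw [← h7]; positivity)).2
    rw [← h7]
    nlinarith [mul_le_mul_of_nonneg_left h6 (sq_nonneg ‖x 0‖),
      mul_nonneg (sq_nonneg (nw x a)) (mul_nonneg hx.le (sq_nonneg ‖x 0‖)),
      mul_nonneg (sq_nonneg (nw x a)) (sq_nonneg (rho x)),
      mul_nonneg (sq_nonneg (nw x a)) (sq_nonneg (‖x 0‖ ^ 2))]
  nlinarith [mul_le_mul_of_nonneg_left h3 hx.le, mul_le_mul_of_nonneg_left h4 h5,
    mul_nonneg h5 (sq_nonneg ‖x 0‖)]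

theorem w_le (hx : 0 < rho x) (a : Cn 3) :
    ‖ev (dz a (gm _ (Sm.of_on isOpen_base hx w_smooth)))‖ ≤ 4 * nw x a := by
  have hs := Sm.of_on isOpen_base hx w_smooth
  have h1 : gm _ hs.exp = (co x 1 + cst I) * cj (co x 1 + cst I) := by
    refine Subtype.ext (Germ.coe_eq.2 ?_)
    filter_upwards [isOpen_base.mem_nhds hx] with y hy
    change Complex.exp ((Real.log (‖y 1 + I‖ ^ 2) : ℝ) : ℂ) = (y 1 + I) * conj (y 1 + I)
    rw [← ofReal_exp, Real.exp_log (pow_pos (norm_pos_iff.2 (im_le hy).2) 2), mul_conj,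
      normSq_eq_norm_sq]
  have h2 := congrArg ev (dz_chain (fun a => D_exp a _ hs) a)
  rw [h1] at h2
  simp only [dz_mul, map_add, map_mul, dz_co, dz_cj_co, dz_cst, cj_cst, add_zero, mul_zero, ev_cst,
    ev_cj, ev_co] at h2
  have h0 := (im_le hx).2
  have h3 : a 1 = (x 1 + I) * ev (dz a (gm _ hs)) :=
    mul_right_cancel₀ ((map_ne_zero conj).2 h0) (by rw [map_add]; linear_combination h2)
  have h4 := a1_le hx a
  rw [h3, norm_mul, mul_comm] at h4
  exact le_of_mul_le_mul_right h4 (norm_pos_iff.2 h0)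

theorem Good.exh_smooth (h : Good χ Λ) : ContDiffOn ℝ ∞ (exh χ) (Dom χ) :=
  (((psi_smooth.add w_smooth).mono fun _ hy => hy.1).add h.L_smooth).congr fun y _ => by
    simp only [exh]; ring

theorem exh_grad (h : Good χ Λ) {A : ℝ} (hA : 1 ≤ A) (x : Cn 3) (hx : x ∈ Dom χ) (a : Cn 3) :
    fderiv ℝ (exh χ) x a ^ 2 ≤ 200 * met (pot A χ) x a a := by
  have hU := h.isOpen
  have hs := Sm.of_on hU hx h.exh_smooth
  have h1 : gm _ hs = (hyp hx.1).ψ + gm _ (Sm.of_on isOpen_base hx.1 w_smooth) +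
      (cal h hU hx).L := by
    refine Subtype.ext (Germ.coe_eq.2 (Eventually.of_forall fun y => ?_))
    change ((exh χ y : ℝ) : ℂ) = ((-Real.log (rho y) : ℝ) : ℂ) +
      ((Real.log (‖y 1 + I‖ ^ 2) : ℝ) : ℂ) + ((-Real.log (1 - tt χ y) : ℝ) : ℂ)
    rw [exh]
    push_cast
    ring
  have h2 : ‖ev (dz a (cal h hU hx).L)‖ ^ 2 ≤ kap χ x * ‖nv χ x a‖ ^ 2 := by
    have e : ‖ev (dz a (cal h hU hx).L)‖ ^ 2 = tt χ x * (kap χ x * ‖nv χ x a‖ ^ 2) := by
      rw [Cal.dz_L]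
      simp only [map_mul, cal_σ, cal_E, cal_n, ev_cj, ev_co, norm_mul, mul_pow, RCLike.norm_conj]
      rw [← ofReal_one, ← ofReal_add, norm_real, norm_real, Real.norm_eq_abs, Real.norm_eq_abs,
        sq_abs, sq_abs, tt, kap]
      ring
    rw [e]
    exact mul_le_of_le_one_left (mul_nonneg (kap_pos hx).le (sq_nonneg _)) (tt_lt hx).le
  have h3 : ‖j1 (exh χ) x a‖ ≤ 5 * nw x a + ‖ev (dz a (cal h hU hx).L)‖ := by
    rw [j1_eq hs, h1, map_add, map_add, map_add, map_add, hyp_z]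
    refine (norm_add_le_of_le (norm_add_le_of_le (alf_le hx.1 a) (w_le hx.1 a)) le_rfl).trans ?_
    linarith
  have h4 := pot_lo h hU hA hx a
  have h5 := (abs_re_le_norm _).trans h3
  rw [fderiv_eq_j1 hs, met_eq hU (h.pot_smooth A) hx, mul_pow, ← sq_abs (re _)]
  nlinarith [mul_self_le_mul_self (abs_nonneg _) h5, nw_nonneg x a,
    sq_nonneg (5 * nw x a - ‖ev (dz a (cal h hU hx).L)‖), sq_nonneg ‖ev (dz a (cal h hU hx).L)‖]

theorem counterexample : ∃ (U : Set (Cn 3)) (g : Met 3) (Γ : Cn 3 → Cn 3 → Cn 3 → Cn 3),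
    IsOpen U ∧ IsConnected U ∧ SimplyConnectedSpace U ∧ IsKahlerOn U g ∧ IsLeviCivitaOn U g Γ ∧
      (∀ a b, ContDiffOn ℝ ∞ (fun x => Γ x a b) U) ∧
      GeodComplete U Γ ∧ Pinched U g Γ ∧ ¬ BiholBounded U := by
  obtain ⟨G, K, hG⟩ := exists_bump 80000
  have hT : (2 : ℝ) ≤ 3600 * K + 100 := by linarith [hG.K0]
  have hN : 0 ≤ 6 + 4 * Real.log (3600 * K + 100) := by
    have := Real.log_nonneg (one_le_two.trans hT)
    linarith
  obtain ⟨Λ, h⟩ := good_wt hG hT hN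
  have h := h.mono (le_max_left Λ 1)
  obtain ⟨A, hA, hP⟩ := pinched_pot h (le_max_right Λ 1)
  have hU := h.isOpen
  have hK := kahler_pot h hU hA
  obtain ⟨Γ, hΓ, hL⟩ := exists_lc hU hK.riem
  refine ⟨_, _, _, hU, h.simplyConnected.1, h.simplyConnected.2, hK, hL,
    fun a b => (hΓ.clm_apply contDiffOn_const).clm_apply contDiffOn_const,
    geodComplete_of hU hK.riem hΓ hL (h.exh_smooth.differentiableOn (by simp)) (exh_grad h hA)
      h.isCompact, hP Γ hΓ hL, fun hB => ?_⟩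
  obtain ⟨J, C, hJ⟩ := exists_jac hU hB
  exact no_jac hG le_rfl le_rfl J C hJ

end

end Vale.Agent.P250
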