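import Vale.Agent.P250.PinchAux

/-! The pinching inequality. -/

namespace Vale.Agent.P250

open scoped ContDiff ComplexConjugate
open Complex

namespace Pinch

variable {V : Type} [AddCommGroup V] [Module ℂ V] {Λ A : ℝ} (d : PData V Λ A)

theorem hG : Herm d.G := comb d.ho d.hθ A d.s

theorem hμ : Herm d.μ :=
  ⟨fun a a' b => by simp only [PData.μ, map_add]; ring,
    fun c a b => by simp only [PData.μ, map_smul, smul_eq_mul]; ring,
    fun a b => by simp only [PData.μ, map_mul, conj_ofReal, conj_conj]; ring⟩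

/-- the form of the projections -/
noncomputable def U (a b : V) : ℂ := d.G (d.P a) (d.P b)

theorem hU : Herm (U d) :=
  ⟨fun a a' b => by simp only [U, map_add, (hG d).add],
    fun c a b => by simp only [U, map_smul, (hG d).smul], fun a b => (hG d).symm _ _⟩

/-- the mixed form -/
noncomputable def B (a b : V) : ℂ :=
  ((1 + 2 * d.s : ℝ) : ℂ) * d.θ a b + ((-(d.s * (1 + d.s)) : ℝ) : ℂ) * U d a b

theorem hB : Herm (B d) := comb d.hθ (hU d) _ _

/-- the complementary projection -/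
noncomputable def Q (z : V) : V := z - (d.s : ℂ) • d.P z

theorem GP (a b : V) : d.G (d.P a) b = d.θ a b := d.hP a b

theorem Gc (a b c : V) : d.G (d.cc a b) c = d.c3 a b c := d.hc a b c

theorem G_re (a b : V) : (d.G a b).re = A * (d.o a b).re + d.s * (d.θ a b).re := by
  simp only [PData.G, add_re, re_ofReal_mul]

theorem o0 (a : V) : 0 ≤ (d.o a a).re := by rw [d.hnn]; positivity

theorem θ0 (a : V) : 0 ≤ (d.θ a a).re := (o0 d a).trans (d.lo a)

theorem G_lo (a : V) : (A + d.s) * (d.o a a).re ≤ (d.G a a).re := by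
  rw [G_re]; linarith [mul_le_mul_of_nonneg_left (d.lo a) d.s0]

theorem G0 (hA : 0 ≤ A) (a : V) : 0 ≤ (d.G a a).re :=
  (mul_nonneg (add_nonneg hA d.s0) (o0 d a)).trans (G_lo d a)

theorem G_hi (hΛ : 1 ≤ Λ) (hA : 0 ≤ A) (a : V) :
    (d.G a a).re ≤ Λ * ((A + d.s) * (d.o a a).re) := by
  rw [G_re]
  linarith [mul_le_mul_of_nonneg_left (d.hi a) d.s0,
    mul_le_mul_of_nonneg_right hΛ (mul_nonneg hA (o0 d a))]

theorem G_hi' (hA : 0 ≤ A) (a : V) : (d.G a a).re ≤ (A + d.s) * (d.θ a a).re := by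
  rw [G_re]; linarith [mul_le_mul_of_nonneg_left (d.lo a) hA]

theorem G_lo' (hΛ : 1 ≤ Λ) (hA : 0 ≤ A) (a : V) :
    (A + d.s) * (d.θ a a).re ≤ Λ * (d.G a a).re := by
  rw [G_re]
  linarith [mul_le_mul_of_nonneg_left (d.hi a) hA,
    mul_le_mul_of_nonneg_right hΛ (mul_nonneg d.s0 (θ0 d a))]

theorem GQ (z y : V) : d.G (Q d z) y = A * d.o z y := by
  rw [Q, sub_left (hG d), (hG d).smul, GP, PData.G]; ring

theorem o_le (a b : V) : ‖d.o a b‖ ≤ d.nn a * d.nn b := by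
  have := cs_norm d.ho (o0 d) a b
  rw [d.hnn, d.hnn, ← mul_pow] at this
  exact (pow_le_pow_iff_left₀ (norm_nonneg _) (mul_nonneg (d.nn0 a) (d.nn0 b)) two_ne_zero).1 this

theorem nnQ (hA : 1 ≤ A) (z : V) : d.nn (Q d z) ≤ d.nn z := by
  have h1 := G_lo d (Q d z)
  rw [GQ, re_ofReal_mul, d.hnn] at h1
  have h2 := mul_le_mul_of_nonneg_left ((re_le_norm _).trans (o_le d z (Q d z)))
    (show 0 ≤ A by linarith)
  by_contra hc
  rw [not_le] at hc
  have h3 : 0 < d.nn (Q d z) := (d.nn0 z).trans_lt hc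
  have h4 : 0 < A * (d.nn (Q d z) * (d.nn (Q d z) - d.nn z)) := by
    have := sub_pos.2 hc
    positivity
  have h5 := mul_nonneg d.s0 (sq_nonneg (d.nn (Q d z)))
  linarith

theorem nn_cc (hΛ : 1 ≤ Λ) (hA : 1 ≤ A) (a b : V) :
    d.s * d.nn (d.cc a b) ≤ Λ * d.nn a * d.nn b := by
  have h1 := G_lo d (d.cc a b)
  rw [Gc, d.hnn] at h1
  have h2 := (re_le_norm _).trans (d.b3 a b (d.cc a b))
  have h0 := d.nn0 a
  have h0' := d.nn0 b
  rcases (d.nn0 (d.cc a b)).eq_or_lt with h | h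
  · rw [← h, mul_zero]; positivity
  · refine le_of_mul_le_mul_right ?_ h
    have : 0 ≤ A * d.nn (d.cc a b) ^ 2 := by positivity
    linarith

theorem U_eq (a : V) : (U d a a).re = (d.θ a (d.P a)).re := by rw [U, GP]

theorem U0 (hA : 0 ≤ A) (a : V) : 0 ≤ (U d a a).re := G0 d hA _

theorem sU_le (hA : 0 ≤ A) (a : V) : d.s * (U d a a).re ≤ (d.θ a a).re := by
  have h1 := θ0 d (Q d a)
  have h2 := G_re d (d.P a) (d.P a)
  have h3 := mul_nonneg hA (o0 d (d.P a))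
  change (U d a a).re = _ at h2
  rw [U_eq] at h2 ⊢
  simp only [Q, sub_left d.hθ, sub_right d.hθ, d.hθ.smul, smul_right d.hθ, conj_ofReal, sub_re,
    re_ofReal_mul, re_swap d.hθ a (d.P a)] at h1
  have h4 : d.s * (d.θ (d.P a) (d.P a)).re ≤ (d.θ a (d.P a)).re := by linarith
  linarith [mul_le_mul_of_nonneg_left h4 d.s0]

theorem U_hi (hΛ : 1 ≤ Λ) (hA : 1 ≤ A) (a : V) :
    (A + d.s) * (U d a a).re ≤ Λ * (d.θ a a).re := by
  have h1 := cs d.hθ (θ0 d) a (d.P a)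
  rw [← U_eq] at h1
  have h2 : (A + d.s) * (d.θ (d.P a) (d.P a)).re ≤ Λ * (U d a a).re :=
    G_lo' d hΛ (by linarith) (d.P a)
  have h3 := θ0 d a
  have s0 := d.s0
  rcases (U0 d (by linarith) a).eq_or_lt with h | h
  · rw [← h, mul_zero]; positivity
  · refine le_of_mul_le_mul_right ?_ h
    have h4 := mul_le_mul_of_nonneg_left h2 h3
    have h5 := mul_le_mul_of_nonneg_left (le_trans (le_add_of_nonneg_right (sq_nonneg _)) h1)
      (show 0 ≤ A + d.s by linarith)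
    linarith

theorem U_lo (hA : 0 ≤ A) (a : V) : (d.θ a a).re ≤ (A + d.s) * (U d a a).re := by
  have h1 := cs (hG d) (G0 d hA) (d.P a) a
  rw [GP] at h1
  change _ ≤ (U d a a).re * _ at h1
  have h2 := mul_le_mul_of_nonneg_left (G_hi' d hA a) (U0 d hA a)
  rcases (θ0 d a).eq_or_lt with h | h
  · rw [← h]; exact mul_nonneg (add_nonneg hA d.s0) (U0 d hA a)
  · refine le_of_mul_le_mul_right ?_ h
    linarith [sq_nonneg (d.θ a a).im]

theorem B_re (a b : V) :
    (B d a b).re = (1 + 2 * d.s) * (d.θ a b).re - d.s * (1 + d.s) * (U d a b).re := by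
  simp only [B, add_re, re_ofReal_mul]; ring

theorem B_im (a b : V) :
    (B d a b).im = (1 + 2 * d.s) * (d.θ a b).im - d.s * (1 + d.s) * (U d a b).im := by
  simp only [B, add_im, im_ofReal_mul]; ring

theorem B_lo (hΛ : 1 ≤ Λ) (hA : 4 * Λ ≤ A) (a : V) :
    (1 + d.s) * (d.o a a).re / 2 ≤ (B d a a).re := by
  have s0 := d.s0
  have h0 := θ0 d a
  have h1 := mul_le_mul_of_nonneg_left (d.lo a) (show 0 ≤ 1 + d.s by linarith)
  rw [B_re]
  rcases le_total 1 d.s with h | h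
  · have h2 := mul_le_mul_of_nonneg_left (sU_le d (by linarith) a) (show 0 ≤ 1 + d.s by linarith)
    have h3 := mul_le_mul_of_nonneg_right h h0
    linarith
  · have u0 := U0 d (by linarith) a
    have h2 := U_hi d hΛ (by linarith) a
    have h3 : Λ * (4 * (U d a a).re) ≤ Λ * (d.θ a a).re := by
      linarith [mul_le_mul_of_nonneg_right hA u0, mul_nonneg s0 u0]
    have h4 := le_of_mul_le_mul_left h3 (by linarith)
    have h5 : d.s * (U d a a).re ≤ (d.θ a a).re / 4 := by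
      linarith [mul_le_mul_of_nonneg_right h u0]
    have h6 := mul_le_mul_of_nonneg_left h5 (show 0 ≤ 1 + d.s by linarith)
    linarith [mul_nonneg s0 h0]

theorem B_hi (hA : 0 ≤ A) (a : V) : (B d a a).re ≤ 2 * Λ * ((1 + d.s) * (d.o a a).re) := by
  have s0 := d.s0
  have h1 := mul_le_mul_of_nonneg_left (d.hi a) (show 0 ≤ 1 + d.s by linarith)
  have h2 : 0 ≤ d.s * (1 + d.s) * (U d a a).re := mul_nonneg (by positivity) (U0 d hA a)
  rw [B_re]
  linarith [θ0 d a]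

/-- the error term -/
noncomputable def Er (x y z w : V) : ℂ :=
  d.s * d.c4 x y z w - d.s * (d.s * d.c3 x y (d.cc z w)) +
    (d.ν w * d.c3 x y (Q d z) + d.ν z * d.c3 x y (Q d w) +
      conj (d.ν y * d.c3 z w (Q d x)) + conj (d.ν x * d.c3 z w (Q d y)))

theorem c3_Q (a b c : V) : d.c3 a b (Q d c) = d.c3 a b c - d.s * d.c3 a b (d.P c) := by
  rw [Q, sub_eq_add_neg, ← neg_smul, d.c3_add', d.c3_smul', map_neg, conj_ofReal]; ring

theorem νν (y w : V) : conj (d.ν y) * d.ν w = d.s * (1 + d.s) * d.μ y w := by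
  have h : d.ξ * conj d.ξ = d.s * (1 + d.s) * d.κ := by
    rw [mul_conj, normSq_eq_norm_sq, d.hξ]; push_cast; ring
  simp only [PData.ν, PData.μ, map_mul, conj_conj]
  linear_combination (d.n y * conj (d.n w)) * h

theorem R_eq (x y z w : V) : d.R x y z w =
    ((A + d.s : ℝ) : ℂ) * X2 d.o x y z w + ((d.s * (1 + d.s) : ℝ) : ℂ) * X2 d.θ x y z w +
      X4 (B d) d.μ x y z w + X2 d.μ x y z w + Er d x y z w := by
  have e : ∀ a, d.G (d.P a) (d.cc z w) = conj (d.c3 z w (d.P a)) := fun a => by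
    rw [(hG d).symm, Gc]
  have e2 : d.μ x w * d.μ y z = d.μ x z * d.μ y w := by simp only [PData.μ]; ring
  simp only [PData.R, PData.γ, (hG d).add, add_right (hG d), (hG d).smul, smul_right (hG d),
    conj_conj, conj_ofReal, e, Gc, X2, X4, B, U, Er, c3_Q, map_mul, map_sub]
  push_cast
  linear_combination (-1 : ℂ) * e2 - d.G (d.P x) (d.P z) * νν d y w -
    d.G (d.P x) (d.P w) * νν d y z - d.G (d.P y) (d.P z) * νν d x w -
    d.G (d.P y) (d.P w) * νν d x z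

/-- the auxiliary vector -/
noncomputable def be (u v : V) : V := conj (d.n v) • u - conj (d.n u) • v

theorem quad_be {f : V → V → ℂ} (hf : Herm f) (u v : V) :
    d.κ * (f (be d u v) (be d u v)).re = (f u u).re * (d.μ v v).re + (f v v).re * (d.μ u u).re -
      2 * ((f u v).re * (d.μ u v).re) + 2 * ((f u v).im * (d.μ u v).im) := by
  rw [be, quad hf]
  simp only [PData.μ, normSq_apply, mul_re, mul_im, conj_re, conj_im, ofReal_re, ofReal_im]
  ring

theorem quad_be' {f : V → V → ℂ} (hf : Herm f) (u v : V) :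
    d.κ * (f (d.n v • u - d.n u • v) (d.n v • u - d.n u • v)).re =
      (f u u).re * (d.μ v v).re + (f v v).re * (d.μ u u).re -
      2 * ((f u v).re * (d.μ u v).re) - 2 * ((f u v).im * (d.μ u v).im) := by
  rw [quad hf]
  simp only [PData.μ, normSq_apply, mul_re, mul_im, conj_re, conj_im, ofReal_re, ofReal_im]
  ring

theorem μ_det (u v : V) :
    (d.μ u u).re * (d.μ v v).re = (d.μ u v).re ^ 2 + (d.μ u v).im ^ 2 := by
  simp only [PData.μ, mul_re, mul_im, conj_re, conj_im, ofReal_re, ofReal_im]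
  ring

theorem Er_le (hΛ : 1 ≤ Λ) (hA : 1 ≤ A) (u v : V) : |(Er d u v u v).re - (Er d u u v v).re| ≤
    20 * Λ ^ 2 * d.s * (d.nn u ^ 2 * d.nn v ^ 2) + (1 + d.s) * (d.κ * d.nn (be d u v) ^ 2) / 4 := by
  have s0 := d.s0
  have u0 := d.nn0 u
  have v0 := d.nn0 v
  have b0 := d.nn0 (be d u v)
  have Λ0 : 0 ≤ Λ := by linarith
  have e1 : ∀ b c, d.c3 (be d u v) b c = conj (d.n v) * d.c3 u b c - conj (d.n u) * d.c3 v b c :=
    fun b c => by rw [be, sub_eq_add_neg, ← neg_smul, d.c3_add, d.c3_smul, d.c3_smul]; ring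
  have e2 : (Er d u v u v).re - (Er d u u v v).re =
      d.s * ((d.c4 u v u v).re - (d.c4 u u v v).re) -
        d.s * ((d.s * d.c3 u v (d.cc u v)).re - (d.s * d.c3 u u (d.cc v v)).re) +
        2 * (d.ξ * (d.c3 (be d u v) v (Q d u) - d.c3 (be d u v) u (Q d v))).re := by
    have e3 : d.ξ * (d.c3 (be d u v) v (Q d u) - d.c3 (be d u v) u (Q d v)) =
        d.ν v * d.c3 u v (Q d u) + d.ν u * d.c3 u v (Q d v) - d.ν v * d.c3 u u (Q d v) -
          d.ν u * d.c3 v v (Q d u) := by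
      rw [e1, e1, d.c3_symm v u, PData.ν, PData.ν]; ring
    rw [e3]
    simp only [Er, add_re, sub_re, conj_re, re_ofReal_mul]
    ring
  have c4 : ∀ a b c e, |(d.c4 a b c e).re| ≤ Λ * d.nn a * d.nn b * d.nn c * d.nn e :=
    fun a b c e => (abs_re_le_norm _).trans (d.b4 a b c e)
  have c3 : ∀ a b c e, |(d.s * d.c3 a b (d.cc c e)).re| ≤
      Λ * d.nn a * d.nn b * (Λ * d.nn c * d.nn e) := fun a b c e => by
    have a0 := d.nn0 a
    have b0 := d.nn0 b
    refine (abs_re_le_norm _).trans ?_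
    rw [norm_mul, norm_real, Real.norm_of_nonneg s0]
    calc _ ≤ d.s * (Λ * d.nn a * d.nn b * d.nn (d.cc c e)) :=
          mul_le_mul_of_nonneg_left (d.b3 _ _ _) s0
      _ = Λ * d.nn a * d.nn b * (d.s * d.nn (d.cc c e)) := by ring
      _ ≤ _ := mul_le_mul_of_nonneg_left (nn_cc d hΛ hA c e) (by positivity)
  have cQ : ∀ a b, ‖d.c3 (be d u v) a (Q d b)‖ ≤ Λ * d.nn (be d u v) * d.nn a * d.nn b :=
    fun a b => by
      have a0 := d.nn0 a
      exact (d.b3 _ _ _).trans (mul_le_mul_of_nonneg_left (nnQ d hA b) (by positivity))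
  have k1 : |(d.ξ * (d.c3 (be d u v) v (Q d u) - d.c3 (be d u v) u (Q d v))).re| ≤
      (‖d.ξ‖ * d.nn (be d u v)) * (2 * Λ * (d.nn u * d.nn v)) := by
    refine (abs_re_le_norm _).trans ?_
    rw [norm_mul, mul_assoc]
    refine mul_le_mul_of_nonneg_left ((norm_sub_le _ _).trans ?_) (norm_nonneg _)
    linarith [cQ v u, cQ u v]
  have k2 : 2 * ((‖d.ξ‖ * d.nn (be d u v)) * (2 * Λ * (d.nn u * d.nn v))) ≤
      16 * Λ ^ 2 * d.s * (d.nn u ^ 2 * d.nn v ^ 2) +
        (1 + d.s) * (d.κ * d.nn (be d u v) ^ 2) / 4 := by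
    have κ0 := d.κ0
    refine abs_le_of_sq_le_sq' ?_ (by positivity) |>.2
    have : (2 * ((‖d.ξ‖ * d.nn (be d u v)) * (2 * Λ * (d.nn u * d.nn v)))) ^ 2 =
        4 * (16 * Λ ^ 2 * d.s * (d.nn u ^ 2 * d.nn v ^ 2)) *
          ((1 + d.s) * (d.κ * d.nn (be d u v) ^ 2) / 4) := by
      linear_combination (16 * Λ ^ 2 * d.nn (be d u v) ^ 2 * d.nn u ^ 2 * d.nn v ^ 2) * d.hξ
    rw [this]
    exact four_mul_le_sq_add _ _
  have L : Λ * (d.nn u ^ 2 * d.nn v ^ 2) ≤ Λ ^ 2 * (d.nn u ^ 2 * d.nn v ^ 2) :=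
    mul_le_mul_of_nonneg_right (by nlinarith) (by positivity)
  have k3 : |(d.c4 u v u v).re - (d.c4 u u v v).re| ≤ 2 * (Λ ^ 2 * (d.nn u ^ 2 * d.nn v ^ 2)) :=
    (abs_sub _ _).trans (by linarith [c4 u v u v, c4 u u v v])
  have k4 : |(d.s * d.c3 u v (d.cc u v)).re - (d.s * d.c3 u u (d.cc v v)).re| ≤
      2 * (Λ ^ 2 * (d.nn u ^ 2 * d.nn v ^ 2)) :=
    (abs_sub _ _).trans (by linarith [c3 u v u v, c3 u u v v])
  rw [e2]
  obtain ⟨k1a, k1b⟩ := abs_le.1 k1
  obtain ⟨k3a, k3b⟩ := abs_le.1 k3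
  obtain ⟨k4a, k4b⟩ := abs_le.1 k4
  have m1 := mul_le_mul_of_nonneg_left k3a s0
  have m2 := mul_le_mul_of_nonneg_left k3b s0
  have m3 := mul_le_mul_of_nonneg_left k4a s0
  have m4 := mul_le_mul_of_nonneg_left k4b s0
  rw [abs_le]
  constructor <;> linarith

theorem Z_bound (hA : 1 ≤ A) (u v : V) :
    (1 + d.s) * (d.s * (d.s / (A + d.s)) - 1) *
        ((d.θ u u).re * (d.θ v v).re - (d.θ u v).re ^ 2) ≤
      d.s * (1 + d.s) * ((d.θ u u).re * (d.θ v v).re - (d.θ u v).re ^ 2 + 3 * (d.θ u v).im ^ 2) -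
        (B d u v).im ^ 2 ∧
      (B d u v).im ^ 2 ≤ (2 * d.s + 1) ^ 2 * ((d.θ u u).re * (d.θ v v).re - (d.θ u v).re ^ 2) := by
  have s0 := d.s0
  have S0 : 0 < A + d.s := by linarith
  set p := d.s / (A + d.s) with hp
  have p0 : 0 ≤ p := by positivity
  have p1 : p < 1 := by rw [hp, div_lt_one S0]; linarith
  have hC := comb (hU d) d.hθ d.s (-p)
  have hC' := comb d.hθ (hU d) 1 (-d.s)
  have C0 : ∀ a, 0 ≤ ((d.s : ℂ) * U d a a + ((-p : ℝ) : ℂ) * d.θ a a).re := fun a => by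
    simp only [add_re, re_ofReal_mul]
    have h1 := mul_le_mul_of_nonneg_left (U_lo d (by linarith) a) p0
    rw [← mul_assoc, hp, div_mul_cancel₀ _ S0.ne'] at h1
    linarith
  have C1 : ∀ a, 0 ≤ (((1 : ℝ) : ℂ) * d.θ a a + ((-d.s : ℝ) : ℂ) * U d a a).re := fun a => by
    simp only [add_re, re_ofReal_mul]
    linarith [sU_le d (by linarith) a]
  have key := key_real (C0 u) (C0 v) (C1 u) (C1 v) (cs hC C0 u v) (cs hC' C1 u v)
  simp only [add_re, re_ofReal_mul, add_im, im_ofReal_mul] at key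
  have := zbound (s := d.s) (r := 1 - p) (t := (d.θ u v).im)
    (y := (d.θ u v).im - d.s * (U d u v).im)
    (ρ := (d.θ u u).re * (d.θ v v).re - (d.θ u v).re ^ 2) s0 (by linarith) (by linarith)
    (by linarith [cs d.hθ (θ0 d) u v]) (by linarith)
  have e : (B d u v).im = d.s * (d.θ u v).im + (1 + d.s) * ((d.θ u v).im - d.s * (U d u v).im) := by
    rw [B_im]; ring
  rw [e]
  rwa [sub_sub_cancel] at this

end Pinch

open Pinch in
theorem pinch {Λ : ℝ} (hΛ : 1 ≤ Λ) : ∃ A a b : ℝ, 1 ≤ A ∧ 0 < a ∧ a ≤ b ∧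
    ∀ (V : Type) [AddCommGroup V] [Module ℂ V] (d : PData V Λ A) (u v : V), (d.o u v).re = 0 →
      a * (d.T u u * d.T v v - d.T u v ^ 2) ≤ (d.R u v u v).re - (d.R u u v v).re ∧
      (d.R u v u v).re - (d.R u u v v).re ≤ b * (d.T u u * d.T v v - d.T u v ^ 2) := by
  have L2 : 1 ≤ Λ ^ 2 := one_le_pow₀ hΛ
  have L3 : Λ ≤ Λ ^ 2 := by nlinarith
  obtain ⟨A, hA⟩ : ∃ A : ℝ, A = 8 * (21 * Λ ^ 2) ^ 2 * (1 + 4 * (21 * Λ ^ 2)) := ⟨_, rfl⟩
  have A4 : 4 * Λ ≤ A := by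
    have h1 : 1 ≤ (21 * Λ ^ 2) ^ 2 := one_le_pow₀ (by linarith)
    have h2 := mul_le_mul_of_nonneg_right h1 (show 0 ≤ 1 + 4 * (21 * Λ ^ 2) by positivity)
    rw [hA]; linarith
  have A1 : 1 ≤ A := by linarith
  have A0 : 0 ≤ A := by linarith
  refine ⟨A, (48 * A * Λ ^ 2)⁻¹, 36 * Λ ^ 2, A1, by positivity, ?_, fun V _ _ d u v huv => ?_⟩
  · have h1 : 1 ≤ A * Λ ^ 2 := one_le_mul_of_one_le_of_one_le A1 L2
    exact (inv_le_one_of_one_le₀ (by linarith)).trans (by linarith)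
  have s0 := d.s0
  have κ0 := d.κ0
  have eN : (d.R u v u v).re - (d.R u u v v).re =
      (A + d.s) * (d.nn u ^ 2 * d.nn v ^ 2 + 3 * (d.o u v).im ^ 2) + d.s * (1 + d.s) *
        ((d.θ u u).re * (d.θ v v).re - (d.θ u v).re ^ 2 + 3 * (d.θ u v).im ^ 2) +
        (d.κ * (B d (be d u v) (be d u v)).re + 4 * ((B d u v).im * (d.μ u v).im)) +
        4 * (d.μ u v).im ^ 2 + ((Er d u v u v).re - (Er d u u v v).re) := by
    have h1 := n2 d.ho u v
    rw [huv, d.hnn, d.hnn] at h1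
    have h2 := n2 d.hθ u v
    have h3 := n4 (hB d) (hμ d) u v
    have h4 := n2 (hμ d) u v
    have h5 := quad_be d (hB d) u v
    have h6 := μ_det d u v
    simp only [R_eq, add_re, re_ofReal_mul]
    linear_combination (A + d.s) * h1 + d.s * (1 + d.s) * h2 + h3 + h4 - h5 + h6
  have eW : d.T u u * d.T v v - d.T u v ^ 2 =
      ((d.G u u).re * (d.G v v).re - (d.G u v).re ^ 2) + ((d.G u u).re * (d.μ v v).re +
        (d.G v v).re * (d.μ u u).re - 2 * ((d.G u v).re * (d.μ u v).re)) + (d.μ u v).im ^ 2 := by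
    simp only [PData.T, add_re]
    linear_combination μ_det d u v
  have n0 : 0 ≤ d.nn u ^ 2 * d.nn v ^ 2 := by positivity
  have b0 : 0 ≤ d.κ * d.nn (be d u v) ^ 2 := by positivity
  obtain ⟨Z1, Z2⟩ := Z_bound d A1 u v
  have E1 := Er_le d hΛ A1 u v
  have ρ2 : (d.θ u u).re * (d.θ v v).re - (d.θ u v).re ^ 2 ≤ Λ ^ 2 * (d.nn u ^ 2 * d.nn v ^ 2) := by
    have := mul_le_mul (d.hi u) (d.hi v) (θ0 d v) ((θ0 d u).trans (d.hi u))
    rw [d.hnn, d.hnn] at this
    linarith [sq_nonneg (d.θ u v).re]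
  have M1 := quad_be d (hG d) u v
  rw [eN, eW]
  constructor
  · refine final1 hΛ A1 s0 n0 b0 (p := d.s * (d.s / (A + d.s))) (by positivity)
      (coef (by linarith) hA s0) ?_ ρ2 ?_ Z1 Z2 E1 ?_ ?_ M1 ?_
    · have := det_mono d.hθ d.ho (o0 d) zero_le_one (fun a => by rw [one_mul]; exact d.lo a) huv
      rwa [d.hnn, d.hnn, one_pow, one_mul] at this
    · have := mul_le_mul_of_nonneg_left (B_lo d hΛ A4 (be d u v)) κ0
      rw [d.hnn] at this
      linarith
    · have := mul_le_mul (G_hi d hΛ A0 u) (G_hi d hΛ A0 v) (G0 d A0 v)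
        ((G0 d A0 u).trans (G_hi d hΛ A0 u))
      rw [d.hnn, d.hnn] at this
      linarith [sq_nonneg (d.G u v).re]
    · have := mul_le_mul_of_nonneg_left (G_hi d hΛ A0 (be d u v)) κ0
      rw [d.hnn] at this
      linarith
    · linarith [cs (hG d) (G0 d A0) u v]
  · refine final2 hΛ A1 s0 n0 b0 ?_ ?_ ρ2 ?_ Z2 E1 ?_ ?_ M1 ?_
    · have := cs d.ho (o0 d) u v
      rw [d.hnn, d.hnn] at this
      linarith [sq_nonneg (d.o u v).re]
    · linarith [cs d.hθ (θ0 d) u v]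
    · have := mul_le_mul_of_nonneg_left (B_hi d A0 (be d u v)) κ0
      rw [d.hnn] at this
      linarith
    · have := det_mono (hG d) d.ho (o0 d) (add_nonneg A0 s0) (G_lo d) huv
      rwa [d.hnn, d.hnn] at this
    · have := mul_le_mul_of_nonneg_left (G_lo d (be d u v)) κ0
      rw [d.hnn] at this
      linarith
    · have := mul_nonneg κ0 (G0 d A0 (d.n v • u - d.n u • v))
      rw [quad_be' d (hG d)] at this
      linarith

end Vale.Agent.P250
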