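import Vale.Agent.P250.Base

/-! Hermitian forms and real inequalities for the pinching estimate. -/

namespace Vale.Agent.P250.Pinch

open scoped ComplexConjugate
open Complex

section herm

variable {V : Type} [AddCommGroup V] [Module ℂ V] {f g : V → V → ℂ}

theorem add_right (h : Herm f) (a b b' : V) : f a (b + b') = f a b + f a b' := by
  rw [h.symm, h.add, map_add, ← h.symm, ← h.symm]

theorem smul_right (h : Herm f) (c : ℂ) (a b : V) : f a (c • b) = conj c * f a b := by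
  rw [h.symm, h.smul, map_mul, ← h.symm]

theorem sub_left (h : Herm f) (a a' b : V) : f (a - a') b = f a b - f a' b := by
  rw [sub_eq_add_neg, ← neg_one_smul ℂ a', h.add, h.smul]; ring

theorem sub_right (h : Herm f) (a b b' : V) : f a (b - b') = f a b - f a b' := by
  rw [h.symm, sub_left h, map_sub, ← h.symm, ← h.symm]

theorem im_self (h : Herm f) (a : V) : (f a a).im = 0 := by
  have := congrArg Complex.im (h.symm a a)
  rw [conj_im] at this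
  linarith

theorem re_swap (h : Herm f) (a b : V) : (f b a).re = (f a b).re := by rw [h.symm, conj_re]

theorem im_swap (h : Herm f) (a b : V) : (f b a).im = -(f a b).im := by rw [h.symm, conj_im]

theorem comb (hf : Herm f) (hg : Herm g) (r t : ℝ) : Herm fun a b => r * f a b + t * g a b :=
  ⟨fun a a' b => by rw [hf.add, hg.add]; ring, fun c a b => by rw [hf.smul, hg.smul]; ring,
    fun a b => by rw [hf.symm, hg.symm]; simp⟩

theorem quad (h : Herm f) (α β : ℂ) (u v : V) : (f (α • u - β • v) (α • u - β • v)).re =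
    normSq α * (f u u).re + normSq β * (f v v).re - 2 * (α * conj β * f u v).re := by
  simp only [sub_left h, sub_right h, h.smul, smul_right h, sub_re, mul_re, mul_im, conj_re,
    conj_im, normSq_apply, im_self h, re_swap h u v, im_swap h u v]
  ring

theorem cs (h : Herm f) (h0 : ∀ a, 0 ≤ (f a a).re) (u v : V) :
    (f u v).re ^ 2 + (f u v).im ^ 2 ≤ (f u u).re * (f v v).re := by
  set c := (f u v).re ^ 2 + (f u v).im ^ 2 with hc
  have h1 : ∀ t : ℝ, 0 ≤ (f u u).re * (t * t) + -(2 * c) * t + c * (f v v).re := fun t => by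
    have := h0 ((t : ℂ) • u - f u v • v)
    rw [quad h] at this
    simp only [normSq_apply, mul_re, mul_im, conj_re, conj_im, ofReal_re, ofReal_im] at this
    refine this.trans_eq ?_
    rw [hc]; ring
  have h2 := discrim_le_zero h1
  rw [discrim] at h2
  have c0 : 0 ≤ c := by positivity
  rcases c0.eq_or_lt with h3 | h3
  · rw [← h3]; exact mul_nonneg (h0 u) (h0 v)
  · nlinarith

theorem cs_norm (h : Herm f) (h0 : ∀ a, 0 ≤ (f a a).re) (u v : V) :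
    ‖f u v‖ ^ 2 ≤ (f u u).re * (f v v).re := by
  rw [Complex.sq_norm, normSq_apply]
  nlinarith [cs h h0 u v]

theorem det_mono (hf : Herm f) (hg : Herm g) (g0 : ∀ a, 0 ≤ (g a a).re) {r : ℝ} (hr : 0 ≤ r)
    (h : ∀ a, r * (g a a).re ≤ (f a a).re) {u v : V} (huv : (g u v).re = 0) :
    r ^ 2 * ((g u u).re * (g v v).re) ≤ (f u u).re * (f v v).re - (f u v).re ^ 2 := by
  have h1 := cs (comb hf hg 1 (-r)) (fun a => by
    simp only [add_re, re_ofReal_mul]; linarith [h a]) u v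
  simp only [add_re, re_ofReal_mul, huv, mul_zero, add_zero, one_mul] at h1
  have a1 := mul_nonneg (mul_nonneg hr (g0 u)) (sub_nonneg.2 (h v))
  have a2 := mul_nonneg (mul_nonneg hr (g0 v)) (sub_nonneg.2 (h u))
  nlinarith [sq_nonneg ((1 : ℝ) * f u v + (-r : ℝ) * g u v).im]

theorem key_real {a b a' b' c1 c2 d1 d2 : ℝ} (ha : 0 ≤ a) (hb : 0 ≤ b) (ha' : 0 ≤ a')
    (hb' : 0 ≤ b') (h : c1 ^ 2 + c2 ^ 2 ≤ a * b) (h' : d1 ^ 2 + d2 ^ 2 ≤ a' * b') :
    -4 * (c2 * d2) ≤ (a + a') * (b + b') - (c1 + d1) ^ 2 - (c2 + d2) ^ 2 := by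
  have h1 : (2 * (c1 * d1 - c2 * d2)) ^ 2 ≤ (a * b' + b * a') ^ 2 := by
    have e1 : (c1 ^ 2 + c2 ^ 2) * (d1 ^ 2 + d2 ^ 2) ≤ a * b * (a' * b') :=
      mul_le_mul h h' (by positivity) (by positivity)
    nlinarith [sq_nonneg (c1 * d2 + c2 * d1), sq_nonneg (a * b' - b * a')]
  have h2 := (abs_le_of_sq_le_sq' h1 (by positivity)).2
  nlinarith

/-- two-term product -/
def X2 (f : V → V → ℂ) (x y z w : V) : ℂ := f x z * f y w + f x w * f y z

/-- four-term product -/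
def X4 (f g : V → V → ℂ) (x y z w : V) : ℂ :=
  f x z * g y w + f x w * g y z + f y z * g x w + f y w * g x z

theorem n2 (h : Herm f) (u v : V) : (X2 f u v u v).re - (X2 f u u v v).re =
    (f u u).re * (f v v).re - (f u v).re ^ 2 + 3 * (f u v).im ^ 2 := by
  simp only [X2, add_re, mul_re, im_self h, re_swap h u v, im_swap h u v]
  ring

theorem n4 (hf : Herm f) (hg : Herm g) (u v : V) : (X4 f g u v u v).re - (X4 f g u u v v).re =
    (f u u).re * (g v v).re + (f v v).re * (g u u).re - 2 * ((f u v).re * (g u v).re) +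
      6 * ((f u v).im * (g u v).im) := by
  simp only [X4, add_re, mul_re, im_self hf, im_self hg, re_swap hf u v, im_swap hf u v,
    re_swap hg u v, im_swap hg u v]
  ring

end herm

theorem zbound {s r t y ρ : ℝ} (hs : 0 ≤ s) (r0 : 0 < r) (r1 : r ≤ 1) (ht : t ^ 2 ≤ ρ)
    (hy : -4 * ((r * t - y) * y) ≤ r ^ 2 * (ρ - t ^ 2)) :
    (1 + s) * (s * (1 - r) - 1) * ρ ≤ s * (1 + s) * (ρ + 3 * t ^ 2) - (s * t + (1 + s) * y) ^ 2 ∧
      (s * t + (1 + s) * y) ^ 2 ≤ (2 * s + 1) ^ 2 * ρ := by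
  have ρ0 : 0 ≤ ρ := (sq_nonneg t).trans ht
  obtain ⟨w, hw⟩ : ∃ w, y = r * (t + w) / 2 := ⟨2 * y / r - t, by field_simp; ring⟩
  have w1 : w ^ 2 ≤ ρ := by
    have : r ^ 2 * w ^ 2 ≤ r ^ 2 * ρ := by rw [hw] at hy; nlinarith
    exact le_of_mul_le_mul_left this (by positivity)
  set β := (1 + s) * r / 2 with hβ
  have β0 : 0 ≤ β := by positivity
  have β1 : β ≤ (1 + s) / 2 := by rw [hβ]; nlinarith
  have e : s * t + (1 + s) * y = (s + β) * t + β * w := by rw [hw, hβ]; ring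
  have h1 : ((s + β) * t + β * w) ^ 2 ≤ (s + β) * (s + 2 * β) * t ^ 2 + β * (s + 2 * β) * ρ := by
    have a1 : 0 ≤ (s + β) * β * (t - w) ^ 2 := by positivity
    have a2 : β * (s + 2 * β) * w ^ 2 ≤ β * (s + 2 * β) * ρ :=
      mul_le_mul_of_nonneg_left w1 (by positivity)
    nlinarith
  rw [e]
  constructor
  · have a1 : β * (s + 2 * β) ≤ (1 + s) * (r * s + 1 / 2) := by
      have : r * (s + (1 + s) * r) / 2 ≤ r * s + 1 / 2 := by
        nlinarith [mul_nonneg hs r0.le, mul_nonneg (mul_nonneg hs r0.le) (sub_nonneg.2 r1)]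
      calc β * (s + 2 * β) = (1 + s) * (r * (s + (1 + s) * r) / 2) := by rw [hβ]; ring
        _ ≤ _ := mul_le_mul_of_nonneg_left this (by positivity)
    have a2 : (s + β) * (s + 2 * β) ≤ 3 * (s * (1 + s)) + 1 / 2 := by
      have : (s + β) * (s + 2 * β) ≤ (s + (1 + s) / 2) * (s + (1 + s)) :=
        mul_le_mul (by linarith) (by linarith) (by positivity) (by positivity)
      nlinarith
    have a3 := mul_le_mul_of_nonneg_right a1 ρ0
    have a4 := mul_le_mul_of_nonneg_right a2 (sq_nonneg t)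
    nlinarith [mul_nonneg hs ρ0]
  · have a1 : (s + β) * (s + 2 * β) * t ^ 2 ≤ (s + β) * (s + 2 * β) * ρ :=
      mul_le_mul_of_nonneg_left ht (by positivity)
    have a2 : (s + 2 * β) ^ 2 ≤ (2 * s + 1) ^ 2 :=
      pow_le_pow_left₀ (by positivity) (by linarith) 2
    have a3 := mul_le_mul_of_nonneg_right a2 ρ0
    nlinarith

theorem coef {c A s : ℝ} (hc : 1 ≤ c) (hA : A = 8 * c ^ 2 * (1 + 4 * c)) (hs : 0 ≤ s) :
    (A + s) ^ 2 ≤ 8 * A * (A + (1 + s) * (s * (s / (A + s))) - c * (1 + s)) := by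
  have A1 : 4 * c ≤ A := by rw [hA]; nlinarith [mul_nonneg (sub_nonneg.2 hc) (sq_nonneg c)]
  have A0 : 0 < A := by linarith
  have S0 : 0 < A + s := by linarith
  rcases le_total (4 * c * s) A with h | h
  · have a1 : 0 ≤ (1 + s) * (s * (s / (A + s))) := by positivity
    have a2 : s ≤ A := by nlinarith
    have a3 : A / 2 ≤ A + (1 + s) * (s * (s / (A + s))) - c * (1 + s) := by linarith
    nlinarith [mul_le_mul_of_nonneg_left a3 A0.le]
  · set k := 1 + 4 * c with hk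
    have k0 : 0 < k := by linarith
    have a1 : A + s ≤ k * s := by rw [hk]; linarith
    have a2 : s ≤ k * (s * (s / (A + s))) := by
      rw [← mul_assoc, mul_div_assoc', le_div_iff₀ S0]
      nlinarith
    set p := s * (s / (A + s)) with hp
    have a3 : 2 * c ≤ p := by
      have b1 : 4 * c * k * (2 * c) ≤ 4 * c * k * p := by
        have := mul_le_mul_of_nonneg_left a2 (show 0 ≤ 4 * c by linarith)
        nlinarith
      exact le_of_mul_le_mul_left b1 (by positivity)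
    have a4 : s * p / 2 ≤ A + (1 + s) * p - c * (1 + s) := by nlinarith
    have a5 : (A + s) ^ 2 ≤ k ^ 2 * (s * (k * p)) := by
      have b1 := pow_le_pow_left₀ S0.le a1 2
      have b2 := mul_le_mul_of_nonneg_left a2 (show 0 ≤ k ^ 2 * s by positivity)
      nlinarith
    have a6 : k ^ 3 ≤ 4 * A := by
      have : k ^ 2 ≤ 32 * c ^ 2 := by rw [hk]; nlinarith
      rw [hA]; nlinarith
    have p0 : 0 ≤ s * p := mul_nonneg hs (by linarith)
    have a7 := mul_le_mul_of_nonneg_right a6 p0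
    have a8 := mul_le_mul_of_nonneg_left a4 (show 0 ≤ 8 * A by positivity)
    nlinarith

theorem zsq {Λ A s n ρ Z : ℝ} (hA : 1 ≤ A) (hs : 0 ≤ s) (ρ0 : 0 ≤ ρ) (ρ2 : ρ ≤ Λ ^ 2 * n)
    (Z2 : Z ^ 2 ≤ (2 * s + 1) ^ 2 * ρ) : Z ^ 2 ≤ 4 * (Λ ^ 2 * ((A + s) ^ 2 * n)) := by
  have a1 : (2 * s + 1) ^ 2 ≤ (2 * (A + s)) ^ 2 := pow_le_pow_left₀ (by positivity) (by linarith) 2
  calc Z ^ 2 ≤ (2 * (A + s)) ^ 2 * (Λ ^ 2 * n) := Z2.trans (mul_le_mul a1 ρ2 ρ0 (by positivity))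
    _ = _ := by ring

theorem final1 {Λ A s n b o2 ρ t kB Z h Err WG kG Mx G2 p : ℝ} (hΛ : 1 ≤ Λ) (hA : 1 ≤ A)
    (hs : 0 ≤ s) (n0 : 0 ≤ n) (b0 : 0 ≤ b) (p0 : 0 ≤ p)
    (hco : (A + s) ^ 2 ≤ 8 * A * (A + (1 + s) * p - 21 * Λ ^ 2 * (1 + s)))
    (ρ1 : n ≤ ρ) (ρ2 : ρ ≤ Λ ^ 2 * n) (B1 : (1 + s) * b / 2 ≤ kB)
    (Z1 : (1 + s) * (p - 1) * ρ ≤ s * (1 + s) * (ρ + 3 * t ^ 2) - Z ^ 2)
    (Z2 : Z ^ 2 ≤ (2 * s + 1) ^ 2 * ρ) (E1 : |Err| ≤ 20 * Λ ^ 2 * s * n + (1 + s) * b / 4)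
    (W2 : WG ≤ Λ ^ 2 * ((A + s) ^ 2 * n)) (G3 : kG ≤ Λ * ((A + s) * b))
    (M1 : kG = Mx + 2 * (G2 * h)) (M3 : G2 ^ 2 ≤ WG) :
    (48 * A * Λ ^ 2)⁻¹ * (WG + Mx + h ^ 2) ≤ (A + s) * (n + 3 * o2 ^ 2) +
        s * (1 + s) * (ρ + 3 * t ^ 2) + (kB + 4 * (Z * h)) + 4 * h ^ 2 + Err := by
  obtain ⟨E2, -⟩ := abs_le.1 E1
  have L2 : 1 ≤ Λ ^ 2 := one_le_pow₀ hΛ
  have L3 : Λ ≤ Λ ^ 2 := by nlinarith
  have Z3 := zsq hA hs (n0.trans ρ1) ρ2 Z2
  have Y0 : 0 ≤ (1 + s) * b := by positivity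
  rw [inv_mul_le_iff₀ (by positivity)]
  have a1 : (A + (1 + s) * p - 21 * Λ ^ 2 * (1 + s)) * n + (1 + s) * b / 4 + 4 * (h + Z / 2) ^ 2 ≤
      (A + s) * (n + 3 * o2 ^ 2) + s * (1 + s) * (ρ + 3 * t ^ 2) + (kB + 4 * (Z * h)) +
        4 * h ^ 2 + Err := by
    have b1 := mul_le_mul_of_nonneg_left ρ1 (show 0 ≤ (1 + s) * p by positivity)
    have b2 := mul_le_mul_of_nonneg_left ρ2 (show 0 ≤ 1 + s by positivity)
    have b3 : 0 ≤ (A + s) * o2 ^ 2 := by positivity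
    have b4 : 0 ≤ s * n := by positivity
    have b5 : 0 ≤ Λ ^ 2 * n := by positivity
    linarith
  have a2 := mul_le_mul_of_nonneg_right hco n0
  have a3 : kG ≤ A * Λ ^ 2 * ((1 + s) * b) := by
    have b1 : (A + s) * b ≤ A * (1 + s) * b :=
      mul_le_mul_of_nonneg_right (by nlinarith) b0
    have b2 := mul_le_mul L3 b1 (by positivity) (by positivity)
    linarith
  have a4 : WG + Mx + h ^ 2 ≤ 6 * (Λ ^ 2 * ((A + s) ^ 2 * n)) + kG + 4 * (h + Z / 2) ^ 2 := by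
    linarith [sq_nonneg (G2 + h), sq_nonneg (h + Z)]
  have a5 := mul_le_mul_of_nonneg_left a1 (show 0 ≤ 48 * A * Λ ^ 2 by positivity)
  have a6 := mul_le_mul_of_nonneg_left a2 (show 0 ≤ 6 * Λ ^ 2 by positivity)
  have a7 : 1 ≤ A * Λ ^ 2 := one_le_mul_of_one_le_of_one_le hA L2
  have a8 := mul_le_mul_of_nonneg_right a7 (sq_nonneg (h + Z / 2))
  have a9 : 0 ≤ A * Λ ^ 2 * ((1 + s) * b) := by positivity
  refine le_trans ?_ a5
  generalize (A + (1 + s) * p - 21 * Λ ^ 2 * (1 + s)) = c at a6 ⊢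
  have a10 := sq_nonneg (h + Z / 2)
  generalize (h + Z / 2) ^ 2 = e at a4 a8 a10 ⊢
  generalize (1 + s) * b = Y at a3 a9 ⊢
  generalize (A + s) ^ 2 = X at a4 a6
  linarith

theorem final2 {Λ A s n b o2 ρ t kB Z h Err WG kG Mx G2 : ℝ} (hΛ : 1 ≤ Λ) (hA : 1 ≤ A)
    (hs : 0 ≤ s) (n0 : 0 ≤ n) (b0 : 0 ≤ b)
    (ho : o2 ^ 2 ≤ n) (ht : t ^ 2 ≤ ρ) (ρ2 : ρ ≤ Λ ^ 2 * n) (B2 : kB ≤ 2 * Λ * ((1 + s) * b))
    (Z2 : Z ^ 2 ≤ (2 * s + 1) ^ 2 * ρ) (E1 : |Err| ≤ 20 * Λ ^ 2 * s * n + (1 + s) * b / 4)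
    (W1 : (A + s) ^ 2 * n ≤ WG) (G1 : (A + s) * b ≤ kG) (M1 : kG = Mx + 2 * (G2 * h))
    (M2 : 2 * (G2 * h) ≤ Mx) :
    (A + s) * (n + 3 * o2 ^ 2) + s * (1 + s) * (ρ + 3 * t ^ 2) + (kB + 4 * (Z * h)) +
        4 * h ^ 2 + Err ≤ 36 * Λ ^ 2 * (WG + Mx + h ^ 2) := by
  obtain ⟨-, E3⟩ := abs_le.1 E1
  have L2 : 1 ≤ Λ ^ 2 := one_le_pow₀ hΛ
  have L3 : Λ ≤ Λ ^ 2 := by nlinarith
  have Z3 := zsq hA hs ((sq_nonneg t).trans ht) ρ2 Z2
  have Y0 : 0 ≤ (1 + s) * b := by positivity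
  have X0 : 0 ≤ (A + s) ^ 2 * n := by positivity
  have S1 : 1 ≤ A + s := by linarith
  have a0 : (A + s) * n ≤ (A + s) ^ 2 * n := mul_le_mul_of_nonneg_right (by nlinarith) n0
  have a1 : (A + s) * (n + 3 * o2 ^ 2) ≤ 4 * (Λ ^ 2 * ((A + s) ^ 2 * n)) := by
    have b1 := mul_le_mul_of_nonneg_left ho (show 0 ≤ A + s by positivity)
    have b2 := mul_le_mul_of_nonneg_right L2 X0
    linarith
  have a2 : s * (1 + s) * (ρ + 3 * t ^ 2) ≤ 4 * (Λ ^ 2 * ((A + s) ^ 2 * n)) := by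
    have b1 : s * (1 + s) ≤ (A + s) ^ 2 := by nlinarith
    have ρ0 : 0 ≤ ρ := (sq_nonneg t).trans ht
    calc _ ≤ (A + s) ^ 2 * (4 * (Λ ^ 2 * n)) :=
          mul_le_mul b1 (by linarith) (by positivity) (by positivity)
      _ = _ := by ring
  have a3 : (1 + s) * b ≤ kG := le_trans (mul_le_mul_of_nonneg_right (by linarith) b0) G1
  have a4 : kB ≤ 2 * (Λ ^ 2 * kG) := by
    have := mul_le_mul L3 a3 Y0 (by positivity)
    linarith
  have a5 : Λ ^ 2 * s * n ≤ Λ ^ 2 * ((A + s) ^ 2 * n) := by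
    rw [mul_assoc]
    refine mul_le_mul_of_nonneg_left (le_trans ?_ a0) (by positivity)
    exact mul_le_mul_of_nonneg_right (by linarith) n0
  have a6 := mul_le_mul_of_nonneg_right L2 (Y0.trans a3)
  have a7 := mul_le_mul_of_nonneg_right L2 (sq_nonneg h)
  have a8 := mul_le_mul_of_nonneg_left W1 (show 0 ≤ Λ ^ 2 by positivity)
  have a9 := mul_le_mul_of_nonneg_left (show kG ≤ 2 * Mx by linarith)
    (show 0 ≤ Λ ^ 2 by positivity)
  have a10 : 0 ≤ Λ ^ 2 * kG := mul_nonneg (by positivity) (Y0.trans a3)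
  have a11 : 20 * Λ ^ 2 * s * n = 20 * (Λ ^ 2 * s * n) := by ring
  rw [a11] at E3
  generalize (A + s) * (n + 3 * o2 ^ 2) = c1 at a1 ⊢
  generalize s * (1 + s) * (ρ + 3 * t ^ 2) = c2 at a2 ⊢
  generalize Λ ^ 2 * s * n = c3 at a5 E3
  generalize (A + s) ^ 2 * n = X at a1 a2 a5 a8 Z3
  generalize (1 + s) * b = Y at E3 a3
  linarith [sq_nonneg (Z - h), sq_nonneg h]

end Vale.Agent.P250.Pinch
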