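import Vale.Agent.P250.Calabi
import Vale.Agent.P250.Kahler
import Vale.Agent.P250.Pinch

/-! Reduction of the curvature of the Calabi metric to the algebraic data. -/

namespace Vale.Agent.P250

open scoped ContDiff ComplexConjugate
open Complex Filter Topology

noncomputable section

variable {χ : Cn 3 → ℝ} {Λ : ℝ} {x : Cn 3}

def e3 : Cn 3 := ![0, 0, 1]

theorem alf_add (x a b : Cn 3) : alf x (a + b) = alf x a + alf x b := by
  simp only [alf, rhoD, Pi.add_apply]; ring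

theorem alf_smul (x : Cn 3) (c : ℂ) (a : Cn 3) : alf x (c • a) = c * alf x a := by
  simp only [alf, rhoD, Pi.smul_apply, smul_eq_mul]; ring

theorem alf_e3 (x : Cn 3) : alf x e3 = 0 := by simp [alf, rhoD, e3]

theorem om_herm (x : Cn 3) : Herm (om x) where
  add a a' b := by simp only [om_eq, alf_add, Pi.add_apply]; ring
  smul c a b := by simp only [om_eq, alf_smul, Pi.smul_apply, smul_eq_mul]; ring
  symm a b := by
    simp only [om_eq, map_add, map_mul, conj_conj, map_inv₀, conj_ofReal]; ring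

theorem om_e3 (x a : Cn 3) : om x a e3 = 0 := by
  rw [om_eq, alf_e3]
  simp [e3]

theorem nw_nonneg (x a : Cn 3) : 0 ≤ nw x a := Real.sqrt_nonneg _

theorem nw_sq' (hx : 0 < rho x) (a : Cn 3) : nw x a ^ 2 = ‖alf x a‖ ^ 2 + ‖a 0‖ ^ 2 / rho x := by
  rw [nw, Real.sq_sqrt (by positivity), alf, norm_neg, norm_div, div_pow, norm_real,
    Real.norm_eq_abs, sq_abs]

theorem nw_sq (hx : 0 < rho x) (a : Cn 3) : (om x a a).re = nw x a ^ 2 := by
  have h : om x a a = ((‖alf x a‖ ^ 2 + ‖a 0‖ ^ 2 / rho x : ℝ) : ℂ) := by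
    rw [om_eq, mul_assoc, mul_conj, mul_conj, normSq_eq_norm_sq, normSq_eq_norm_sq]
    push_cast
    ring
  rw [h, ofReal_re, nw_sq' hx]

theorem alf_le (hx : 0 < rho x) (a : Cn 3) : ‖alf x a‖ ≤ nw x a := by
  refine (pow_le_pow_iff_left₀ (norm_nonneg _) (nw_nonneg x a) two_ne_zero).1 ?_
  rw [nw_sq' hx]
  exact le_add_of_nonneg_right (by positivity)

theorem nw_e3 (x : Cn 3) : nw x e3 = 0 := by simp [nw, rhoD, e3]

theorem eq_of_nw (hx : 0 < rho x) {a : Cn 3} (ha : nw x a = 0) : a = a 2 • e3 := by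
  have h1 := nw_sq' hx a
  rw [ha] at h1
  have h2 : 0 ≤ ‖a 0‖ ^ 2 / rho x := by positivity
  have h3 : ‖alf x a‖ ^ 2 = 0 := by nlinarith [sq_nonneg ‖alf x a‖]
  have h4 : ‖a 0‖ ^ 2 / rho x = 0 := by nlinarith [sq_nonneg ‖alf x a‖]
  have h5 : a 0 = 0 := by simpa [hx.ne'] using h4
  have h6 : a 1 = 0 := by simpa [alf, rhoD, hx.ne', h5] using h3
  funext i
  fin_cases i <;> simp [e3, h5, h6]

theorem Good.j1_e3 (h : Good χ Λ) (hx : 0 < rho x) : j1 χ x e3 = 0 := by
  have key : ∀ c : ℂ, fderiv ℝ (fun y => (χ y : ℂ)) x (c • e3) = 0 := fun c => by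
    rw [← (h.sm hx).diff.self_of_nhds.lineDeriv_eq_fderiv, lineDeriv]
    have h1 : (fun t : ℝ => (χ (x + t • c • e3) : ℂ)) = fun _ => (χ x : ℂ) := by
      funext t
      rw [← h.indep x (x 2 + t * c)]
      congr 2
      funext i
      fin_cases i <;> simp [e3]
    rw [h1, deriv_const]
  have h0 := key 1
  rw [one_smul] at h0
  simp only [j1, dzf, h0, key I, mul_zero, sub_zero, zero_div]

theorem Good.j2_e3 (h : Good χ Λ) (hx : 0 < rho x) (a : Cn 3) : j2 χ x a e3 = 0 := by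
  simpa [nw_e3] using h.b2 x hx a e3

theorem Good.j3_e3 (h : Good χ Λ) (hx : 0 < rho x) (a b : Cn 3) : j3 χ x a b e3 = 0 := by
  simpa [nw_e3] using h.b3 x hx a b e3

theorem Good.nv_e3 (h : Good χ Λ) (hx : 0 < rho x) : nv χ x e3 = 1 := by
  rw [nv, alf_e3, h.j1_e3 hx]
  simp [e3]

theorem Good.th_e3 (h : Good χ Λ) (hx : 0 < rho x) (a : Cn 3) : th χ x a e3 = 0 := by
  rw [th, om_e3, h.j2_e3 hx, add_zero]

/-- the conormal as a linear map -/
def Good.nl (h : Good χ Λ) (hx : 0 < rho x) : Cn 3 →ₗ[ℂ] ℂ where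
  toFun := nv χ x
  map_add' a b := by simp only [nv, alf_add, j1_add (h.sm hx), Pi.add_apply]; ring
  map_smul' c a := by
    simp only [nv, alf_smul, j1_smul (h.sm hx), Pi.smul_apply, smul_eq_mul, RingHom.id_apply]; ring

theorem Good.th_herm (h : Good χ Λ) (hx : 0 < rho x) : Herm (th χ x) := by
  have := Pinch.comb (om_herm x) (j2_herm (h.sm hx)) 1 1
  simp only [ofReal_one, one_mul] at this
  exact this

theorem Good.th_lo (h : Good χ Λ) (hx : 0 < rho x) (a : Cn 3) :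
    (om x a a).re ≤ (th χ x a a).re := by
  rw [th, add_re]
  exact le_add_of_nonneg_right (h.psh x hx a)

theorem mu_re (a : Cn 3) : (mu χ x a a).re = kap χ x * ‖nv χ x a‖ ^ 2 := by
  rw [mu, mul_assoc, mul_conj, normSq_eq_norm_sq, ← ofReal_mul, ofReal_re]

theorem Good.mono {Λ' : ℝ} (h : Good χ Λ) (hΛ : Λ ≤ Λ') : Good χ Λ' :=
  ⟨h.smooth, h.indep, h.psh,
    fun x hx a b => (h.b2 x hx a b).trans (by gcongr <;> exact nw_nonneg _ _),
    fun x hx a b c => (h.b3 x hx a b c).trans (by gcongr <;> exact nw_nonneg _ _),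
    fun x hx a b c d => (h.b4 x hx a b c d).trans (by gcongr <;> exact nw_nonneg _ _)⟩

section

variable (h : Good χ Λ) (hU : IsOpen (Dom χ)) {A : ℝ} (hA : 1 ≤ A)

include h hU hA

theorem pot_lo (hx : x ∈ Dom χ) (a : Cn 3) :
    nw x a ^ 2 + kap χ x * ‖nv χ x a‖ ^ 2 ≤ (j2 (pot A χ) x a a).re := by
  rw [j2_pot h hU hx, add_re, add_re, mu_re, re_ofReal_mul, re_ofReal_mul]
  have h1 := h.th_lo hx.1 a
  rw [nw_sq hx.1] at h1 ⊢
  have h2 := sv_nonneg hx
  nlinarith [sq_nonneg (nw x a), mul_nonneg h2 ((sq_nonneg _).trans h1)]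

theorem pot_pos (x : Cn 3) (hx : x ∈ Dom χ) (a : Cn 3) (ha : a ≠ 0) :
    0 < (j2 (pot A χ) x a a).re := by
  refine lt_of_lt_of_le ?_ (pot_lo h hU hA hx a)
  have hk := kap_pos hx
  by_cases h0 : nw x a = 0
  · have h1 := eq_of_nw hx.1 h0
    have h2 : nv χ x a = a 2 := by
      conv_lhs => rw [h1]
      exact ((h.nl hx.1).map_smul _ _).trans (by simp [Good.nl, h.nv_e3 hx.1])
    have h3 : a 2 ≠ 0 := fun h3 => ha (by rw [h1, h3, zero_smul])
    rw [h2]
    positivity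
  · positivity

theorem kahler_pot : IsKahlerOn (Dom χ) (met (pot A χ)) :=
  isKahler_met hU (h.pot_smooth A) (pot_pos h hU hA)

theorem pot_inj (hx : x ∈ Dom χ) {y y' : Cn 3}
    (e : ∀ c, j2 (pot A χ) x y c = j2 (pot A χ) x y' c) : y = y' := by
  by_contra hne
  have h1 := pot_pos h hU hA x hx _ (sub_ne_zero.2 hne)
  rw [Pinch.sub_left (j2_herm (Sm.of_on hU hx (h.pot_smooth A))), e, sub_self] at h1
  exact lt_irrefl _ h1

theorem pot_solve (hx : x ∈ Dom χ) (l : Cn 3 → ℂ) (l1 : ∀ a b, l (a + b) = l a + l b)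
    (l2 : ∀ (t : ℂ) a, l (t • a) = conj t * l a) : ∃ y, ∀ c, j2 (pot A χ) x y c = l c := by
  obtain ⟨y, hy⟩ := exists_solve (kahler_pot h hU hA).riem hx
    { toFun := fun c => (l c).re
      map_add' := fun a b => by rw [l1, add_re]
      map_smul' := fun t a => by
        rw [← algebraMap_smul ℂ t a, l2]
        simp }
  refine ⟨y, fun c => ?_⟩
  have hh := j2_herm (Sm.of_on hU hx (h.pot_smooth A))
  have h1 : ∀ c, (j2 (pot A χ) x y c).re = (l c).re := fun c => by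
    rw [← met_eq hU (h.pot_smooth A) hx]; exact hy c
  have h2 := h1 (I • c)
  rw [Pinch.smul_right hh, l2] at h2
  apply Complex.ext (h1 c)
  simpa using h2

omit hA in
theorem pot_split (hx : x ∈ Dom χ) {y : Cn 3} {l : Cn 3 → ℂ} {t : ℂ} (l0 : l e3 = 0)
    (e : ∀ c, j2 (pot A χ) x y c = l c + kap χ x * t * conj (nv χ x c)) :
    nv χ x y = t ∧ ∀ c, A * om x y c + sv χ x * th χ x y c = l c := by
  have h1 := e e3
  rw [j2_pot h hU hx, om_e3, h.th_e3 hx.1, mu, h.nv_e3 hx.1, l0] at h1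
  have hk : (kap χ x : ℂ) ≠ 0 := ofReal_ne_zero.2 (kap_pos hx).ne'
  have h2 : nv χ x y = t := by simpa [hk] using h1
  refine ⟨h2, fun c => ?_⟩
  have h3 := e c
  rw [j2_pot h hU hx, mu, h2] at h3
  linear_combination h3

end

def c3f (χ : Cn 3 → ℝ) (x a b c : Cn 3) : ℂ :=
  j3 χ x a b c - alf x a * j2 χ x b c - alf x b * j2 χ x a c

def c4f (χ : Cn 3 → ℝ) (x a b c d : Cn 3) : ℂ :=
  j4 χ x a b c d - (alf x a * conj (alf x c) * j2 χ x b d + alf x a * conj (alf x d) * j2 χ x b c +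
    alf x b * conj (alf x c) * j2 χ x a d + alf x b * conj (alf x d) * j2 χ x a c) -
    (conj (alf x c) * c3f χ x a b d + conj (alf x d) * c3f χ x a b c) -
    (alf x a * conj (c3f χ x c d b) + alf x b * conj (c3f χ x c d a))

theorem Good.c3_le (h : Good χ Λ) (hx : 0 < rho x) (a b c : Cn 3) :
    ‖c3f χ x a b c‖ ≤ 3 * Λ * nw x a * nw x b * nw x c := by
  have k : ∀ a b, ‖alf x a * j2 χ x b c‖ ≤ nw x a * (Λ * nw x b * nw x c) := fun a b =>
    (norm_mul_le _ _).trans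
      (mul_le_mul (alf_le hx a) (h.b2 x hx b c) (norm_nonneg _) (nw_nonneg _ _))
  refine (norm_sub_le _ _).trans ((add_le_add_left (norm_sub_le _ _) _).trans ?_)
  linarith [k a b, k b a, h.b3 x hx a b c]

theorem Good.c4_le (h : Good χ Λ) (hx : 0 < rho x) (a b c d : Cn 3) :
    ‖c4f χ x a b c d‖ ≤ 17 * Λ * nw x a * nw x b * nw x c * nw x d := by
  have k : ∀ a b c d, ‖alf x a * conj (alf x c) * j2 χ x b d‖ ≤
      nw x a * nw x c * (Λ * nw x b * nw x d) := fun a b c d => by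
    rw [norm_mul, norm_mul, RCLike.norm_conj]
    exact mul_le_mul (mul_le_mul (alf_le hx a) (alf_le hx c) (norm_nonneg _) (nw_nonneg _ _))
      (h.b2 x hx b d) (norm_nonneg _) (mul_nonneg (nw_nonneg _ _) (nw_nonneg _ _))
  have k1 : ∀ a b c d, ‖conj (alf x c) * c3f χ x a b d‖ ≤
      nw x c * (3 * Λ * nw x a * nw x b * nw x d) := fun a b c d => by
    rw [norm_mul, RCLike.norm_conj]
    exact mul_le_mul (alf_le hx c) (h.c3_le hx a b d) (norm_nonneg _) (nw_nonneg _ _)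
  have k2 : ∀ a b c d, ‖alf x a * conj (c3f χ x c d b)‖ ≤
      nw x a * (3 * Λ * nw x c * nw x d * nw x b) := fun a b c d => by
    rw [norm_mul, RCLike.norm_conj]
    exact mul_le_mul (alf_le hx a) (h.c3_le hx c d b) (norm_nonneg _) (nw_nonneg _ _)
  have e1 := norm_add_le_of_le (norm_add_le_of_le (norm_add_le_of_le (k a b c d) (k a b d c))
    (k b a c d)) (k b a d c)
  have e2 := norm_add_le_of_le (k1 a b c d) (k1 a b d c)
  have e3 := norm_add_le_of_le (k2 a b c d) (k2 b a c d)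
  refine (norm_sub_le_of_le (norm_sub_le_of_le (norm_sub_le_of_le (h.b4 x hx a b c d) e1) e2)
    e3).trans (le_of_eq ?_)
  ring

theorem exists_pdata (h : Good χ Λ) (hΛ : 1 ≤ Λ) (hU : IsOpen (Dom χ)) {A : ℝ} (hA : 1 ≤ A)
    (hx : x ∈ Dom χ) : ∃ d : PData (Cn 3) (17 * Λ) A, d.o = om x ∧ d.θ = th χ x ∧
      (∀ a, d.n a = nv χ x a) ∧ d.s = sv χ x ∧ d.κ = kap χ x ∧ d.ξ = kap χ x * x 2 ∧
      d.c3 = c3f χ x ∧ d.c4 = c4f χ x := by
  have hh := j2_herm (Sm.of_on hU hx (h.pot_smooth A))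
  have h2 := j2_herm (h.sm hx.1)
  have hθ := h.th_herm hx.1
  have c3a : ∀ a b c c', c3f χ x a b (c + c') = c3f χ x a b c + c3f χ x a b c' :=
    fun a b c c' => by simp only [c3f, j3_add' (h.sm hx.1), Pinch.add_right h2]; ring
  have c3s : ∀ (t : ℂ) a b c, c3f χ x a b (t • c) = conj t * c3f χ x a b c :=
    fun t a b c => by simp only [c3f, j3_smul' (h.sm hx.1), Pinch.smul_right h2]; ring
  choose P hP using fun a => pot_solve h hU hA hx (th χ x a) (Pinch.add_right hθ a)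
    fun t b => Pinch.smul_right hθ t a b
  choose cc hc using fun a b => pot_solve h hU hA hx (c3f χ x a b) (c3a a b) fun t => c3s t a b
  have n0 := nw_nonneg x
  refine ⟨{
    o := om x
    θ := th χ x
    nn := nw x
    n := h.nl hx.1
    P :=
      { toFun := P
        map_add' := fun a b => pot_inj h hU hA hx fun c => by rw [hh.add, hP, hP, hP, hθ.add]
        map_smul' := fun t a => pot_inj h hU hA hx fun c => by
          rw [RingHom.id_apply, hh.smul, hP, hP, hθ.smul] }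
    s := sv χ x
    κ := kap χ x
    ξ := kap χ x * x 2
    c3 := c3f χ x
    c4 := c4f χ x
    cc := cc
    ho := om_herm x
    hθ := hθ
    s0 := sv_nonneg hx
    κ0 := (kap_pos hx).le
    hξ := by
      rw [norm_mul, mul_pow, norm_real, Real.norm_eq_abs, sq_abs, ← kap_mul hx]; ring
    nn0 := n0
    hnn := nw_sq hx.1
    lo := h.th_lo hx.1
    hi := fun a => by
      have h3 := (re_le_norm _).trans (h.b2 x hx.1 a a)
      rw [th, add_re, nw_sq hx.1]
      nlinarith [mul_nonneg (sub_nonneg.2 hΛ) (sq_nonneg (nw x a)), sq_nonneg (nw x a)]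
    hP := fun a => (pot_split h hU hx (t := 0) (h.th_e3 hx.1 a) fun c => by simpa using hP a c).2
    hc := fun a b => (pot_split h hU hx (t := 0) (by simp [c3f, h.j3_e3 hx.1, h.j2_e3 hx.1])
      fun c => by simpa using hc a b c).2
    c3_symm := fun a b c => by simp only [c3f, j3_symm (h.sm hx.1) a b]; ring
    c3_add := fun a a' b c => by simp only [c3f, j3_add (h.sm hx.1), h2.add, alf_add]; ring
    c3_smul := fun t a b c => by simp only [c3f, j3_smul (h.sm hx.1), h2.smul, alf_smul]; ring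
    c3_add' := c3a
    c3_smul' := c3s
    b3 := fun a b c => (h.c3_le hx.1 a b c).trans (by gcongr <;> first | apply n0 | linarith)
    b4 := h.c4_le hx.1 }, rfl, rfl, fun _ => rfl, rfl, rfl, rfl, rfl, rfl⟩

theorem exists_curv (h : Good χ Λ) (hΛ : 1 ≤ Λ) (hU : IsOpen (Dom χ)) {A : ℝ} (hA : 1 ≤ A)
    {Γ : Cn 3 → Cn 3 → Cn 3 → Cn 3} (hL : IsLeviCivitaOn (Dom χ) (met (pot A χ)) Γ)
    (hx : x ∈ Dom χ) : ∃ d : PData (Cn 3) (17 * Λ) A, d.o = om x ∧
      (∀ a b, met (pot A χ) x a b = d.T a b) ∧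
      ∀ a b c e, j4 (pot A χ) x a b c e - j2 (pot A χ) x (Γ x a b) (Γ x c e) = d.R a b c e := by
  obtain ⟨d, ho, hθ, hn, hs, hκ, hξ, h3, h4⟩ := exists_pdata h hΛ hU hA hx
  obtain ⟨lam, l3, l4⟩ := calabi h hU hx A
  have hG : ∀ a b, d.G a b = A * om x a b + sv χ x * th χ x a b := fun a b => by
    rw [PData.G, ho, hθ, hs]
  have hμ : ∀ a b, d.μ a b = mu χ x a b := fun a b => by rw [PData.μ, hκ, hn, hn, mu]
  have hν : ∀ a, d.ν a = nu χ x a := fun a => by rw [PData.ν, hξ, hn, nu]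
  have GH := Pinch.hG d
  refine ⟨d, ho, fun a b => ?_, fun a b c e => ?_⟩
  · rw [met_eq hU (h.pot_smooth A) hx, j2_pot h hU hx, PData.T, hG, hμ]
  have g3 : ∀ a b c, d.G (d.γ a b) c = sv χ x * c3f χ x a b c + conj (nu χ x b) * th χ x a c +
      conj (nu χ x a) * th χ x b c := fun a b c => by
    simp only [PData.γ, GH.add, GH.smul, Pinch.GP, Pinch.Gc, hs, h3, hθ, hν]
  have k : ∀ a b, nv χ x (Γ x a b) = lam a b ∧
      ∀ c, d.G (Γ x a b) c = d.G (alf x a • b + alf x b • a + d.γ a b) c := fun a b => by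
    have := pot_split h hU hx (A := A) (y := Γ x a b) (t := lam a b)
      (l := d.G (alf x a • b + alf x b • a + d.γ a b)) (by simp [hG, om_e3, h.th_e3 hx.1])
      fun c => by
        rw [lc_eq hU (h.pot_smooth A) hL hx, l3, GH.add, GH.add, GH.smul, GH.smul, g3, hG, hG]
        simp only [om3, c3f, th]
        ring
    simpa only [← hG] using this
  have k2 : d.G (Γ x a b) (Γ x c e) =
      d.G (alf x a • b + alf x b • a + d.γ a b) (alf x c • e + alf x e • c + d.γ c e) := by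
    rw [(k a b).2, GH.symm, (k c e).2, ← GH.symm]
  have hj := j2_herm (h.sm hx.1)
  rw [j2_pot h hU hx, ← hG, k2, mu, (k a b).1, (k c e).1, l4, PData.R]
  simp only [GH.add, GH.smul, Pinch.add_right GH, Pinch.smul_right GH]
  rw [GH.symm (d.γ c e) a, GH.symm (d.γ c e) b]
  simp only [g3 a b c, g3 a b e, g3 c e a, g3 c e b, hG a, hG b, ho, hθ, hs, h3, h4, hμ, hν, c4f,
    om4, om3, map_add, map_mul, conj_conj, conj_ofReal]
  have e1 : ∀ a b c, j3 χ x a b c = c3f χ x a b c + alf x a * j2 χ x b c + alf x b * j2 χ x a c :=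
    fun a b c => by rw [c3f]; ring
  simp only [e1, th, map_add, map_mul, ← (om_herm x).symm, ← hj.symm]
  ring

end

end Vale.Agent.P250
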