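import Mathlib

/-! Kaehler metrics on open subsets of complex affine space, in the global coordinates.
A metric is a function `g x a b` of a point `x` and two tangent vectors `a`, `b`. -/

namespace Vale.Agent.P250.St

open scoped ContDiff

variable {n : ℕ}

/-- The derivative at `x`, in the direction `c`, of the coefficient `g(a,b)`. -/
noncomputable def dg (g : (Fin n → ℂ) → (Fin n → ℂ) → (Fin n → ℂ) → ℝ) (x c a b : Fin n → ℂ) :
    ℝ :=
  fderiv ℝ (fun y => g y a b) x c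

/-- `g` is a smooth Riemannian metric on `U`, invariant under multiplication by `i`, whose
fundamental form `(a, b) ↦ g(i a, b)` is closed. -/
structure IsKahlerOn (U : Set (Fin n → ℂ)) (g : (Fin n → ℂ) → (Fin n → ℂ) → (Fin n → ℂ) → ℝ) :
    Prop where
  smooth : ∀ a b, ContDiffOn ℝ ∞ (fun x => g x a b) U
  linear : ∀ x ∈ U, ∀ b, IsLinearMap ℝ fun a => g x a b
  symm : ∀ x ∈ U, ∀ a b, g x a b = g x b a
  pos : ∀ x ∈ U, ∀ a, a ≠ 0 → 0 < g x a a
  herm : ∀ x ∈ U, ∀ a b, g x (Complex.I • a) (Complex.I • b) = g x a b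
  closed : ∀ x ∈ U, ∀ a b c,
    dg g x a (Complex.I • b) c + dg g x b (Complex.I • c) a + dg g x c (Complex.I • a) b = 0

/-- `Γ` is the Christoffel map of the Levi-Civita connection of `g` on `U` (Koszul formula),
and it is smooth. -/
def IsLeviCivitaOn (U : Set (Fin n → ℂ)) (g : (Fin n → ℂ) → (Fin n → ℂ) → (Fin n → ℂ) → ℝ)
    (Γ : (Fin n → ℂ) → (Fin n → ℂ) → (Fin n → ℂ) → (Fin n → ℂ)) : Prop :=
  (∀ a b, ContDiffOn ℝ ∞ (fun x => Γ x a b) U) ∧
    ∀ x ∈ U, ∀ a b c, 2 * g x (Γ x a b) c = dg g x a b c + dg g x b a c - dg g x c a b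

/-- The derivative at `x`, in the direction `u`, of the coefficient `Γ(v,w)`. -/
noncomputable def dΓ (Γ : (Fin n → ℂ) → (Fin n → ℂ) → (Fin n → ℂ) → (Fin n → ℂ))
    (x u v w : Fin n → ℂ) : Fin n → ℂ :=
  fderiv ℝ (fun y => Γ y v w) x u

/-- The curvature tensor `R(u,v)w` at `x` of the connection with Christoffel map `Γ`. -/
noncomputable def riem (Γ : (Fin n → ℂ) → (Fin n → ℂ) → (Fin n → ℂ) → (Fin n → ℂ))
    (x u v w : Fin n → ℂ) : Fin n → ℂ :=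
  dΓ Γ x u v w - dΓ Γ x v u w + Γ x u (Γ x v w) - Γ x v (Γ x u w)

/-- The sectional curvature at `x` of the real plane spanned by `u` and `v`. -/
noncomputable def sec (g : (Fin n → ℂ) → (Fin n → ℂ) → (Fin n → ℂ) → ℝ)
    (Γ : (Fin n → ℂ) → (Fin n → ℂ) → (Fin n → ℂ) → (Fin n → ℂ)) (x u v : Fin n → ℂ) : ℝ :=
  g x (riem Γ x u v v) u / (g x u u * g x v v - g x u v ^ 2)

/-- Every initial condition has a geodesic in `U` defined for all real times. -/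
def GeodComplete (U : Set (Fin n → ℂ))
    (Γ : (Fin n → ℂ) → (Fin n → ℂ) → (Fin n → ℂ) → (Fin n → ℂ)) : Prop :=
  ∀ p ∈ U, ∀ v : Fin n → ℂ, ∃ γ γ' : ℝ → Fin n → ℂ, γ 0 = p ∧ γ' 0 = v ∧
    ∀ t, γ t ∈ U ∧ HasDerivAt γ (γ' t) t ∧ HasDerivAt γ' (-Γ (γ t) (γ' t) (γ' t)) t

/-- All real sectional curvatures lie between two negative constants. -/
def Pinched (U : Set (Fin n → ℂ)) (g : (Fin n → ℂ) → (Fin n → ℂ) → (Fin n → ℂ) → ℝ)
    (Γ : (Fin n → ℂ) → (Fin n → ℂ) → (Fin n → ℂ) → (Fin n → ℂ)) : Prop :=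
  ∃ a b : ℝ, 0 < a ∧ a ≤ b ∧ ∀ x ∈ U, ∀ u v : Fin n → ℂ, LinearIndependent ℝ ![u, v] →
    -b ≤ sec g Γ x u v ∧ sec g Γ x u v ≤ -a

/-- `U` is biholomorphic to a bounded domain of the same dimension. -/
def BiholBounded (U : Set (Fin n → ℂ)) : Prop :=
  ∃ (D : Set (Fin n → ℂ)) (F G : (Fin n → ℂ) → (Fin n → ℂ)),
    IsOpen D ∧ IsConnected D ∧ Bornology.IsBounded D ∧
    DifferentiableOn ℂ F U ∧ DifferentiableOn ℂ G D ∧ Set.MapsTo F U D ∧ Set.MapsTo G D U ∧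
    (∀ x ∈ U, G (F x) = x) ∧ ∀ y ∈ D, F (G y) = y

end Vale.Agent.P250.St
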