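import Vale.Agent.P250.Base

/-! Wirtinger calculus in the ring of smooth germs at a point. -/

set_option linter.unusedSectionVars false

namespace Vale.Agent.P250

open scoped ContDiff ComplexConjugate
open Complex Filter Topology

noncomputable section

variable {E : Type} [NormedAddCommGroup E] [NormedSpace ℝ E] [NormedSpace ℂ E]
  [IsScalarTower ℝ ℂ E] {x : E}

/-- smooth near `x` -/
def Sm (x : E) (f : E → ℂ) : Prop := ∀ᶠ y in 𝓝 x, ContDiffAt ℝ ∞ f y

namespace Sm

variable {f g : E → ℂ}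

theorem const (c : ℂ) : Sm x fun _ => c := Eventually.of_forall fun _ => contDiffAt_const

theorem add (hf : Sm x f) (hg : Sm x g) : Sm x fun y => f y + g y :=
  (hf.and hg).mono fun _ h => h.1.add h.2

theorem mul (hf : Sm x f) (hg : Sm x g) : Sm x fun y => f y * g y :=
  (hf.and hg).mono fun _ h => h.1.mul h.2

theorem neg (hf : Sm x f) : Sm x fun y => -f y := hf.mono fun _ h => h.neg

theorem cnj (hf : Sm x f) : Sm x fun y => conj (f y) :=
  hf.mono fun _ h => conjCLE.contDiff.contDiffAt.comp _ h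

theorem exp (hf : Sm x f) : Sm x fun y => Complex.exp (f y) := hf.mono fun _ h => h.cexp

theorem fder (hf : Sm x f) (a : E) : Sm x fun y => fderiv ℝ f y a :=
  hf.mono fun _ h => (h.fderiv_right (m := ∞) (by simp)).clm_apply contDiffAt_const

theorem diff (hf : Sm x f) : ∀ᶠ y in 𝓝 x, DifferentiableAt ℝ f y :=
  hf.mono fun _ h => h.differentiableAt (by simp)

theorem congr (hf : Sm x f) (h : f =ᶠ[𝓝 x] g) : Sm x g :=
  (hf.and h.eventuallyEq_nhds).mono fun _ h => h.1.congr_of_eventuallyEq h.2.symm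

theorem of_on {U : Set E} {h : E → ℝ} (hU : IsOpen U) (hx : x ∈ U) (hh : ContDiffOn ℝ ∞ h U) :
    Sm x fun y => (h y : ℂ) := by
  filter_upwards [hU.mem_nhds hx] with y hy
  exact ofRealCLM.contDiff.contDiffAt.comp _ (hh.contDiffAt (hU.mem_nhds hy))

end Sm

/-- smooth germs -/
def SG (x : E) : Subring (Germ (𝓝 x) ℂ) where
  carrier := {γ | ∃ f, Sm x f ∧ γ = (f : Germ (𝓝 x) ℂ)}
  mul_mem' := by
    rintro _ _ ⟨f, hf, rfl⟩ ⟨g, hg, rfl⟩
    exact ⟨_, hf.mul hg, rfl⟩
  add_mem' := by
    rintro _ _ ⟨f, hf, rfl⟩ ⟨g, hg, rfl⟩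
    exact ⟨_, hf.add hg, rfl⟩
  one_mem' := ⟨_, Sm.const 1, rfl⟩
  zero_mem' := ⟨_, Sm.const 0, rfl⟩
  neg_mem' := by
    rintro _ ⟨f, hf, rfl⟩
    exact ⟨_, hf.neg, rfl⟩

/-- the germ of a smooth function -/
def gm (f : E → ℂ) (hf : Sm x f) : SG x := ⟨(f : Germ (𝓝 x) ℂ), f, hf, rfl⟩

theorem gm_ind {p : SG x → Prop} (h : ∀ f hf, p (gm f hf)) (γ : SG x) : p γ := by
  obtain ⟨_, f, hf, rfl⟩ := γ
  exact h f hf

theorem gm_eq {f g : E → ℂ} {hf : Sm x f} {hg : Sm x g} (h : f =ᶠ[𝓝 x] g) :
    gm f hf = gm g hg := Subtype.ext (Germ.coe_eq.2 h)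

theorem gm_add {f g : E → ℂ} (hf : Sm x f) (hg : Sm x g) :
    gm f hf + gm g hg = gm _ (hf.add hg) := rfl

theorem gm_mul {f g : E → ℂ} (hf : Sm x f) (hg : Sm x g) :
    gm f hf * gm g hg = gm _ (hf.mul hg) := rfl

theorem gm_neg {f : E → ℂ} (hf : Sm x f) : -gm f hf = gm _ hf.neg := rfl

/-- value at the point -/
def ev : SG x →+* ℂ := Germ.valueRingHom.comp (SG x).subtype

theorem ev_gm (f : E → ℂ) (hf : Sm x f) : ev (gm f hf) = f x := rfl

/-- constants -/
def cst : ℂ →+* SG x where
  toFun c := gm _ (Sm.const c)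
  map_one' := rfl
  map_mul' _ _ := rfl
  map_zero' := rfl
  map_add' _ _ := rfl

theorem cst_eq (c : ℂ) : (cst c : SG x) = gm _ (Sm.const c) := rfl

@[simp] theorem ev_cst (c : ℂ) : ev (cst c : SG x) = c := rfl

/-- complex conjugation -/
def cj : SG x →+* SG x where
  toFun γ := ⟨γ.1.map conj, by
    obtain ⟨_, f, hf, rfl⟩ := γ
    exact ⟨_, hf.cnj, rfl⟩⟩
  map_one' := gm_eq (hf := (Sm.const 1).cnj) (hg := Sm.const 1) (.of_eq (by simp))
  map_zero' := gm_eq (hf := (Sm.const 0).cnj) (hg := Sm.const 0) (.of_eq (by simp))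
  map_mul' := gm_ind fun f hf => gm_ind fun g hg =>
    gm_eq (hf := (hf.mul hg).cnj) (hg := hf.cnj.mul hg.cnj) (by simp)
  map_add' := gm_ind fun f hf => gm_ind fun g hg =>
    gm_eq (hf := (hf.add hg).cnj) (hg := hf.cnj.add hg.cnj) (by simp)

theorem cj_gm (f : E → ℂ) (hf : Sm x f) : cj (gm f hf) = gm _ hf.cnj := rfl

theorem ev_cj (γ : SG x) : ev (cj γ) = conj (ev γ) := by
  induction γ using gm_ind with
  | h f hf => rfl

theorem cj_cst (c : ℂ) : cj (cst c : SG x) = cst (conj c) := rfl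

theorem cj_real (h : E → ℝ) (hh : Sm x fun y => (h y : ℂ)) : cj (gm _ hh) = gm _ hh :=
  gm_eq (hf := hh.cnj) (by simp)

/-- directional derivative -/
def D (a : E) : SG x →+ SG x :=
  AddMonoidHom.mk' (fun γ => ⟨γ.1.liftOn (fun f => ((fun y => fderiv ℝ f y a : E → ℂ) :
      Germ (𝓝 x) ℂ)) fun _ _ h => Germ.coe_eq.2 ((h.fderiv (𝕜 := ℝ)).mono fun _ hy =>
        congrArg (fun L => L a) hy), by
    obtain ⟨_, f, hf, rfl⟩ := γ
    exact ⟨_, hf.fder a, rfl⟩⟩)
    (gm_ind fun f hf => gm_ind fun g hg =>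
      gm_eq (hf := (hf.add hg).fder a) (hg := (hf.fder a).add (hg.fder a)) (by
        filter_upwards [hf.diff, hg.diff] with y h1 h2
        rw [fderiv_fun_add h1 h2]
        rfl))

theorem D_gm (a : E) (f : E → ℂ) (hf : Sm x f) : D a (gm f hf) = gm _ (hf.fder a) := rfl

theorem D_mul (a : E) (f g : SG x) : D a (f * g) = D a f * g + f * D a g := by
  induction f using gm_ind with
  | h f hf =>
  induction g using gm_ind with
  | h g hg =>
  refine gm_eq (hf := (hf.mul hg).fder a) (hg := ((hf.fder a).mul hg).add (hf.mul (hg.fder a))) ?_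
  filter_upwards [hf.diff, hg.diff] with y h1 h2
  rw [fderiv_fun_mul h1 h2]
  simp only [_root_.add_apply, _root_.smul_apply, smul_eq_mul]
  ring

theorem D_cst (a : E) (c : ℂ) : D a (cst c : SG x) = 0 :=
  gm_eq (hf := (Sm.const c).fder a) (hg := Sm.const 0) (by simp)

theorem D_comm (a b : E) (f : SG x) : D a (D b f) = D b (D a f) := by
  induction f using gm_ind with
  | h f hf =>
  refine gm_eq (hf := (hf.fder b).fder a) (hg := (hf.fder a).fder b) ?_
  filter_upwards [hf] with y h1
  have h2 : DifferentiableAt ℝ (fderiv ℝ f) y :=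
    (h1.fderiv_right (m := ∞) (by simp)).differentiableAt (by simp)
  rw [fderiv_clm_apply h2 (differentiableAt_const _), fderiv_clm_apply h2 (differentiableAt_const _)]
  simpa using ((h1.of_le (m := 2) (by decide)).isSymmSndFDerivAt (by simp)).eq a b

theorem D_add_left (a b : E) (f : SG x) : D (a + b) f = D a f + D b f := by
  induction f using gm_ind with
  | h f hf =>
  exact gm_eq (hf := hf.fder _) (hg := (hf.fder a).add (hf.fder b)) (by simp)

theorem D_smul_left (c : ℝ) (a : E) (f : SG x) : D (c • a) f = cst (c : ℂ) * D a f := by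
  induction f using gm_ind with
  | h f hf =>
  exact gm_eq (hf := hf.fder _) (hg := (Sm.const _).mul (hf.fder a)) (by simp)

theorem D_neg_left (a : E) (f : SG x) : D (-a) f = -D a f := by
  induction f using gm_ind with
  | h f hf =>
  exact gm_eq (hf := hf.fder _) (hg := (hf.fder a).neg) (by simp)

theorem cj_D (a : E) (f : SG x) : cj (D a f) = D a (cj f) := by
  induction f using gm_ind with
  | h f hf =>
  refine gm_eq (hf := (hf.fder a).cnj) (hg := hf.cnj.fder a) ?_
  filter_upwards [hf.diff] with y h1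
  have h2 := (conjCLE.toContinuousLinearMap.hasFDerivAt.comp y h1.hasFDerivAt).fderiv
  exact (congrArg (fun L => L a) h2).symm

theorem D_exp (a : E) (f : E → ℂ) (hf : Sm x f) :
    D a (gm _ hf.exp) = gm _ hf.exp * D a (gm f hf) := by
  refine gm_eq (hf := hf.exp.fder a) (hg := hf.exp.mul (hf.fder a)) ?_
  filter_upwards [hf.diff] with y h1
  rw [h1.hasFDerivAt.cexp.fderiv]
  rfl

theorem D_clm (a : E) (L : E →L[ℝ] ℂ) (h : Sm x L) : D a (gm L h) = cst (L a) :=
  gm_eq (hf := h.fder a) (hg := Sm.const _) (by simp)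

theorem D_real (a : E) (h : E → ℝ) (hh : Sm x fun y => (h y : ℂ))
    (hh' : Sm x fun y => (fderiv ℝ h y a : ℂ)) : D a (gm _ hh) = gm _ hh' := by
  refine gm_eq (hf := hh.fder a) ?_
  filter_upwards [hh.diff] with y h1
  have h2 : DifferentiableAt ℝ h y := reCLM.differentiableAt.comp y h1
  have h3 := (ofRealCLM.hasFDerivAt.comp y h2.hasFDerivAt).fderiv
  exact congrArg (fun L => L a) h3

theorem Sm.rfder {h : E → ℝ} (hh : Sm x fun y => (h y : ℂ)) (a : E) :
    Sm x fun y => (fderiv ℝ h y a : ℂ) := by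
  refine (hh.fder a).congr ?_
  filter_upwards [hh.diff] with y h1
  have h2 : DifferentiableAt ℝ h y := reCLM.differentiableAt.comp y h1
  have h3 := (ofRealCLM.hasFDerivAt.comp y h2.hasFDerivAt).fderiv
  exact congrArg (fun L => L a) h3

/-- holomorphic derivative -/
def dz (a : E) : SG x →+ SG x :=
  AddMonoidHom.mk' (fun f => cst (1 / 2) * (D a f - cst I * D (I • a) f)) fun f g => by
    simp only [map_add]; ring

/-- antiholomorphic derivative -/
def db (a : E) : SG x →+ SG x :=
  AddMonoidHom.mk' (fun f => cst (1 / 2) * (D a f + cst I * D (I • a) f)) fun f g => by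
    simp only [map_add]; ring

theorem dz_def (a : E) (f : SG x) : dz a f = cst (1 / 2) * (D a f - cst I * D (I • a) f) := rfl

theorem db_def (a : E) (f : SG x) : db a f = cst (1 / 2) * (D a f + cst I * D (I • a) f) := rfl

theorem half_two : (cst (1 / 2) : SG x) * 2 = 1 := by
  rw [← map_ofNat cst 2, ← map_mul]; simp

theorem cI_sq : (cst I : SG x) * cst I = -1 := by rw [← map_mul, I_mul_I]; simp

theorem D_eq (a : E) (f : SG x) : D a f = dz a f + db a f := by
  rw [dz_def, db_def]
  linear_combination (-D a f) * half_two (x := x)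

theorem dz_mul (a : E) (f g : SG x) : dz a (f * g) = dz a f * g + f * dz a g := by
  simp only [dz_def, D_mul]; ring

theorem db_mul (a : E) (f g : SG x) : db a (f * g) = db a f * g + f * db a g := by
  simp only [db_def, D_mul]; ring

theorem dz_cst (a : E) (c : ℂ) : dz a (cst c : SG x) = 0 := by simp [dz_def, D_cst]

theorem db_cst (a : E) (c : ℂ) : db a (cst c : SG x) = 0 := by simp [db_def, D_cst]

theorem D_dz (a b : E) (f : SG x) : D a (dz b f) = dz b (D a f) := by
  simp only [dz_def, D_mul, map_sub, D_cst, D_comm a]; ring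

theorem D_db (a b : E) (f : SG x) : D a (db b f) = db b (D a f) := by
  simp only [db_def, D_mul, map_add, D_cst, D_comm a]; ring

theorem dz_comm (a b : E) (f : SG x) : dz a (dz b f) = dz b (dz a f) := by
  rw [dz_def a, dz_def a, D_dz, D_dz]
  simp only [dz_mul, dz_cst, map_sub]; ring

theorem db_comm (a b : E) (f : SG x) : db a (db b f) = db b (db a f) := by
  rw [db_def a, db_def a, D_db, D_db]
  simp only [db_mul, db_cst, map_add]; ring

theorem db_dz (a b : E) (f : SG x) : db a (dz b f) = dz b (db a f) := by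
  rw [db_def a, db_def a, D_dz, D_dz]
  simp only [dz_mul, dz_cst, map_add]; ring

theorem cj_dz (a : E) (f : SG x) : cj (dz a f) = db a (cj f) := by
  simp only [dz_def, db_def, map_mul, map_sub, cj_D, cj_cst, conj_I, map_neg, map_div₀, map_one,
    map_ofNat]
  ring

theorem cj_db (a : E) (f : SG x) : cj (db a f) = dz a (cj f) := by
  simp only [dz_def, db_def, map_mul, map_add, cj_D, cj_cst, conj_I, map_neg, map_div₀, map_one,
    map_ofNat]
  ring

theorem dz_add_left (a b : E) (f : SG x) : dz (a + b) f = dz a f + dz b f := by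
  simp only [dz_def, smul_add, D_add_left]; ring

theorem db_add_left (a b : E) (f : SG x) : db (a + b) f = db a f + db b f := by
  simp only [db_def, smul_add, D_add_left]; ring

theorem D_csmul (c : ℂ) (a : E) (f : SG x) :
    D (c • a) f = cst (c.re : ℂ) * D a f + cst (c.im : ℂ) * D (I • a) f := by
  have h : c • a = c.re • a + c.im • (I • a) := by
    have h1 : ∀ (r : ℝ) (v : E), (r : ℂ) • v = r • v := fun r v => algebraMap_smul ℂ r v
    conv_lhs => rw [← re_add_im c, add_smul, mul_smul, h1, h1]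
  rw [h, D_add_left, D_smul_left, D_smul_left]

theorem dz_smul_left (c : ℂ) (a : E) (f : SG x) : dz (c • a) f = cst c * dz a f := by
  have h : (cst c : SG x) = cst (c.re : ℂ) + cst (c.im : ℂ) * cst I := by
    rw [← map_mul, ← map_add, re_add_im]
  rw [dz_def, dz_def, smul_smul, D_csmul c, D_csmul (I * c), h]
  simp only [mul_re, mul_im, I_re, I_im, zero_mul, one_mul, zero_sub, zero_add, ofReal_neg, map_neg]
  linear_combination (cst (1 / 2) * cst (c.im : ℂ) * D (I • a) f) * cI_sq (x := x)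

theorem db_smul_left (c : ℂ) (a : E) (f : SG x) : db (c • a) f = cst (conj c) * db a f := by
  have h : (cst (conj c) : SG x) = cst (c.re : ℂ) - cst (c.im : ℂ) * cst I := by
    rw [← map_mul, ← map_sub]
    congr 1
    apply Complex.ext <;> simp
  rw [db_def, db_def, smul_smul, D_csmul c, D_csmul (I * c), h]
  simp only [mul_re, mul_im, I_re, I_im, zero_mul, one_mul, zero_sub, zero_add, ofReal_neg, map_neg]
  linear_combination (cst (1 / 2) * cst (c.im : ℂ) * D (I • a) f) * cI_sq (x := x)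

theorem Sm.dzf {f : E → ℂ} (hf : Sm x f) (a : E) : Sm x (dzf a f) :=
  ((Sm.const (1 / 2)).mul ((hf.fder a).add ((Sm.const I).mul (hf.fder (I • a))).neg)).congr
    (Eventually.of_forall fun y => by simp only [P250.dzf]; ring)

theorem Sm.dbf {f : E → ℂ} (hf : Sm x f) (a : E) : Sm x (dbf a f) :=
  ((Sm.const (1 / 2)).mul ((hf.fder a).add ((Sm.const I).mul (hf.fder (I • a))))).congr
    (Eventually.of_forall fun y => by simp only [P250.dbf]; ring)

theorem dz_gm (a : E) (f : E → ℂ) (hf : Sm x f) : dz a (gm f hf) = gm _ (hf.dzf a) := by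
  rw [dz_def, sub_eq_add_neg]
  exact gm_eq (hf := (Sm.const (1 / 2)).mul ((hf.fder a).add
    ((Sm.const I).mul (hf.fder (I • a))).neg))
    (Eventually.of_forall fun y => by simp only [dzf]; ring)

theorem db_gm (a : E) (f : E → ℂ) (hf : Sm x f) : db a (gm f hf) = gm _ (hf.dbf a) :=
  gm_eq (hf := (Sm.const (1 / 2)).mul ((hf.fder a).add ((Sm.const I).mul (hf.fder (I • a)))))
    (Eventually.of_forall fun y => by simp only [dbf]; ring)

section Jets

variable {h : E → ℝ} (hh : Sm x fun y => (h y : ℂ))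

theorem j1_eq (a : E) : j1 h x a = ev (dz a (gm _ hh)) := by rw [dz_gm]; rfl

theorem j2_eq (a b : E) : j2 h x a b = ev (dz a (db b (gm _ hh))) := by
  rw [db_gm, dz_gm]; rfl

theorem j3_eq (a b c : E) : j3 h x a b c = ev (dz a (dz b (db c (gm _ hh)))) := by
  rw [db_gm, dz_gm, dz_gm]; rfl

theorem j4_eq (a b c d : E) : j4 h x a b c d = ev (dz a (dz b (db c (db d (gm _ hh))))) := by
  rw [db_gm, db_gm, dz_gm, dz_gm]; rfl

include hh

theorem j1_add (a b : E) : j1 h x (a + b) = j1 h x a + j1 h x b := by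
  simp only [j1_eq hh, dz_add_left, map_add]

theorem j1_smul (c : ℂ) (a : E) : j1 h x (c • a) = c * j1 h x a := by
  simp only [j1_eq hh, dz_smul_left, map_mul, ev_cst]

theorem j2_herm : Herm (j2 h x) where
  add a a' b := by simp only [j2_eq hh, dz_add_left, map_add]
  smul c a b := by simp only [j2_eq hh, dz_smul_left, map_mul, ev_cst]
  symm a b := by simp only [j2_eq hh, ← ev_cj, cj_dz, cj_db, cj_real, db_dz]

theorem j3_symm (a b c : E) : j3 h x a b c = j3 h x b a c := by
  rw [j3_eq hh, j3_eq hh, dz_comm]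

theorem j3_add (a a' b c : E) : j3 h x (a + a') b c = j3 h x a b c + j3 h x a' b c := by
  simp only [j3_eq hh, dz_add_left, map_add]

theorem j3_smul (t : ℂ) (a b c : E) : j3 h x (t • a) b c = t * j3 h x a b c := by
  simp only [j3_eq hh, dz_smul_left, map_mul, ev_cst]

theorem j3_add' (a b c c' : E) : j3 h x a b (c + c') = j3 h x a b c + j3 h x a b c' := by
  simp only [j3_eq hh, db_add_left, map_add]

theorem j3_smul' (t : ℂ) (a b c : E) : j3 h x a b (t • c) = conj t * j3 h x a b c := by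
  simp only [j3_eq hh, db_smul_left, dz_mul, dz_cst, zero_mul, zero_add, map_mul, ev_cst]

theorem fderiv_eq_j1 (a : E) : fderiv ℝ h x a = 2 * (j1 h x a).re := by
  have h1 : ((fderiv ℝ h x a : ℝ) : ℂ) = ev (D a (gm _ hh)) := by
    rw [D_real a h hh (hh.rfder a)]; rfl
  have h2 : ev (db a (gm _ hh)) = conj (j1 h x a) := by
    rw [j1_eq hh, ← ev_cj, cj_dz, cj_real]
  rw [D_eq, map_add, h2, ← j1_eq hh, add_conj] at h1
  exact_mod_cast h1

end Jets

end

end Vale.Agent.P250
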